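import Vale.Agent.P092.Stm

namespace Vale.Agent.P092

open Vale.Agent.P086

theorem tp_of (hk : S_ker) (ht : S_tr) {G K : Type} [Group G] [Group K] (hK : ICC K)
    (φ : LG G ≃⋆ₐ[ℂ] LG K) : TP φ := by
  have h := (hk K G φ.symm (ht K G φ.symm hK)).1
  rwa [StarAlgEquiv.symm_symm] at h

theorem goalA_of (hk : S_ker) (ht : S_tr) (htri : S_tri) (hp : S_pair) (hs : S_sub)
    (hf : S_fin) (hc : S_can) (hj : S_conj) : GoalA := by
  intro G K _ _ hG hK θ w hw ι A B hfi h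
  obtain ⟨φ, hgl, hcan⟩ := hj G K θ w hw
  have tp := tp_of hk ht hK φ
  obtain ⟨H, hH⟩ := hs G K φ
  have hle : (⨆ i, B i) ≤ H := iSup_le fun i b hb => by
    obtain ⟨S, hS⟩ := hgl _ (h i).2.1
    obtain ⟨T, hT⟩ := hgl _ (h i).2.2
    exact (hH b).2 (hp G K φ _ _ S T tp (htri G _ _ (h i).1) hS hT b hb)
  exact hcan (hc G K φ tp (hf G K φ _ hG tp hfi fun g hg => (hH g).1 (hle hg)))

theorem fin_ne {n : ℕ} [NeZero n] (hn : 3 ≤ n) (i : Fin n) :
    i ≠ i + 1 ∧ i ≠ i + 1 + 1 := by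
  obtain ⟨m, rfl⟩ : ∃ m, n = m + 3 := ⟨n - 3, by omega⟩
  constructor
  · intro h
    have h1 : (1 : Fin (m + 3)) = 0 := by
      have h2 : i + 1 = i + 0 := by rw [add_zero]; exact h.symm
      exact add_left_cancel h2
    exact absurd (congrArg Fin.val h1) (by simp)
  · intro h
    have h1 : (1 + 1 : Fin (m + 3)) = 0 := by
      have h2 : i + (1 + 1) = i + 0 := by rw [add_zero, ← add_assoc]; exact h.symm
      exact add_left_cancel h2
    have h3 := congrArg Fin.val h1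
    rw [Fin.val_add] at h3
    simp only [Fin.val_one, Fin.val_zero] at h3
    rw [Nat.mod_eq_of_lt (by omega)] at h3
    omega

theorem goalB_of (hk : S_ker) (ht : S_tr) (htri : S_tri) (hp : S_pair) (hs : S_sub)
    (hc : S_can) (hj : S_conj) (hh : S_heis) (hy : S_cyc) (hg : S_gen) : GoalB := by
  intro R _ _ n _ hn G K _ _ π hπ hker hK θ w hw h
  obtain ⟨φ, hgl, hcan⟩ := hj G K θ w hw
  have tp := tp_of hk ht hK φ
  obtain ⟨H, hH⟩ := hs G K φ
  have h1 : ∀ i : Fin n, root R (i + 1) (i + 1 + 1) ≤ H.comap π := fun i e he => by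
    obtain ⟨S, hS⟩ := hgl _ (h i)
    obtain ⟨T, hT⟩ := hgl _ (h (i + 1))
    have hz := hh R n G π hker i (i + 1) (i + 1 + 1) (fin_ne hn i).1 (fin_ne hn (i + 1)).1
      (fin_ne hn i).2
    exact (hH _).2 (hp G K φ _ _ S T tp (htri G _ _ hz) hS hT _ (Subgroup.mem_map_of_mem π he))
  have h2 : ∀ i : Fin n, root R i (i + 1) ≤ H.comap π := fun i => by
    have h3 := h1 (i - 1)
    rwa [sub_add_cancel] at h3
  have h4 : EE R (Finset.univ : Finset (Fin n)) ≤ H.comap π :=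
    iSup₂_le fun i _ => iSup₂_le fun j _ => hy R n _ h2 i j
  refine hcan (hc G K φ tp fun g => ?_)
  obtain ⟨e, rfl⟩ := hπ g
  exact (hH _).1 (h4 (hg R n e))

end Vale.Agent.P092
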