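import Vale.Agent.P092.Stm

/-! P092: averaging over conjugation. -/

open Filter Topology

namespace Vale.Agent.P092

open Vale.Agent.P086

namespace AvgAux

variable {G : Type} [Group G]

theorem W_apply (g : G) (ξ : L2 G) (m : G) : lam g (rho g ξ) m = ξ (g⁻¹ * m * g) := rfl

theorem W_norm (g : G) (ξ : L2 G) : ‖lam g (rho g ξ)‖ = ‖ξ‖ := by
  rw [ContinuousLinearMap.norm_map_of_mem_unitary (lam_mem_unitary g),
    ContinuousLinearMap.norm_map_of_mem_unitary (rho_mem_unitary g)]

omit [Group G] in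
theorem fin (ξ : L2 G) {ε : ℝ} (hε : 0 < ε) : {m | ε ≤ ‖ξ m‖}.Finite := by
  have h1 := ((lp.memℓp ξ).summable (by norm_num)).tendsto_cofinite_zero
  have h2 := h1.eventually (gt_mem_nhds (show (0 : ℝ) < ε ^ (2 : ENNReal).toReal by positivity))
  refine (eventually_cofinite.1 h2).subset fun m hm => not_lt.2 ?_
  exact Real.rpow_le_rpow hε.le hm (by norm_num)

theorem zero_of_inv (h : ICC G) (v : L2 G) (h1 : v 1 = 0) (hv : ∀ g, lam g (rho g v) = v) :
    v = 0 := by
  apply lp.ext
  funext k
  change v k = 0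
  by_cases hk : k = 1
  · rw [hk, h1]
  by_contra e
  refine h k hk ((fin v (norm_pos_iff.2 e)).subset ?_)
  rintro _ ⟨g, rfl⟩
  have := W_apply g v (g * k * g⁻¹)
  rw [hv, show g⁻¹ * (g * k * g⁻¹) * g = k by group] at this
  exact (congrArg norm this).ge

end AvgAux

open AvgAux in
theorem s_avg : S_avg := by
  intro G _ hG V hc hn hW h1 δ hδ
  have cc : Convex ℝ (closure V) := hc.closure
  obtain ⟨v, hv, hmin⟩ := exists_norm_eq_iInf_of_complete_convex hn.closure
    isClosed_closure.isComplete cc (0 : L2 G)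
  have hle : ∀ w ∈ closure V, ‖v‖ ≤ ‖w‖ := fun w hw => by
    have := ciInf_le (f := fun w : closure V => ‖(0 : L2 G) - w‖)
      ⟨0, by rintro _ ⟨w, rfl⟩; exact norm_nonneg _⟩ ⟨w, hw⟩
    rw [← hmin] at this
    simpa using this
  have hWc : ∀ g, lam g (rho g v) ∈ closure V := fun g =>
    map_mem_closure (f := fun ξ => lam g (rho g ξ))
      ((lam g).continuous.comp (rho g).continuous) hv (hW g)
  have hinv : ∀ g, lam g (rho g v) = v := fun g => by
    have m := hle _ (cc hv (hWc g) (a := 1 / 2) (b := 1 / 2) (by norm_num) (by norm_num)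
      (by norm_num))
    rw [← smul_add, norm_smul] at m
    have p := parallelogram_law_with_norm ℂ v (lam g (rho g v))
    rw [W_norm] at p
    have q : ‖(1 / 2 : ℝ)‖ = 1 / 2 := by norm_num
    rw [q] at m
    have z : ‖v - lam g (rho g v)‖ = 0 := by
      nlinarith [norm_nonneg v, norm_nonneg (v - lam g (rho g v)),
        norm_nonneg (v + lam g (rho g v))]
    exact (sub_eq_zero.1 (norm_eq_zero.1 z)).symm
  have v1 : v 1 = 0 := by
    have hcl : IsClosed {ξ : L2 G | inner ℂ (dl 1) ξ = 0} :=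
      isClosed_eq (continuous_const.inner continuous_id) continuous_const
    have := closure_minimal (s := V) (fun ξ hξ => by
      change inner ℂ (dl 1) ξ = 0
      rw [inner_dl_left, h1 ξ hξ]) hcl hv
    rw [← inner_dl_left]
    exact this
  rw [zero_of_inv hG v v1 hinv] at hv
  obtain ⟨ξ, hξ, hd⟩ := Metric.mem_closure_iff.1 hv δ hδ
  refine ⟨ξ, hξ, ?_⟩
  rw [dist_comm, dist_zero_right] at hd
  exact hd.le

end Vale.Agent.P092
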