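import Vale.Agent.P092.Stm

/-! P092: algebra of Fourier coefficients. -/

open Filter Topology

namespace Vale.Agent.P092

open Vale.Agent.P086

namespace B1Aux

variable {G : Type} [Group G]

theorem add (x y : LG G) (g : G) : cf (x + y) g = cf x g + cf y g := rfl

theorem zero (g : G) : cf (0 : LG G) g = 0 := rfl

end B1Aux

theorem s_b1 : S_b1 := by
  intro G _
  refine ⟨fun g => ?_, fun g h hne => ?_, fun x y h => ?_, fun x g => ?_, fun g h => ?_, ?_,
    fun g => ?_, fun g x k => rfl, fun g x k => ?_, fun x y => ?_, B1Aux.add, fun x y g => rfl,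
    fun c x g => rfl, B1Aux.zero, fun ι F x g => ?_⟩
  · show lam g (dl 1) g = 1
    rw [lam_dl, mul_one, dl_apply, if_pos rfl]
  · show lam g (dl 1) h = 0
    rw [lam_dl, mul_one, dl_apply, if_neg hne]
  · refine Subtype.ext (op_ext fun g => ?_)
    rw [vN_apply_dl (mem x), vN_apply_dl (mem y), show x.1 (dl 1) = y.1 (dl 1) from
      lp.ext (funext h)]
  · show (star x.1) (dl 1) g = (starRingEnd ℂ) (x.1 (dl 1) g⁻¹)
    rw [star_apply_dl, vN_apply_dl (mem x) g, rho_apply, one_mul]
  · exact Subtype.ext (map_mul lam g h)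
  · exact Subtype.ext (map_one lam)
  · exact Subtype.ext (star_lam g)
  · show x.1 (lam g (dl 1)) k = x.1 (dl 1) (k * g⁻¹)
    rw [lam_dl, mul_one, vN_apply_dl (mem x) g, rho_apply]
  · exact (tr_apply _).symm.trans ((tr_mul_comm (mem x) (mem y)).trans (tr_apply _))
  · classical
    induction F using Finset.induction_on with
    | empty => exact B1Aux.zero g
    | insert a s ha ih => rw [Finset.sum_insert ha, Finset.sum_insert ha, B1Aux.add, ih]

end Vale.Agent.P092
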