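import Vale.Agent.P092.Stm

/-! P092: convolution and the two-norm. -/

open Filter Topology

namespace Vale.Agent.P092

open Vale.Agent.P086

namespace B2Aux

variable {G : Type} [Group G]

theorem left (x y : LG G) : n2 (x * y) ≤ ‖x.1‖ * n2 y :=
  x.1.le_opNorm (y.1 (dl 1))

theorem sq (x : LG G) : cf (star x * x) 1 = ((n2 x ^ 2 : ℝ) : ℂ) := by
  have h := inner_apply_dl_one x.1 x.1
  rw [inner_self_eq_norm_sq_to_K, tr_apply] at h
  refine Eq.trans h.symm ?_
  simp [n2]

theorem nstar (h1 : B1 G) (x : LG G) : n2 (star x) = n2 x := by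
  have h := sq (star x)
  rw [star_star, h1.comm, sq] at h
  have h' : n2 x ^ 2 = n2 (star x) ^ 2 := by exact_mod_cast h
  exact ((pow_left_inj₀ (norm_nonneg _) (norm_nonneg _) two_ne_zero).1 h').symm

end B2Aux

theorem s_b2 (h1 : S_b1) : S_b2 := by
  intro G _
  refine ⟨fun x y g => ?_, B2Aux.left, fun x y => ?_, B2Aux.nstar (h1 G), fun x g => ?_,
    fun x => ?_, B2Aux.sq, fun x hx => ?_⟩
  · refine hasSum_congr' (hasSum_op_apply x.1 (y.1 (dl 1)) g) fun k => ?_
    rw [vN_apply_dl (mem x) k, rho_apply, mul_comm]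
    rfl
  · rw [← B2Aux.nstar (h1 G) (x * y), star_mul, mul_comm, ← B2Aux.nstar (h1 G) x, ← norm_star y.1]
    exact B2Aux.left (star y) (star x)
  · exact lp.norm_apply_le_norm (by norm_num) (x.1 (dl 1)) g
  · have h := x.1.le_opNorm (dl 1)
    rwa [norm_dl, mul_one] at h
  · have h : star x.1 * x.1 = 1 := congrArg Subtype.val hx
    have h2 : ‖x.1‖ * ‖x.1‖ ≤ 1 := by
      rw [← CStarRing.norm_star_mul_self, h]
      exact ContinuousLinearMap.norm_id_le
    nlinarith [norm_nonneg x.1]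

end Vale.Agent.P092
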