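import Vale.Agent.P092.Stm

/-! P092: approximation and supports. -/

open Filter Topology

namespace Vale.Agent.P092

open Vale.Agent.P086

namespace B3Aux

variable {G : Type} [Group G]

/-- restriction of a vector to a set -/
noncomputable def cut (A : Set G) (ξ : L2 G) : L2 G :=
  ⟨A.indicator ξ, (lp.memℓp ξ).mono' fun g => norm_indicator_le_norm_self _ g⟩

omit [Group G] in
theorem bdd (A : Set G) : IsBoundedLinearMap ℂ (cut A) where
  map_add ξ η := lp.ext (Set.indicator_add' A ξ η)
  map_smul c ξ := lp.ext (Set.indicator_const_smul A c ξ)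
  bound := ⟨1, one_pos, fun ξ => by
    rw [one_mul]
    exact lp.norm_mono (by norm_num) fun g => norm_indicator_le_norm_self _ g⟩

/-- the projection -/
noncomputable def pr (A : Set G) : Bdd (L2 G) := (bdd A).toContinuousLinearMap

theorem pr_apply (A : Set G) (ξ : L2 G) (g : G) : pr A ξ g = A.indicator ξ g := rfl

theorem comm (A : Subgroup G) {a : G} (ha : a ∈ A) : lam a * pr A = pr A * lam a := by
  ext ξ g
  change (A : Set G).indicator ξ (a⁻¹ * g) = (A : Set G).indicator (lam a ξ) g
  by_cases hg : g ∈ A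
  · rw [Set.indicator_of_mem (A.mul_mem (A.inv_mem ha) hg), Set.indicator_of_mem hg, lam_apply]
  · rw [Set.indicator_of_notMem hg, Set.indicator_of_notMem
      fun h => hg ((A.mul_mem_cancel_left (A.inv_mem ha)).1 h)]

theorem pr_dl (A : Subgroup G) : pr (A : Set G) (dl 1) = dl 1 := by
  refine lp.ext (funext fun g => ?_)
  rw [pr_apply]
  by_cases hg : g ∈ A
  · exact Set.indicator_of_mem hg _
  · rw [Set.indicator_of_notMem hg, dl_apply, if_neg fun h : g = 1 => hg (h ▸ A.one_mem)]

end B3Aux

open B3Aux in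
theorem s_b3 : S_b3 := by
  intro G _
  refine ⟨fun x ε hε => ?_, fun x ε hε => ?_, fun A x hx g hg => ?_, fun A g hg => ?_⟩
  · obtain ⟨F, hF⟩ := ((hasSum_dl (x.1 (dl 1))).eventually (Metric.closedBall_mem_nhds _ hε)).exists
    refine ⟨F, le_of_eq_of_le ?_ (mem_closedBall_iff_norm'.1 hF)⟩
    simp [n2, u, cf, lam_dl]
  · have h := ((lp.memℓp (x.1 (dl 1))).summable (by norm_num)).tendsto_cofinite_zero
    have h2 := h.eventually (gt_mem_nhds (Real.rpow_pos_of_pos hε (2 : ENNReal).toReal))
    refine (eventually_cofinite.1 h2).subset fun g hg => not_lt.2 ?_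
    exact Real.rpow_le_rpow hε.le hg (by norm_num)
  · have h1 : pr A ∈ StarSubalgebra.centralizer ℂ (leftReg '' (A : Set G)) := by
      rw [StarSubalgebra.mem_centralizer_iff]
      rintro _ ⟨a, ha, rfl⟩
      refine ⟨comm A ha, ?_⟩
      have : star (leftReg a) = lam a⁻¹ := star_lam a
      rw [this]
      exact comm A (A.inv_mem ha)
    rw [subVN, bicomm, StarSubalgebra.mem_centralizer_iff] at hx
    have h2 := congrArg (fun S : Bdd (L2 G) => S (dl 1) g) (hx _ h1).1
    simp only [mul_apply_eq_comp, pr_dl, pr_apply] at h2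
    by_contra hn
    exact hg (h2.symm.trans (Set.indicator_of_notMem hn _))
  · rw [subVN, bicomm, StarSubalgebra.mem_centralizer_iff]
    intro S hS
    exact ⟨((StarSubalgebra.mem_centralizer_iff ℂ).1 hS _ ⟨g, hg, rfl⟩).1.symm,
      ((StarSubalgebra.mem_centralizer_iff ℂ).1 (star_mem hS) _ ⟨g, hg, rfl⟩).1.symm⟩

end Vale.Agent.P092
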