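import Vale.Agent.P086.Basic

namespace Vale.Agent.P092S

open Vale.Agent.P086

/-- Every nontrivial conjugacy class is infinite. -/
def ICC (G : Type) [Group G] : Prop :=
  ∀ g : G, g ≠ 1 → (Set.range fun h : G => h * g * h⁻¹).Infinite

section

variable {A B : Type} [Semiring A] [StarRing A] [Algebra ℂ A] [StarModule ℂ A]
  [Semiring B] [StarRing B] [Algebra ℂ B] [StarModule ℂ B] {G K : Type} [Group G] [Group K]

/-- `θ (u(P)'') = w v(S)'' w*` for some subgroup `S`. -/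
def Good {M : StarSubalgebra ℂ A} {N : StarSubalgebra ℂ B} (u : G → A) (v : K → B)
    (θ : M ≃⋆ₐ[ℂ] N) (w : N) (P : Subgroup G) : Prop :=
  ∃ S : Subgroup K, ∀ x : M,
    x.1 ∈ bicomm (u '' (P : Set G)) ↔ (star w * θ x * w).1 ∈ bicomm (v '' (S : Set K))

/-- `θ (u_g) = χ(g) w v_{δ(g)} w*` for a group isomorphism `δ` and a character `χ`. -/
def Canon {M : StarSubalgebra ℂ A} {N : StarSubalgebra ℂ B} (u : G → A) (v : K → B)
    (θ : M ≃⋆ₐ[ℂ] N) (w : N) : Prop :=
  ∃ (δ : G ≃* K) (χ : G →* Circle), ∀ (g : G) (x : M), x.1 = u g →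
    (θ x).1 = (χ g : ℂ) • (w.1 * v (δ g) * star w.1)

/-- Every star isomorphism `θ : M → N` and unitary `w` for which all subgroups in `F` are good
are in canonical form. -/
def Rigid (M : StarSubalgebra ℂ A) (N : StarSubalgebra ℂ B) (u : G → A) (v : K → B)
    (F : Set (Subgroup G)) : Prop :=
  ∀ (θ : M ≃⋆ₐ[ℂ] N) (w : N), w ∈ unitary N → (∀ P ∈ F, Good u v θ w P) → Canon u v θ w

end

/-- The case of the group von Neumann algebras and their canonical unitaries. -/
def RigidOn (G K : Type) [Group G] [Group K] (F : Set (Subgroup G)) : Prop :=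
  Rigid (groupVN G).toStarSubalgebra (groupVN K).toStarSubalgebra leftReg leftReg F

/-- `A` and `B` sit in `G` like the two generating axes of a Heisenberg group with centre `Z`. -/
def Heis {G : Type} [Group G] (A B : Subgroup G) : Prop :=
  (A : Set G).Infinite ∧ (∀ a ∈ A, ∀ a' ∈ A, a * a' = a' * a) ∧ ∃ Z : Subgroup G,
    (∀ z ∈ Z, ∀ g ∈ A ⊔ B, z * g = g * z) ∧ (∀ a ∈ A, ∀ b ∈ B, a * b * a⁻¹ * b⁻¹ ∈ Z) ∧
    (∀ a ∈ A, ∀ b ∈ B, a * b ∈ Z → a = 1 ∧ b = 1) ∧
    ∀ a ∈ A, ∀ b ∈ B, a * b = b * a → a = 1 ∨ b = 1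

/-- The root subgroup of the elementary matrices `1 + r E_{ij}` (trivial when `i = j`). -/
def root (R : Type) [CommRing R] {n : ℕ} (i j : Fin n) :
    Subgroup (Matrix.SpecialLinearGroup (Fin n) R) :=
  Subgroup.closure {g | ∃ (h : i ≠ j) (r : R), g = Matrix.SpecialLinearGroup.transvection h r}

end Vale.Agent.P092S
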