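import Vale.Agent.P092.Main
import Vale.Agent.P092.Spec

namespace Vale.Agent.P092

theorem rigidOn_iff (G K : Type) [Group G] [Group K] (F : Set (Subgroup G)) :
    P092S.RigidOn G K F ↔ ∀ (θ : LG G ≃⋆ₐ[ℂ] LG K) (w : LG K), w ∈ unitary (LG K) →
      (∀ P ∈ F, GroupLike θ w P) → Canonical θ w := Iff.rfl

end Vale.Agent.P092
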