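import Vale.Agent.P092.CStm

/-! P092: an algebraic lemma on two commuting endomorphisms of a commutative monoid. -/

namespace Vale.Agent.P092

open Vale.Agent.P086

namespace CAlgAux

theorem pw {M : Type} [CommMonoid M] (a : M →* M) (x x' : M) (hx : x * x' = 1) (p : ℕ)
    (h : a (x ^ p) = x ^ p) : (a x * x') ^ p = 1 := by
  rw [mul_pow, ← map_pow, h, ← mul_pow, hx, one_pow]

theorem can {M : Type} [CommMonoid M] (y x x' : M) (hx : x * x' = 1) : y * x' * x = y := by
  rw [mul_assoc, mul_comm x' x, hx, mul_one]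

theorem fin {M : Type} [CommMonoid M] (c d u v : M) (p q : ℕ) (hpq : Nat.Coprime (p + 1) (q + 1))
    (hc : c ^ (p + 1) = 1) (hd : d ^ (q + 1) = 1) (hu : u ^ (p + 1) = 1) (hv : v ^ (q + 1) = 1)
    (e : u * d = v * c) : u = c := by
  have e1 : u * c ^ p = v * d ^ q := by
    calc u * c ^ p = u * c ^ p * d ^ (q + 1) := by rw [hd, mul_one]
      _ = u * d * (c ^ p * d ^ q) := by rw [pow_succ]; ac_rfl
      _ = v * c * (c ^ p * d ^ q) := by rw [e]
      _ = v * d ^ q * c ^ (p + 1) := by rw [pow_succ]; ac_rfl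
      _ = v * d ^ q := by rw [hc, mul_one]
  have z1 : (u * c ^ p) ^ (p + 1) = 1 := by
    rw [mul_pow, hu, one_mul, ← pow_mul, mul_comm p, pow_mul, hc, one_pow]
  have z2 : (u * c ^ p) ^ (q + 1) = 1 := by
    rw [e1, mul_pow, hv, one_mul, ← pow_mul, mul_comm q, pow_mul, hd, one_pow]
  have z3 : u * c ^ p = 1 := by
    have h1 := orderOf_dvd_of_pow_eq_one z1
    have h2 := orderOf_dvd_of_pow_eq_one z2
    exact orderOf_eq_one_iff.1 (Nat.eq_one_of_dvd_coprimes hpq h1 h2)
  calc u = u * c ^ (p + 1) := by rw [hc, mul_one]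
    _ = u * c ^ p * c := by rw [pow_succ, mul_assoc]
    _ = c := by rw [z3, one_mul]

theorem main {M : Type} [CommMonoid M] (a b : M →* M) (hab : ∀ m, a (b m) = b (a m))
    (x x' : M) (hx : x * x' = 1) (p q : ℕ) (hp : 0 < p) (hq : 0 < q) (hpq : Nat.Coprime p q)
    (ha : a (x ^ p) = x ^ p) (hb : b (x ^ q) = x ^ q) : b (a x * x') = a x * x' := by
  have hc := pw a x x' hx p ha
  have hd := pw b x x' hx q hb
  have e1 := can (a x) x x' hx
  have e2 := can (b x) x x' hx
  generalize a x * x' = c at hc e1 ⊢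
  generalize b x * x' = d at hd e2
  have e3 : b c * (d * x) = a d * (c * x) := by
    rw [e1, e2, ← map_mul, ← map_mul, e1, e2, hab]
  have e4 : b c * d = a d * c := by
    calc b c * d = b c * d * (x * x') := by rw [hx, mul_one]
      _ = b c * (d * x) * x' := by ac_rfl
      _ = a d * (c * x) * x' := by rw [e3]
      _ = a d * c * (x * x') := by ac_rfl
      _ = a d * c := by rw [hx, mul_one]
  have hu : b c ^ p = 1 := by rw [← map_pow, hc, map_one]
  have hv : a d ^ q = 1 := by rw [← map_pow, hd, map_one]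
  obtain ⟨p', rfl⟩ : ∃ p', p = p' + 1 := ⟨p - 1, by omega⟩
  obtain ⟨q', rfl⟩ : ∃ q', q = q' + 1 := ⟨q - 1, by omega⟩
  exact fin c d (b c) (a d) p' q' hpq hc hd hu hv e4

end CAlgAux

theorem c_alg : C_alg := by
  intro M inst hcomm a b hab x x' hx p q hp hq hpq ha hb
  letI : CommMonoid M := { inst with mul_comm := hcomm }
  exact CAlgAux.main a b hab x x' hx p q hp hq hpq ha hb

end Vale.Agent.P092
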