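import Vale.Agent.P092.Stm

/-! P092: statements of the steps for cyclic subgroups. -/

namespace Vale.Agent.P092

open Vale.Agent.P086

/-- `y` is `x` with its coefficients twisted by the character `χ` of `S` -/
def Tw {K : Type} [Group K] (S : Subgroup K) (χ : S →* Circle) (x y : LG K) : Prop :=
  Sup x S ∧ Sup y S ∧ ∀ σ : S, cf y σ.1 = (χ σ : ℂ) * cf x σ.1

def C_mul : Prop := ∀ (K : Type) [Group K] (S : Subgroup K),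
  Sup (1 : LG K) S ∧ ∀ x y : LG K, Sup x S → Sup y S → Sup (x * y) S

def C_comm : Prop := ∀ (K : Type) [Group K] (S : Subgroup K), (∀ a ∈ S, ∀ b ∈ S, a * b = b * a) →
  ∀ x y : LG K, Sup x S → Sup y S → x * y = y * x

def C_tw : Prop := ∀ (K : Type) [Group K] (S : Subgroup K) (χ : S →* Circle) (x : LG K),
  Sup x S → ∃ y, Tw S χ x y

def C_twm : Prop := ∀ (K : Type) [Group K] (S : Subgroup K) (χ : S →* Circle) (x x' y y' : LG K),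
  Tw S χ x x' → Tw S χ y y' → Tw S χ (x * y) (x' * y')

/-- the twists as commuting endomorphisms of the monoid of elements supported in `S` -/
def C_hom : Prop := ∀ (K : Type) [Group K] (S : Subgroup K), ∃ R : Submonoid (LG K),
  (∀ x, x ∈ R ↔ Sup x S) ∧ ∃ α : (S →* Circle) → (R →* R),
    (∀ χ (x : R) (σ : S), cf (α χ x).1 σ.1 = (χ σ : ℂ) * cf x.1 σ.1) ∧
    (∀ χ η x, α χ (α η x) = α η (α χ x)) ∧
    (∀ χ (x : R), (∀ σ : S, cf x.1 σ.1 ≠ 0 → χ σ = 1) ↔ α χ x = x)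

def C_chr : Prop := ∀ (S : Type) [Group S], (∀ a b : S, a * b = b * a) →
  ∀ (T : Subgroup S) (σ : S), σ ∉ T → ∃ χ : S →* Circle, (∀ τ ∈ T, χ τ = 1) ∧ χ σ ≠ 1

def C_alg : Prop := ∀ (M : Type) [Monoid M], (∀ x y : M, x * y = y * x) →
  ∀ a b : M →* M, (∀ m, a (b m) = b (a m)) → ∀ x x' : M, x * x' = 1 → ∀ p q : ℕ, 0 < p → 0 < q →
  Nat.Coprime p q → a (x ^ p) = x ^ p → b (x ^ q) = x ^ q → b (a x * x') = a x * x'

def C_mono : Prop := ∀ (G K : Type) [Group G] [Group K] (φ : LG G ≃⋆ₐ[ℂ] LG K), TP φ →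
  (∀ (A B : Subgroup G) (S T : Subgroup K), Glk φ A S → Glk φ B T → A ≤ B → S ≤ T) ∧
  ∀ (A : ℕ → Subgroup G) (S : ℕ → Subgroup K), (∀ i, Glk φ (A i) (S i)) →
    (∀ a, (∀ i, a ∈ A i) → a = 1) → ∀ σ, (∀ i, σ ∈ S i) → σ = 1

def C_zp : Prop := ∀ (G : Type) [Group G] (g : G), ¬IsOfFinOrder g → ∀ p : ℕ, 1 < p →
  ∀ a, (∀ i : ℕ, a ∈ Subgroup.zpowers (g ^ p ^ i)) → a = 1

def C_ab : Prop := ∀ (G K : Type) [Group G] [Group K] (φ : LG G ≃⋆ₐ[ℂ] LG K) (A : Subgroup G)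
  (S : Subgroup K), Glk φ A S → (∀ a ∈ A, ∀ b ∈ A, a * b = b * a) →
  ∀ σ ∈ S, ∀ τ ∈ S, σ * τ = τ * σ

def C_sup : Prop := ∀ (G : Type) [Group G] (A : Subgroup G) (x : LG G), Sup x A → x.1 ∈ subVN A

def C_cnv : Prop := ∀ (G K : Type) [Group G] [Group K] (θ : LG G ≃⋆ₐ[ℂ] LG K) (w : LG K),
  w ∈ unitary (LG K) → (∀ φ : LG G ≃⋆ₐ[ℂ] LG K, TP φ) → Canonical θ w → ∀ A, GroupLike θ w A

/-- one step: the support of `x` lies in one coset of `P` -/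
def C_key : Prop := ∀ (K : Type) [Group K] (S P : Subgroup K) (T : ℕ → Subgroup K)
  (x x' : LG K) (p : ℕ) (q : ℕ → ℕ), (∀ a ∈ S, ∀ b ∈ S, a * b = b * a) → Sup x S → Sup x' S →
  x * x' = 1 → 0 < p → (∀ j, 0 < q j ∧ Nat.Coprime p (q j)) → Sup (x ^ p) P →
  (∀ j, Sup (x ^ q j) (T j)) → (∀ σ, (∀ j, σ ∈ T j) → σ = 1) →
  ∀ σ τ, cf x σ ≠ 0 → cf x τ ≠ 0 → σ * τ⁻¹ ∈ P

def C_cyc : Prop := ∀ (G K : Type) [Group G] [Group K] (φ : LG G ≃⋆ₐ[ℂ] LG K), TP φ →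
  ∀ g : G, ¬IsOfFinOrder g → (∀ i : ℕ, ∃ S, Glk φ (Subgroup.zpowers (g ^ 2 ^ i)) S) →
  (∀ i : ℕ, ∃ S, Glk φ (Subgroup.zpowers (g ^ 3 ^ i)) S) → Mono φ g

end Vale.Agent.P092
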