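import Vale.Agent.P092.Spec

namespace Vale.Agent.P092S

open Vale.Agent.P086

section

variable {A B : Type} [Semiring A] [StarRing A] [Algebra ℂ A] [StarModule ℂ A]
  [Semiring B] [StarRing B] [Algebra ℂ B] [StarModule ℂ B] {G K : Type} [Group G] [Group K]

/-- For every star isomorphism `θ : M → N` and unitary `w`: all subgroups in `F` are good if and
only if `θ` is in canonical form with the unitary `w`. -/
def Detects (M : StarSubalgebra ℂ A) (N : StarSubalgebra ℂ B) (u : G → A) (v : K → B)
    (F : Set (Subgroup G)) : Prop :=
  ∀ (θ : M ≃⋆ₐ[ℂ] N) (w : N), w ∈ unitary N → ((∀ P ∈ F, Good u v θ w P) ↔ Canon u v θ w)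

end

/-- The case of the group von Neumann algebras and their canonical unitaries. -/
def DetectsOn (G K : Type) [Group G] [Group K] (F : Set (Subgroup G)) : Prop :=
  Detects (groupVN G).toStarSubalgebra (groupVN K).toStarSubalgebra leftReg leftReg F

end Vale.Agent.P092S
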