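import Vale.Agent.P092.Main
import Vale.Agent.P092.CStm
import Vale.Agent.P092.Spec2

namespace Vale.Agent.P092

theorem detectsOn_iff (G K : Type) [Group G] [Group K] (F : Set (Subgroup G)) :
    P092S.DetectsOn G K F ↔ ∀ (θ : LG G ≃⋆ₐ[ℂ] LG K) (w : LG K), w ∈ unitary (LG K) →
      ((∀ P ∈ F, GroupLike θ w P) ↔ Canonical θ w) := Iff.rfl

theorem detects_of (hc : C_cnv) {G K : Type} [Group G] [Group K] {F : Set (Subgroup G)}
    (tp : ∀ φ : LG G ≃⋆ₐ[ℂ] LG K, TP φ) (H : Subgroup G)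
    (hH : ∀ φ : LG G ≃⋆ₐ[ℂ] LG K, (∀ g ∈ H, Mono φ g) → ∀ g, Mono φ g) (X : Set G)
    (hX : H ≤ Subgroup.closure X)
    (h : ∀ φ : LG G ≃⋆ₐ[ℂ] LG K, (∀ P ∈ F, ∃ S, Glk φ P S) → ∀ g ∈ X, Mono φ g) :
    P092S.DetectsOn G K F := by
  refine (detectsOn_iff G K F).2 fun θ w hw => ⟨fun hF => ?_, fun hcan P _ => ?_⟩
  · obtain ⟨φ, hgl, hcan⟩ := s_conj base G K θ w hw
    obtain ⟨L, hL⟩ := s_sub base G K φ
    have hle : Subgroup.closure X ≤ L := (Subgroup.closure_le L).2 fun g hg =>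
      (hL g).2 (h φ (fun P hP => hgl P (hF P hP)) g hg)
    exact hcan (can0 G K φ (tp φ) (hH φ fun g hg => (hL g).1 (hle (hX hg))))
  · exact hc G K θ w hw tp hcan P

theorem detects_icc (hc : C_cnv) {G K : Type} [Group G] [Group K] {F : Set (Subgroup G)}
    (hG : ICC G) (X : Set G) (hX : (Subgroup.closure X).FiniteIndex)
    (h : ∀ φ : LG G ≃⋆ₐ[ℂ] LG K, TP φ → (∀ P ∈ F, ∃ S, Glk φ P S) → ∀ g ∈ X, Mono φ g) :
    P092S.DetectsOn G K F :=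
  detects_of hc (fun φ => tr0 G K φ hG) _ (fun φ => fin0 G K φ _ hG (tr0 G K φ hG) hX) X le_rfl
    fun φ => h φ (tr0 G K φ hG)

theorem cyc1 (hc : C_cnv) (hy : C_cyc) (G K : Type) [Group G] [Group K] (hG : ICC G) (X : Set G)
    (h1 : ∀ g ∈ X, ¬IsOfFinOrder g) (h2 : (Subgroup.closure X).FiniteIndex) :
    P092S.DetectsOn G K {P | ∃ g ∈ X, ∃ i : ℕ,
      P = Subgroup.zpowers (g ^ 2 ^ i) ∨ P = Subgroup.zpowers (g ^ 3 ^ i)} :=
  detects_icc hc hG X h2 fun φ tp hF g hg => hy G K φ tp g (h1 g hg)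
    (fun i => hF _ ⟨g, hg, i, Or.inl rfl⟩) fun i => hF _ ⟨g, hg, i, Or.inr rfl⟩

theorem cyc2 (hc : C_cnv) (hy : C_cyc) (G K : Type) [Group G] [Group K] (hG : ICC G)
    (H : Subgroup G) (h1 : H.FiniteIndex) (h2 : ∀ g ∈ H, IsOfFinOrder g → g = 1) :
    P092S.DetectsOn G K {P | ∃ g ∈ H, P = Subgroup.zpowers g} := by
  refine detects_icc hc hG (H : Set G) (by rwa [Subgroup.closure_eq]) fun φ tp hF g hg => ?_
  by_cases h : g = 1
  · refine ⟨1, 1, ?_⟩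
    rw [h, (base.b1 G).one, map_one, (base.b1 K).one, one_smul]
  · exact hy G K φ tp g (fun hf => h (h2 g hg hf))
      (fun i => hF _ ⟨_, H.pow_mem hg _, rfl⟩) fun i => hF _ ⟨_, H.pow_mem hg _, rfl⟩

theorem iffB (hc : C_cnv) (R : Type) [EuclideanDomain R] [Infinite R] (n : ℕ) [NeZero n]
    (hn : 3 ≤ n) (G K : Type) [Group G] [Group K]
    (π : Matrix.SpecialLinearGroup (Fin n) R →* G) (h1 : Function.Surjective π)
    (h2 : π.ker ≤ Subgroup.center _) (hK : ICC K) :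
    P092S.DetectsOn G K (Set.range fun i : Fin n => (root R i (i + 1)).map π) :=
  (detectsOn_iff G K _).2 fun θ w hw =>
    ⟨fun h => goalB R n hn G K π h1 h2 hK θ w hw fun i => h _ ⟨i, rfl⟩,
      fun h P _ => hc G K θ w hw (tp_of ker0 tr0 hK) h P⟩

theorem iffA (hc : C_cnv) (G K : Type) [Group G] [Group K] (hG : ICC G) (ι : Type)
    (A B : ι → Subgroup G) (h1 : (⨆ i, B i).FiniteIndex) (h2 : ∀ i, Heis (A i) (B i)) :
    P092S.DetectsOn G K (Set.range A ∪ Set.range B) := by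
  refine detects_icc hc hG (⋃ i, (B i : Set G)) (by rwa [← Subgroup.iSup_eq_closure])
    fun φ tp hF g hg => ?_
  obtain ⟨i, hi⟩ := Set.mem_iUnion.1 hg
  obtain ⟨S, hS⟩ := hF _ (Or.inl ⟨i, rfl⟩)
  obtain ⟨T, hT⟩ := hF _ (Or.inr ⟨i, rfl⟩)
  exact pair0 G K φ _ _ S T tp (s_tri G _ _ (h2 i)) hS hT g hi

theorem iffC (hc : C_cnv) (G K : Type) [Group G] [Group K] (hG : ICC G) (ι : Type)
    (a b : ι → G) (A B C : ι → Subgroup G)
    (h1 : (Subgroup.closure (Set.range a ∪ Set.range b)).FiniteIndex)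
    (h2 : ∀ i, a i ∈ A i ∧ b i ∈ B i ∧ a i * b i ∈ C i ∧
      A i ⊓ B i = ⊥ ∧ A i ⊓ C i = ⊥ ∧ B i ⊓ C i = ⊥) :
    P092S.DetectsOn G K (Set.range A ∪ Set.range B ∪ Set.range C) := by
  refine detects_icc hc hG _ h1 fun φ tp hF g hg => ?_
  have hm : ∀ i, Mono φ (a i) ∧ Mono φ (b i) := fun i => by
    obtain ⟨S, hS⟩ := hF _ (Or.inl (Or.inl ⟨i, rfl⟩))
    obtain ⟨T, hT⟩ := hF _ (Or.inl (Or.inr ⟨i, rfl⟩))
    obtain ⟨W, hW⟩ := hF _ (Or.inr ⟨i, rfl⟩)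
    obtain ⟨k1, k2, k3, k4, k5, k6⟩ := h2 i
    exact web base ker0 tp hS hT hW k4 k5 k6 k1 k2 k3
  rcases hg with ⟨i, rfl⟩ | ⟨i, rfl⟩
  · exact (hm i).1
  · exact (hm i).2

end Vale.Agent.P092
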