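import Vale.Agent.P092.CStm

/-! P092: characters of an abelian group separate a point from a subgroup. -/

namespace Vale.Agent.P092

open Vale.Agent.P086

namespace CChrAux

/-- the map `q ↦ exp (2 π i q)` on the rationals -/
noncomputable def e0 : ℚ →+ Additive Circle :=
  AddMonoidHom.mk' (fun q => Additive.ofMul (Circle.exp ((q : ℝ) * (2 * Real.pi)))) (by
    intro a b
    rw [← ofMul_mul, ← Circle.exp_add]
    push_cast
    rw [add_mul])

theorem e0_eq_zero (q : ℚ) : e0 q = 0 ↔ q ∈ AddSubgroup.zmultiples (1 : ℚ) := by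
  have hpi : (2 * Real.pi) ≠ 0 := by positivity
  have h1 : e0 q = 0 ↔ Circle.exp ((q : ℝ) * (2 * Real.pi)) = 1 := Iff.rfl
  rw [h1, Circle.exp_eq_one, AddSubgroup.mem_zmultiples_iff]
  constructor
  · rintro ⟨n, hn⟩
    refine ⟨n, ?_⟩
    have h2 : (q : ℝ) = n := mul_right_cancel₀ hpi hn
    have h3 : q = (n : ℚ) := by exact_mod_cast h2
    rw [h3]
    simp
  · rintro ⟨n, hn⟩
    refine ⟨n, ?_⟩
    rw [← hn]
    simp

/-- the induced map on the rational circle -/
noncomputable def e1 : AddCircle (1 : ℚ) →+ Additive Circle :=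
  QuotientAddGroup.lift (AddSubgroup.zmultiples (1 : ℚ)) e0 (fun q hq => (e0_eq_zero q).2 hq)

theorem e1_ne (x : AddCircle (1 : ℚ)) (hx : x ≠ 0) : e1 x ≠ 0 := by
  induction x using QuotientAddGroup.induction_on with
  | H q =>
    intro h
    apply hx
    have h1 : e0 q = 0 := h
    exact (QuotientAddGroup.eq_zero_iff q).2 ((e0_eq_zero q).1 h1)

theorem aux (S : Type) [CommGroup S] (T : Subgroup S) (σ : S) (hσ : σ ∉ T) :
    ∃ χ : S →* Circle, (∀ τ ∈ T, χ τ = 1) ∧ χ σ ≠ 1 := by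
  have h1 : (QuotientGroup.mk σ : S ⧸ T) ≠ 1 := fun h => hσ ((QuotientGroup.eq_one_iff σ).1 h)
  have h2 : (Additive.ofMul (QuotientGroup.mk σ : S ⧸ T)) ≠ 0 := h1
  obtain ⟨c, hc⟩ := CharacterModule.exists_character_apply_ne_zero_of_ne_zero h2
  refine ⟨MonoidHom.mk' (fun s => Additive.toMul (e1 (c (Additive.ofMul
    (QuotientGroup.mk s : S ⧸ T))))) ?_, ?_, ?_⟩
  · intro a b
    rw [QuotientGroup.mk_mul, ofMul_mul, map_add, map_add, toMul_add]
  · intro τ hτ
    have h3 : (QuotientGroup.mk τ : S ⧸ T) = 1 := (QuotientGroup.eq_one_iff τ).2 hτ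
    show Additive.toMul (e1 (c (Additive.ofMul (QuotientGroup.mk τ : S ⧸ T)))) = 1
    rw [h3, ofMul_one, map_zero, map_zero, toMul_zero]
  · intro h
    exact e1_ne _ hc h

end CChrAux

theorem c_chr : C_chr := by
  intro S hS h T σ hσ
  exact @CChrAux.aux S { hS with mul_comm := h } T σ hσ

end Vale.Agent.P092
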