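import Vale.Agent.P092.Stm

open Filter Topology

namespace Vale.Agent.P092

open Vale.Agent.P086

namespace ConjAux

theorem exists_conj {A : Type} [Ring A] [StarRing A] [Algebra ℂ A] (w : A)
    (hw : w ∈ unitary A) : ∃ c : A ≃⋆ₐ[ℂ] A, ∀ y, c y = star w * y * w := by
  have h1 : star w * w = 1 := Unitary.star_mul_self_of_mem hw
  have h2 : w * star w = 1 := Unitary.mul_star_self_of_mem hw
  refine ⟨{ toFun := fun y => star w * y * w
            invFun := fun y => w * y * star w
            left_inv := fun y => ?_
            right_inv := fun y => ?_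
            map_mul' := fun y z => ?_
            map_add' := fun y z => ?_
            map_star' := fun y => ?_
            map_smul' := fun c y => ?_ }, fun _ => rfl⟩
  · calc w * (star w * y * w) * star w = (w * star w) * y * (w * star w) := by
          simp only [mul_assoc]
      _ = y := by rw [h2, one_mul, mul_one]
  · calc star w * (w * y * star w) * w = (star w * w) * y * (star w * w) := by
          simp only [mul_assoc]
      _ = y := by rw [h1, one_mul, mul_one]
  · calc star w * (y * z) * w = star w * y * (w * star w) * z * w := by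
          rw [h2, mul_one]; simp only [mul_assoc]
      _ = star w * y * w * (star w * z * w) := by simp only [mul_assoc]
  · simp only [mul_add, add_mul]
  · simp only [star_mul, star_star, mul_assoc]
  · simp only [mul_smul_comm, smul_mul_assoc]

theorem back {A : Type} [Ring A] [StarRing A] [Algebra ℂ A] (w y z : A) (c : ℂ)
    (hw : w ∈ unitary A) (h : star w * y * w = c • z) : y = c • (w * z * star w) := by
  have h2 : w * star w = 1 := Unitary.mul_star_self_of_mem hw
  calc y = (w * star w) * y * (w * star w) := by rw [h2, one_mul, mul_one]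
    _ = w * (star w * y * w) * star w := by simp only [mul_assoc]
    _ = c • (w * z * star w) := by rw [h, mul_smul_comm, smul_mul_assoc]

end ConjAux

open ConjAux in
theorem s_conj (hb : Base) : S_conj := by
  intro G K _ _ θ w hw
  obtain ⟨c, hc⟩ := exists_conj w hw
  have hφ : ∀ x, (θ.trans c) x = star w * θ x * w := fun x => hc (θ x)
  refine ⟨θ.trans c, ?_, ?_⟩
  · rintro A ⟨S, hS⟩
    refine ⟨S, fun σ hσ => ?_, fun a ha => ?_⟩
    · refine (hb.b3 G).sup A _ ((hS _).2 ?_)
      rw [← hφ, StarAlgEquiv.apply_symm_apply]
      exact (hb.b3 K).mem S σ hσ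
    · refine (hb.b3 K).sup S _ ?_
      rw [hφ]
      exact (hS _).1 ((hb.b3 G).mem A a ha)
  · rintro ⟨δ, χ, h⟩
    refine ⟨δ, χ, fun g x hx => ?_⟩
    have hxu : x = u g := Subtype.ext hx
    have h1 := h g
    rw [hφ] at h1
    rw [hxu, back w _ _ _ hw h1]
    rfl

end Vale.Agent.P092
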