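import Vale.Agent.P092.CStm
import Vale.Agent.P092.Conj

/-! P092: a canonical isomorphism is group-like. -/

namespace Vale.Agent.P092

open Vale.Agent.P086

namespace CCnvAux

theorem fwd {A : Type} [Ring A] [StarRing A] [Algebra ℂ A] (w z : A) (c : ℂ)
    (hw : w ∈ unitary A) : star w * (c • (w * z * star w)) * w = c • z := by
  have h1 : star w * w = 1 := Unitary.star_mul_self_of_mem hw
  calc star w * (c • (w * z * star w)) * w = c • ((star w * w) * z * (star w * w)) := by
        simp only [mul_smul_comm, smul_mul_assoc, mul_assoc]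
    _ = c • z := by rw [h1, one_mul, mul_one]

end CCnvAux

open CCnvAux in
theorem c_cnv (hb : Base) (hs : C_sup) : C_cnv := by
  intro G K _ _ θ w hw htp ⟨δ, χ, h⟩ A
  obtain ⟨c, hc⟩ := ConjAux.exists_conj w hw
  have hφ : ∀ x, (θ.trans c) x = star w * θ x * w := fun x => hc (θ x)
  have h1 : ∀ g, (θ.trans c) (u g) = (χ g : ℂ) • u (δ g) := fun g => by
    have e : θ (u g) = (χ g : ℂ) • (w * u (δ g) * star w) := Subtype.ext (h g (u g) rfl)
    rw [hφ, e, fwd w _ _ hw]
  have key : ∀ (x : LG G) g, cf x g = (χ g⁻¹ : ℂ) * cf ((θ.trans c) x) (δ g) := fun x g => by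
    have a := htp (θ.trans c) (u g⁻¹ * x)
    have m : (θ.trans c) (u g⁻¹ * x) = (θ.trans c) (u g⁻¹) * (θ.trans c) x :=
      (θ.trans c).map_mul' _ _
    rw [m, (hb.b1 G).left, inv_inv, mul_one] at a
    rw [← a, h1, smul_mul_assoc, (hb.b1 K).smul, (hb.b1 K).left, map_inv δ, inv_inv, mul_one]
  refine ⟨A.map δ.toMonoidHom, fun x => ?_⟩
  rw [← hφ]
  constructor
  · intro hx
    refine hs K _ _ fun k hk => ?_
    obtain ⟨g, rfl⟩ := δ.surjective k
    refine ⟨g, (hb.b3 G).sup A x hx g ?_, rfl⟩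
    rw [key]
    exact mul_ne_zero (Circle.coe_ne_zero _) hk
  · intro hx
    refine hs G _ _ fun g hg => ?_
    obtain ⟨a, ha, e⟩ := (hb.b3 K).sup _ _ hx (δ g) fun l => hg (by rw [key, l, mul_zero])
    rwa [← δ.injective e]

end Vale.Agent.P092
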