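import Vale.Agent.P092.Stm

namespace Vale.Agent.P092

open Vale.Agent.P086

namespace WebAux

variable {G K : Type} [Group G] [Group K]

theorem dis (hb : Base) (hk : S_ker) {φ : LG G ≃⋆ₐ[ℂ] LG K} (tp : TP φ) {A B : Subgroup G}
    {S T : Subgroup K} (hA : Glk φ A S) (hB : Glk φ B T) (h : A ⊓ B = ⊥) {σ : K} (hS : σ ∈ S)
    (hT : σ ∈ T) : σ = 1 := by
  obtain ⟨-, h2, -, h4, -⟩ := hk G K φ tp
  obtain ⟨g, hg⟩ := h4 σ
  have h5 : cf (φ.symm (u σ)) g ≠ 0 := by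
    rw [h2]
    exact (map_ne_zero _).2 hg
  have h6 : g ∈ A ⊓ B := ⟨hA.1 σ hS g h5, hB.1 σ hT g h5⟩
  rw [h, Subgroup.mem_bot] at h6
  rw [h6, (hb.b1 G).one, map_one, ← (hb.b1 K).one] at hg
  by_contra hne
  exact hg ((hb.b1 K).ne 1 σ hne)

theorem coef (hb : Base) {x y : LG K} {S T : Subgroup K} (hx : Sup x S) (hy : Sup y T)
    (h : ∀ σ ∈ S, σ ∈ T → σ = 1) {s t : K} (hs : s ∈ S) (ht : t ∈ T) :
    cf (x * y) (s * t) = cf x s * cf y t := by
  have h1 := (hb.b2 K).conv x y (s * t)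
  have h2 : HasSum (fun k => cf x (s * t * k⁻¹) * cf y k) (cf x (s * t * t⁻¹) * cf y t) := by
    refine hasSum_single t fun k hk => ?_
    by_contra hne
    have h3 := hx _ (left_ne_zero_of_mul hne)
    have h4 := hy _ (right_ne_zero_of_mul hne)
    have h5 : t * k⁻¹ ∈ S := by
      have h6 := S.mul_mem (S.inv_mem hs) h3
      rwa [mul_assoc, inv_mul_cancel_left] at h6
    have h7 := h _ h5 (T.mul_mem ht (T.inv_mem h4))
    exact hk (mul_inv_eq_one.1 h7).symm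
  rw [h1.unique h2, mul_inv_cancel_right]

theorem single (hb : Base) {x : LG K} {s : K} (h : ∀ k, cf x k ≠ 0 → k = s) :
    x = cf x s • u s := by
  refine (hb.b1 K).ext _ _ fun k => ?_
  rw [(hb.b1 K).smul]
  by_cases hk : k = s
  · rw [hk, (hb.b1 K).self, mul_one]
  · rw [(hb.b1 K).ne s k hk, mul_zero]
    by_contra hne
    exact hk (h k hne)

end WebAux

theorem web (hb : Base) (hk : S_ker) {G K : Type} [Group G] [Group K]
    {φ : LG G ≃⋆ₐ[ℂ] LG K} (tp : TP φ) {A B C : Subgroup G} {S T W : Subgroup K}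
    (hA : Glk φ A S) (hB : Glk φ B T) (hC : Glk φ C W) (h1 : A ⊓ B = ⊥) (h2 : A ⊓ C = ⊥)
    (h3 : B ⊓ C = ⊥) {a b : G} (ha : a ∈ A) (hb' : b ∈ B) (hc : a * b ∈ C) :
    Mono φ a ∧ Mono φ b := by
  obtain ⟨-, -, h4, -, -⟩ := hk G K φ tp
  obtain ⟨s, hs⟩ := h4 a
  obtain ⟨t, ht⟩ := h4 b
  have key : ∀ s t, cf (φ (u a)) s ≠ 0 → cf (φ (u b)) t ≠ 0 → s * t ∈ W := fun s t hs ht => by
    refine hC.2 _ hc _ ?_
    rw [(hb.b1 G).mul, map_mul, WebAux.coef hb (hA.2 a ha) (hB.2 b hb')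
      (fun σ p q => WebAux.dis hb hk tp hA hB h1 p q) (hA.2 a ha s hs) (hB.2 b hb' t ht)]
    exact mul_ne_zero hs ht
  constructor
  · refine ⟨_, s, WebAux.single hb fun k hk' => ?_⟩
    have h5 := W.mul_mem (key k t hk' ht) (W.inv_mem (key s t hs ht))
    rw [mul_inv_rev, mul_assoc, mul_inv_cancel_left] at h5
    exact mul_inv_eq_one.1 (WebAux.dis hb hk tp hA hC h2
      (S.mul_mem (hA.2 a ha k hk') (S.inv_mem (hA.2 a ha s hs))) h5)
  · refine ⟨_, t, WebAux.single hb fun k hk' => ?_⟩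
    have h5 := W.mul_mem (W.inv_mem (key s t hs ht)) (key s k hs hk')
    rw [mul_inv_rev, mul_assoc, inv_mul_cancel_left] at h5
    exact (inv_mul_eq_one.1 (WebAux.dis hb hk tp hB hC h3
      (T.mul_mem (T.inv_mem (hB.2 b hb' t ht)) (hB.2 b hb' k hk')) h5)).symm

end Vale.Agent.P092
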