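import Vale.Agent.P092.CStm
import Vale.Agent.P092.Web

/-! P092: elements of infinite order go to monomials. -/

namespace Vale.Agent.P092

open Vale.Agent.P086

namespace CCycAux

theorem pw (hb : Base) {G K : Type} [Group G] [Group K] (φ : LG G ≃⋆ₐ[ℂ] LG K) (g : G) (n : ℕ) :
    φ (u g) ^ n = φ (u (g ^ n)) := by
  induction n with
  | zero => rw [pow_zero, pow_zero, (hb.b1 G).one, map_one]
  | succ n ih => rw [pow_succ, pow_succ, (hb.b1 G).mul, map_mul, ih]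

theorem cm {G : Type} [Group G] (g : G) :
    ∀ a ∈ Subgroup.zpowers g, ∀ b ∈ Subgroup.zpowers g, a * b = b * a := by
  intro a ha b hb
  obtain ⟨m, rfl⟩ := Subgroup.mem_zpowers_iff.1 ha
  obtain ⟨n, rfl⟩ := Subgroup.mem_zpowers_iff.1 hb
  exact (Commute.zpow_zpow_self g m n).eq

end CCycAux

theorem c_cyc (hb : Base) (hk : S_ker) (hm : C_mono) (hz : C_zp) (hab : C_ab) (hy : C_key) :
    C_cyc := by
  intro G K _ _ φ tp g hg h2 h3
  choose S hS using h2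
  choose T hT using h3
  have g0 : g ∈ Subgroup.zpowers (g ^ 2 ^ 0) := by
    rw [pow_zero, pow_one]
    exact Subgroup.mem_zpowers g
  have x1 : φ (u g) * φ (u g⁻¹) = 1 := by
    rw [← map_mul, ← (hb.b1 G).mul, mul_inv_cancel, (hb.b1 G).one, map_one]
  have s1 : ∀ i, Sup (φ (u g) ^ 2 ^ i) (S i) := fun i => by
    rw [CCycAux.pw hb]
    exact (hS i).2 _ (Subgroup.mem_zpowers _)
  have t1 : ∀ j, Sup (φ (u g) ^ 3 ^ j) (T j) := fun j => by
    rw [CCycAux.pw hb]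
    exact (hT j).2 _ (Subgroup.mem_zpowers _)
  have s0 := (hm G K φ tp).2 _ S hS (hz G g hg 2 (by norm_num))
  have t0 := (hm G K φ tp).2 _ T hT (hz G g hg 3 (by norm_num))
  obtain ⟨τ, hτ⟩ := (hk G K φ tp).2.2.1 g
  refine ⟨_, τ, WebAux.single hb fun σ hσ => mul_inv_eq_one.1 (s0 _ fun i => ?_)⟩
  exact hy K (S 0) (S i) T (φ (u g)) (φ (u g⁻¹)) (2 ^ i) (fun j => 3 ^ j)
    (hab G K φ _ _ (hS 0) (CCycAux.cm _)) ((hS 0).2 _ g0) ((hS 0).2 _ (inv_mem g0)) x1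
    (by positivity) (fun j => ⟨by positivity, Nat.Coprime.pow i j (by norm_num)⟩) (s1 i) t1 t0
    σ τ hσ hτ

end Vale.Agent.P092
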