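import Vale.Agent.P092.CStm

namespace Vale.Agent.P092

open Vale.Agent.P086

namespace CHomAux

theorem uniq (hb : Base) {K : Type} [Group K] {S : Subgroup K} {y z : LG K} (hy : Sup y S)
    (hz : Sup z S) (h : ∀ σ : S, cf y σ.1 = cf z σ.1) : y = z := by
  refine (hb.b1 K).ext _ _ fun g => ?_
  by_cases hg : g ∈ S
  · exact h ⟨g, hg⟩
  · have e1 : cf y g = 0 := by_contra fun k => hg (hy g k)
    have e2 : cf z g = 0 := by_contra fun k => hg (hz g k)
    rw [e1, e2]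

theorem tw_one (hb : Base) {K : Type} [Group K] {S : Subgroup K} (χ : S →* Circle) (σ : S) :
    cf (1 : LG K) σ.1 = (χ σ : ℂ) * cf (1 : LG K) σ.1 := by
  rw [← (hb.b1 K).one]
  by_cases h : σ = 1
  · rw [h, map_one, Circle.coe_one, one_mul]
  · rw [(hb.b1 K).ne 1 σ.1 fun k => h (Subtype.ext k), mul_zero]

end CHomAux

open CHomAux in
theorem c_hom (hb : Base) (hm : C_mul) (ht : C_tw) (hw : C_twm) : C_hom := by
  intro K _ S
  obtain ⟨m1, m2⟩ := hm K S
  let R : Submonoid (LG K) :=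
    { carrier := {x | Sup x S}
      mul_mem' := fun {x y} hx hy => m2 x y hx hy
      one_mem' := m1 }
  choose tw htw using ht K S
  let f : (S →* Circle) → R → R := fun χ x => ⟨tw χ x.1 x.2, (htw χ x.1 x.2).2.1⟩
  have hf : ∀ χ (x : R), Tw S χ x.1 (f χ x).1 := fun χ x => htw χ x.1 x.2
  have u1 : ∀ {y z : R}, (∀ σ : S, cf y.1 σ.1 = cf z.1 σ.1) → y = z :=
    fun {y z} h => Subtype.ext (uniq hb y.2 z.2 h)
  let α : (S →* Circle) → (R →* R) := fun χ =>
    { toFun := f χ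
      map_one' := u1 fun σ => ((hf χ 1).2.2 σ).trans (tw_one hb χ σ).symm
      map_mul' := fun x y => u1 fun σ => ((hf χ (x * y)).2.2 σ).trans
        ((hw K S χ _ _ _ _ (hf χ x) (hf χ y)).2.2 σ).symm }
  have hα : ∀ χ (x : R) (σ : S), cf (α χ x).1 σ.1 = (χ σ : ℂ) * cf x.1 σ.1 :=
    fun χ x => (hf χ x).2.2
  refine ⟨R, fun _ => Iff.rfl, α, hα, fun χ η x => u1 fun σ => ?_, fun χ x => ⟨fun h => ?_, ?_⟩⟩
  · rw [hα, hα, hα, hα, mul_left_comm]
  · refine u1 fun σ => ?_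
    rw [hα]
    by_cases k : cf x.1 σ.1 = 0
    · rw [k, mul_zero]
    · rw [h σ k, Circle.coe_one, one_mul]
  · intro h σ k
    have e := hα χ x σ
    rw [h] at e
    exact Circle.coe_eq_one.1 ((mul_eq_right₀ k).1 e.symm)

end Vale.Agent.P092
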