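import Vale.Agent.P092.CStm
import Vale.Agent.P092.Web

/-! P092: the key step for cyclic subgroups. -/

namespace Vale.Agent.P092

open Vale.Agent.P086

namespace CKeyAux

theorem fix {K : Type} [Group K] {S : Subgroup K} {R : Submonoid (LG K)}
    {α : (S →* Circle) → (R →* R)}
    (h3 : ∀ χ (x : R), (∀ σ : S, cf x.1 σ.1 ≠ 0 → χ σ = 1) ↔ α χ x = x)
    (P : Subgroup K) (χ : S →* Circle) (hχ : ∀ τ ∈ P.subgroupOf S, χ τ = 1) (X : R) (p : ℕ)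
    (hp : Sup (X.1 ^ p) P) : α χ (X ^ p) = X ^ p := by
  refine (h3 χ (X ^ p)).1 fun s hs => hχ s ?_
  rw [Subgroup.mem_subgroupOf]
  refine hp _ ?_
  rwa [SubmonoidClass.coe_pow] at hs

end CKeyAux

theorem c_key (hb : Base) (hc : C_comm) (hh : C_hom) (hx : C_chr) (ha : C_alg) : C_key := by
  intro K _ S P T x x' p q hS hxS hx'S hxx hp hq hP hT hone σ τ hσ hτ
  obtain ⟨R, hR, α, h1, h2, h3⟩ := hh K S
  have hcomm : ∀ a b : R, a * b = b * a := fun a b =>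
    Subtype.ext (hc K S hS a.1 b.1 ((hR _).1 a.2) ((hR _).1 b.2))
  have hS' : ∀ a b : S, a * b = b * a := fun a b => Subtype.ext (hS _ a.2 _ b.2)
  have hσS : σ ∈ S := hxS σ hσ
  have hτS : τ ∈ S := hxS τ hτ
  by_contra hne
  let X : R := ⟨x, (hR _).2 hxS⟩
  let X' : R := ⟨x', (hR _).2 hx'S⟩
  have hXX : X * X' = 1 := Subtype.ext hxx
  have hnot : (⟨σ, hσS⟩ * (⟨τ, hτS⟩ : S)⁻¹ : S) ∉ P.subgroupOf S := by
    rw [Subgroup.mem_subgroupOf]
    exact hne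
  obtain ⟨χ, hχ, hχ1⟩ := hx S hS' (P.subgroupOf S) _ hnot
  have hfix : α χ (X ^ p) = X ^ p := CKeyAux.fix h3 P χ hχ X p hP
  have hsupp : ∀ ρ, cf (α χ X * X').1 ρ ≠ 0 → ρ = 1 := by
    intro ρ hρ
    have hρS : ρ ∈ S := (hR _).1 (α χ X * X').2 ρ hρ
    refine hone ρ fun j => ?_
    by_contra hj
    have hj' : (⟨ρ, hρS⟩ : S) ∉ (T j).subgroupOf S := by
      rw [Subgroup.mem_subgroupOf]
      exact hj
    obtain ⟨η, hη, hη1⟩ := hx S hS' ((T j).subgroupOf S) _ hj'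
    have hfix2 : α η (X ^ q j) = X ^ q j := CKeyAux.fix h3 (T j) η hη X (q j) (hT j)
    have h4 := ha R hcomm (α χ) (α η) (fun m => h2 χ η m) X X' hXX p (q j) hp (hq j).1 (hq j).2
      hfix hfix2
    exact hη1 ((h3 η _).2 h4 ⟨ρ, hρS⟩ hρ)
  have h5 := WebAux.single hb hsupp
  rw [(hb.b1 K).one] at h5
  have h6 : α χ X = (α χ X * X') * X := by
    rw [mul_assoc, hcomm X' X, hXX, mul_one]
  have h7 : (α χ X).1 = cf (α χ X * X').1 1 • x := by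
    have h8 : (α χ X).1 = (α χ X * X').1 * x := congrArg Subtype.val h6
    rw [h8]
    nth_rewrite 1 [h5]
    rw [smul_mul_assoc, one_mul]
  have h9 : ∀ s : S, cf x s.1 ≠ 0 → (χ s : ℂ) = cf (α χ X * X').1 1 := by
    intro s hs
    have h10 := h1 χ X s
    rw [h7, (hb.b1 K).smul] at h10
    exact (mul_right_cancel₀ hs h10).symm
  have h11 : χ ⟨σ, hσS⟩ = χ ⟨τ, hτS⟩ :=
    Subtype.ext ((h9 ⟨σ, hσS⟩ hσ).trans (h9 ⟨τ, hτS⟩ hτ).symm)
  apply hχ1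
  rw [map_mul, map_inv, h11, mul_inv_cancel]

end Vale.Agent.P092
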