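import Vale.Agent.P092.CStm

namespace Vale.Agent.P092

open Vale.Agent.P086

namespace CMonoAux

variable {G K : Type} [Group G] [Group K]

theorem ex (hk : S_ker) {φ : LG G ≃⋆ₐ[ℂ] LG K} (tp : TP φ) (σ : K) :
    ∃ g, cf (φ (u g)) σ ≠ 0 ∧ cf (φ.symm (u σ)) g ≠ 0 := by
  obtain ⟨-, h2, -, h4, -⟩ := hk G K φ tp
  obtain ⟨g, hg⟩ := h4 σ
  refine ⟨g, hg, ?_⟩
  rw [h2]
  exact (map_ne_zero _).2 hg

end CMonoAux

theorem c_mono (hb : Base) (hk : S_ker) : C_mono := by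
  intro G K _ _ φ tp
  refine ⟨fun A B S T hA hB h σ hσ => ?_, fun A S hA h σ hσ => ?_⟩
  · obtain ⟨g, h1, h2⟩ := CMonoAux.ex hk tp σ
    exact hB.2 g (h (hA.1 σ hσ g h2)) σ h1
  · obtain ⟨g, h1, h2⟩ := CMonoAux.ex hk tp σ
    have h6 : g = 1 := h g fun i => (hA i).1 σ (hσ i) g h2
    rw [h6, (hb.b1 G).one, map_one, ← (hb.b1 K).one] at h1
    by_contra hne
    exact h1 ((hb.b1 K).ne 1 σ hne)

theorem c_ab (hb : Base) (hc : C_comm) : C_ab := by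
  intro G K _ _ φ A S hA h σ hσ τ hτ
  have h1 := hc G A h _ _ (hA.1 σ hσ) (hA.1 τ hτ)
  rw [← map_mul, ← map_mul, ← (hb.b1 K).mul, ← (hb.b1 K).mul] at h1
  have h2 : u (σ * τ) = u (τ * σ) := φ.symm.injective h1
  by_contra hne
  have h3 := (hb.b1 K).ne (τ * σ) (σ * τ) hne
  rw [← h2, (hb.b1 K).self] at h3
  exact one_ne_zero h3

end Vale.Agent.P092
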