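import Vale.Agent.P092.CStm

/-! P092: supports of products. -/

namespace Vale.Agent.P092

open Vale.Agent.P086

theorem c_mul (hb : Base) : C_mul := by
  intro K _ S
  refine ⟨fun g hg => ?_, fun x y hx hy g hg => ?_⟩
  · by_contra h
    rw [← (hb.b1 K).one] at hg
    exact hg ((hb.b1 K).ne 1 g fun e => h (e ▸ S.one_mem))
  · by_contra h
    refine hg (((hb.b2 K).conv x y g).unique (hasSum_congr' hasSum_zero fun k => ?_))
    by_contra h0
    have h1 := S.mul_mem (hx _ (left_ne_zero_of_mul h0)) (hy _ (right_ne_zero_of_mul h0))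
    rw [inv_mul_cancel_right] at h1
    exact h h1

theorem c_comm (hb : Base) : C_comm := by
  intro K _ S hS x y hx hy
  refine (hb.b1 K).ext _ _ fun g => ((hb.b2 K).conv x y g).unique ?_
  have h2 := (hb.b2 K).conv y x g
  rw [← ((Equiv.inv K).trans (Equiv.mulRight g)).hasSum_iff] at h2
  refine hasSum_congr' h2 fun m => ?_
  have e : g * (m⁻¹ * g)⁻¹ = m := by group
  simp only [Function.comp, Equiv.trans_apply, Equiv.inv_apply, Equiv.coe_mulRight, e]
  rw [mul_comm (cf y m)]
  by_cases hm : cf y m = 0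
  · rw [hm, mul_zero, mul_zero]
  have m1 := hy m hm
  by_cases hg : g ∈ S
  · rw [hS g hg _ (S.inv_mem m1)]
  · have a1 : cf x (g * m⁻¹) = 0 := by_contra fun h =>
      hg (by simpa using S.mul_mem (hx _ h) m1)
    have a2 : cf x (m⁻¹ * g) = 0 := by_contra fun h =>
      hg (by simpa using S.mul_mem m1 (hx _ h))
    rw [a1, a2]

end Vale.Agent.P092
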