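import Vale.Agent.P092.CStm

/-! P092: elements supported in a subgroup lie in the algebra of the subgroup. -/

namespace Vale.Agent.P092

open Vale.Agent.P086

namespace CSupAux

theorem comm {G : Type} [Group G] (A : Subgroup G) (x : LG G) (hx : Sup x A) (T : Bdd (L2 G))
    (hT : ∀ a ∈ A, lam a * T = T * lam a) : T * x.1 = x.1 * T := by
  refine op_ext fun h => lp.ext (funext fun g => ?_)
  have hv : ∀ k m : G, x.1 (dl k) m = cf x (m * k⁻¹) := fun k m => by
    rw [vN_apply_dl (mem x), rho_apply]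
    rfl
  have h1 := (Equiv.mulRight h).hasSum_iff.mpr (hasSum_op_apply T (x.1 (dl h)) g)
  have h2 := ((Equiv.inv G).trans (Equiv.mulRight g)).hasSum_iff.mpr
    (hasSum_op_apply x.1 (T (dl h)) g)
  refine h1.unique (hasSum_congr' h2 fun a => ?_)
  change x.1 (dl h) (a * h) * T (dl (a * h)) g = T (dl h) (a⁻¹ * g) * x.1 (dl (a⁻¹ * g)) g
  rw [hv, hv, mul_inv_cancel_right, mul_inv_rev, inv_inv, mul_inv_cancel_left]
  by_cases ha : a ∈ A
  · have h3 : T (lam a (dl h)) = lam a (T (dl h)) :=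
      (congrArg (fun S : Bdd (L2 G) => S (dl h)) (hT a ha)).symm
    rw [← lam_dl, h3, lam_apply, mul_comm]
  · have h3 : cf x a = 0 := by
      by_contra hn
      exact ha (hx a hn)
    rw [h3, zero_mul, mul_zero]

end CSupAux

theorem c_sup (_hb : Base) : C_sup := by
  intro G _ A x hx
  have key : ∀ T ∈ StarSubalgebra.centralizer ℂ (leftReg '' (A : Set G)), T * x.1 = x.1 * T :=
    fun T hT => CSupAux.comm A x hx T fun a ha =>
      ((StarSubalgebra.mem_centralizer_iff ℂ).mp hT _ ⟨a, ha, rfl⟩).1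
  exact (StarSubalgebra.mem_centralizer_iff ℂ).mpr fun T hT => ⟨key T hT, key _ (star_mem hT)⟩

end Vale.Agent.P092
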