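import Vale.Agent.P092.CStm

/-! P092: twisting the coefficients by a character. -/

namespace Vale.Agent.P092

open Vale.Agent.P086

namespace CTwAux

variable {G : Type} [Group G]

theorem ext_chi (S : Subgroup G) (χ : S →* Circle) :
    ∃ f : G → Circle, ∀ (s : S) (k : G), f (s.1 * k) = χ s * f k := by
  have hm : ∀ k : G, k * (Quotient.out (Quotient.mk (QuotientGroup.rightRel S) k))⁻¹ ∈ S :=
    fun k => QuotientGroup.rightRel_apply.1 (Quotient.mk_out (s := QuotientGroup.rightRel S) k)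
  refine ⟨fun k => χ ⟨_, hm k⟩, fun s k => ?_⟩
  have e : Quotient.mk (QuotientGroup.rightRel S) (s.1 * k) =
      Quotient.mk (QuotientGroup.rightRel S) k :=
    Quotient.sound (QuotientGroup.rightRel_apply.2 (by simp))
  rw [← map_mul]
  refine congrArg χ (Subtype.ext ?_)
  show s.1 * k * _ = s.1 * (k * _)
  rw [e, mul_assoc]

omit [Group G] in
theorem nrm (f : G → Circle) (ξ : L2 G) (g : G) : ‖(f g : ℂ) * ξ g‖ ≤ ‖ξ g‖ := by
  rw [norm_mul, Circle.norm_coe, one_mul]

/-- multiplication of a vector by a function of modulus one -/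
noncomputable def mul (f : G → Circle) (ξ : L2 G) : L2 G :=
  ⟨fun g => (f g : ℂ) * ξ g, (lp.memℓp ξ).mono' (nrm f ξ)⟩

omit [Group G] in
theorem bdd (f : G → Circle) : IsBoundedLinearMap ℂ (mul f) where
  map_add ξ η := lp.ext (funext fun g => mul_add (f g : ℂ) (ξ g) (η g))
  map_smul c ξ := lp.ext (funext fun g => mul_left_comm (f g : ℂ) c (ξ g))
  bound := ⟨1, one_pos, fun ξ => by
    rw [one_mul]
    exact lp.norm_mono (by norm_num) (nrm f ξ)⟩

/-- the multiplication operator -/
noncomputable def D (f : G → Circle) : Bdd (L2 G) := (bdd f).toContinuousLinearMap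

omit [Group G] in
theorem D_apply (f : G → Circle) (ξ : L2 G) (g : G) : D f ξ g = (f g : ℂ) * ξ g := rfl

theorem D_dl (f : G → Circle) (k : G) : D f (dl k) = (f k : ℂ) • dl k := by
  refine lp.ext (funext fun g => ?_)
  show (f g : ℂ) * dl k g = (f k : ℂ) * dl k g
  rw [dl_apply]
  split_ifs with h
  · rw [h]
  · rw [mul_zero, mul_zero]

theorem ent (f : G → Circle) (x : LG G) (k h : G) :
    (D f * x.1 * D fun g => (f g)⁻¹) (dl k) h =
      (f h : ℂ) * (((f k)⁻¹ : Circle) * cf x (h * k⁻¹)) := by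
  show D f (x.1 (D (fun g => (f g)⁻¹) (dl k))) h = _
  rw [D_apply, D_dl, map_smul, vN_apply_dl (mem x)]
  rfl

end CTwAux

open CTwAux in
theorem c_tw (_hb : Base) : C_tw := by
  classical
  intro K _ S χ x hx
  obtain ⟨f, hf⟩ := ext_chi S χ
  have key : ∀ k h : K, (D f * x.1 * D fun g => (f g)⁻¹) (dl k) h =
      if hm : h * k⁻¹ ∈ S then (χ ⟨_, hm⟩ : ℂ) * cf x (h * k⁻¹) else 0 := fun k h => by
    rw [ent]
    split_ifs with hm
    · have e := hf ⟨_, hm⟩ k
      rw [inv_mul_cancel_right] at e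
      rw [e, ← mul_assoc, ← Circle.coe_mul, mul_inv_cancel_right]
    · have : cf x (h * k⁻¹) = 0 := by
        by_contra h0
        exact hm (hx _ h0)
      rw [this, mul_zero, mul_zero]
  generalize (D f * x.1 * D fun g => (f g)⁻¹) = y at key
  have hy : y ∈ vN K := mem_vN.2 fun g => op_ext fun k => lp.ext (funext fun h => by
    show y (dl k) (h * g) = y (rho g (dl k)) h
    have e : h * g * k⁻¹ = h * (k * g⁻¹)⁻¹ := by group
    rw [rho_dl, key, key]
    simp only [e])
  have c : ∀ m, cf ⟨y, mem_groupVN.2 hy⟩ m =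
      if hm : m ∈ S then (χ ⟨_, hm⟩ : ℂ) * cf x m else 0 := fun m => by
    have := key 1 m
    simp only [inv_one, mul_one] at this
    exact this
  refine ⟨⟨y, mem_groupVN.2 hy⟩, hx, fun m hm => ?_, fun σ => ?_⟩
  · by_contra h
    exact hm (by rw [c, dif_neg h])
  · rw [c, dif_pos σ.2]

end Vale.Agent.P092
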