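import Vale.Agent.P092.CStm

/-! Twisting coefficients by a character is multiplicative. -/

namespace Vale.Agent.P092

open Vale.Agent.P086

theorem c_twm (hb : Base) (hm : C_mul) : C_twm := by
  intro K _ S χ x x' y y' hx hy
  refine ⟨(hm K S).2 x y hx.1 hy.1, (hm K S).2 x' y' hx.2.1 hy.2.1, fun σ => ?_⟩
  have h1 := ((hb.b2 K).conv x y σ.1).mul_left (χ σ : ℂ)
  have h2 := (hb.b2 K).conv x' y' σ.1
  have e : (fun k => cf x' (σ.1 * k⁻¹) * cf y' k) =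
      fun k => (χ σ : ℂ) * (cf x (σ.1 * k⁻¹) * cf y k) := by
    funext k
    by_cases hk : k ∈ S
    · have a1 : cf x' (σ.1 * k⁻¹) = (χ (σ * (⟨k, hk⟩ : S)⁻¹) : ℂ) * cf x (σ.1 * k⁻¹) :=
        hx.2.2 (σ * (⟨k, hk⟩ : S)⁻¹)
      have a2 : cf y' k = (χ ⟨k, hk⟩ : ℂ) * cf y k := hy.2.2 ⟨k, hk⟩
      have a3 : (χ σ : ℂ) = (χ (σ * (⟨k, hk⟩ : S)⁻¹) : ℂ) * (χ ⟨k, hk⟩ : ℂ) := by
        rw [← Circle.coe_mul, ← map_mul, inv_mul_cancel_right]
      rw [a1, a2, a3]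
      ring
    · have a1 : cf y k = 0 := by
        by_contra h
        exact hk (hy.1 k h)
      have a2 : cf y' k = 0 := by
        by_contra h
        exact hk (hy.2.1 k h)
      rw [a1, a2, mul_zero, mul_zero, mul_zero]
  rw [e] at h2
  exact h2.unique h1

end Vale.Agent.P092
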