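import Vale.Agent.P092.CStm

/-! P092: the subgroups generated by `g ^ p ^ i` intersect trivially. -/

namespace Vale.Agent.P092

open Vale.Agent.P086

theorem c_zp : C_zp := by
  intro G _ g hg p hp a ha
  obtain ⟨m, hm⟩ := Subgroup.mem_zpowers_iff.1 (ha 0)
  rw [pow_zero, pow_one] at hm
  have inj := injective_zpow_iff_not_isOfFinOrder.2 hg
  obtain ⟨k, hk⟩ := Subgroup.mem_zpowers_iff.1 (ha m.natAbs)
  rw [← hm, ← zpow_natCast, ← zpow_mul] at hk
  have e : ((p ^ m.natAbs : ℕ) : ℤ) * k = m := inj hk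
  have d : ((p ^ m.natAbs : ℕ) : ℤ) ∣ m := ⟨k, e.symm⟩
  have z : m = 0 := Int.eq_zero_of_dvd_of_natAbs_lt_natAbs d (by
    rw [Int.natAbs_natCast]
    exact Nat.lt_pow_self hp)
  rw [← hm, z, zpow_zero]

end Vale.Agent.P092
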