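import Vale.Agent.P092.CAsm
import Vale.Agent.P092.CAlg
import Vale.Agent.P092.CChr
import Vale.Agent.P092.CCnv
import Vale.Agent.P092.CCyc
import Vale.Agent.P092.CHom
import Vale.Agent.P092.CKey
import Vale.Agent.P092.CMono
import Vale.Agent.P092.CMul
import Vale.Agent.P092.CSup
import Vale.Agent.P092.CTw
import Vale.Agent.P092.CTwm
import Vale.Agent.P092.CZp

namespace Vale.Agent.P092

theorem cnv0 : C_cnv := c_cnv base (c_sup base)

theorem hom0 : C_hom := c_hom base (c_mul base) (c_tw base) (c_twm base (c_mul base))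

theorem cyc0 : C_cyc :=
  c_cyc base ker0 (c_mono base ker0) c_zp (c_ab base (c_comm base))
    (c_key base (c_comm base) hom0 c_chr c_alg)

end Vale.Agent.P092
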