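import Vale.Agent.P092.Stm

/-! P092: clearing a column, and matrices that look like the identity outside `s`. -/

open Filter Topology

namespace Vale.Agent.P092

open Vale.Agent.P086

namespace ColAux

theorem step (he : S_euc) (R : Type) [EuclideanDomain R] (n : ℕ) (s : Finset (Fin n))
    (i : Fin n) (hi : i ∈ s) (v : Fin n → R) (t : Finset (Fin n)) :
    (∀ l ∈ t, l ∈ s ∧ l ≠ i) → ∃ e ∈ EE R s,
      (∀ l ∈ t, (e.1.mulVec v) l = 0) ∧ ∀ l, l ∉ t → l ≠ i → (e.1.mulVec v) l = v l := by
  induction t using Finset.induction_on with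
  | empty =>
    intro _
    refine ⟨1, (EE R s).one_mem, fun l hl => absurd hl (Finset.notMem_empty l), ?_⟩
    intro l _ _
    rw [Matrix.SpecialLinearGroup.coe_one, Matrix.one_mulVec]
  | insert j t hj ih =>
    intro h
    obtain ⟨e, he1, he2, he3⟩ := ih fun l hl => h l (Finset.mem_insert_of_mem hl)
    have hj' := h j (Finset.mem_insert_self j t)
    obtain ⟨e', h1, h2, h3⟩ := he R n s i j hi hj'.1 (Ne.symm hj'.2) (e.1.mulVec v)
    have hm : (e' * e).1.mulVec v = e'.1.mulVec (e.1.mulVec v) := by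
      rw [Matrix.SpecialLinearGroup.coe_mul, Matrix.mulVec_mulVec]
    refine ⟨e' * e, (EE R s).mul_mem h1 he1, ?_, ?_⟩
    · intro l hl
      rw [hm]
      rcases Finset.mem_insert.1 hl with rfl | hl'
      · exact h2
      · have hlj : l ≠ j := fun hlj => hj (hlj ▸ hl')
        rw [h3 l (h l hl).2 hlj]
        exact he2 l hl'
    · intro l hl hli
      rw [Finset.mem_insert, not_or] at hl
      rw [hm, h3 l hli hl.1]
      exact he3 l hl.2 hli

theorem mul {R : Type} [CommRing R] {n : ℕ} (s : Finset (Fin n)) (g h : SL n R)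
    (hg : Idn s g) (hh : Idn s h) : Idn s (g * h) := by
  intro i j hij
  rw [Matrix.SpecialLinearGroup.coe_mul, Matrix.mul_apply]
  rcases hij with hi | hj
  · have h1 : ∀ k, g.1 i k * h.1 k j = (1 : Matrix (Fin n) (Fin n) R) i k * h.1 k j :=
      fun k => by rw [hg i k (Or.inl hi)]
    rw [Finset.sum_congr rfl fun k _ => h1 k, ← Matrix.mul_apply, Matrix.one_mul]
    exact hh i j (Or.inl hi)
  · have h1 : ∀ k, g.1 i k * h.1 k j = g.1 i k * (1 : Matrix (Fin n) (Fin n) R) k j :=
      fun k => by rw [hh k j (Or.inr hj)]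
    rw [Finset.sum_congr rfl fun k _ => h1 k, ← Matrix.mul_apply, Matrix.mul_one]
    exact hg i j (Or.inr hj)

theorem tv {R : Type} [CommRing R] {n : ℕ} (s : Finset (Fin n)) (i j : Fin n) (hi : i ∈ s)
    (hj : j ∈ s) (h : i ≠ j) (r : R) : Idn s (Matrix.SpecialLinearGroup.transvection h r) := by
  intro a b hab
  have hne : ¬(i = a ∧ j = b) := by
    rintro ⟨rfl, rfl⟩
    rcases hab with h1 | h1
    · exact h1 hi
    · exact h1 hj
  have hc : (Matrix.SpecialLinearGroup.transvection h r).1 =
      (1 : Matrix (Fin n) (Fin n) R) + Matrix.single i j r := rfl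
  rw [hc, Matrix.add_apply, Matrix.single_apply_of_ne i j r a b hne, add_zero]

/-- the matrices that look like the identity outside `s`, together with their inverses -/
def KK (R : Type) [CommRing R] {n : ℕ} (s : Finset (Fin n)) : Subgroup (SL n R) where
  carrier := {g | Idn s g ∧ Idn s g⁻¹}
  one_mem' := by
    refine ⟨fun i j _ => rfl, ?_⟩
    rw [inv_one]
    exact fun i j _ => rfl
  mul_mem' := by
    intro a b ha hb
    refine ⟨mul s a b ha.1 hb.1, ?_⟩
    rw [mul_inv_rev]
    exact mul s _ _ hb.2 ha.2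
  inv_mem' := by
    intro a ha
    refine ⟨ha.2, ?_⟩
    rw [inv_inv]
    exact ha.1

end ColAux

theorem s_col (he : S_euc) : S_col := by
  intro R _ n s i hi v
  obtain ⟨e, h1, h2, h3⟩ := ColAux.step he R n s i hi v (s.erase i)
    fun l hl => ⟨Finset.mem_of_mem_erase hl, Finset.ne_of_mem_erase hl⟩
  refine ⟨e, h1, fun l hl hli => h2 l (Finset.mem_erase.2 ⟨hli, hl⟩), fun l hl => ?_⟩
  exact h3 l (fun h => hl (Finset.mem_of_mem_erase h)) fun h => hl (h ▸ hi)

theorem s_idn (hr : S_root) : S_idn := by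
  intro R _ n s
  refine ⟨fun g h => ColAux.mul s g h, ?_⟩
  have hle : EE R s ≤ ColAux.KK R s := by
    refine iSup₂_le fun i hi => iSup₂_le fun j hj => ?_
    intro g hg
    by_cases h : i = j
    · have hb : root R i j ≤ ColAux.KK R s := by
        refine (Subgroup.closure_le _).2 ?_
        rintro x ⟨h', _, _⟩
        exact absurd h h'
      exact hb hg
    · obtain ⟨r, rfl⟩ := (hr R n i j h g).1 hg
      refine ⟨ColAux.tv s i j hi hj h r, ?_⟩
      rw [Matrix.SpecialLinearGroup.transvection_inv]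
      exact ColAux.tv s i j hi hj h (-r)
  intro e he
  exact (hle he).1

end Vale.Agent.P092
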