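import Vale.Agent.P092.Stm

/-! P092: isomorphisms are continuous in the two-norm on the unit ball. -/

open Filter Topology

namespace Vale.Agent.P092

open Vale.Agent.P086

theorem s_cont (hb : Base) (ho : S_ord) (hd : S_dec) (he : S_env) : S_cont := by
  intro G K _ _ ψ ε hε
  by_contra hn
  push Not at hn
  choose x x1 x2 x3 using fun n : ℕ => hn ((1 / 2) ^ n) (by positivity)
  obtain ⟨o1, o2, -, o4, o5⟩ := ho G
  have sq : ∀ n, (cf (star (x n) * x n) 1).re = n2 (x n) ^ 2 := fun n => by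
    rw [(hb.b2 G).sq, Complex.ofReal_re]
  obtain ⟨h, h1, h2⟩ := he G (fun n => star (x n) * x n) fun n =>
    ⟨(o1 0 _).2 ⟨x n, sub_zero _⟩, o4 _ (x1 n), by
      have a1 : 0 ≤ n2 (x n) := norm_nonneg _
      have a2 : (1 / 2 : ℝ) ^ n ≤ 1 := pow_le_one₀ (by norm_num) (by norm_num)
      rw [sq]
      nlinarith [x2 n]⟩
  have t0 : Tendsto (fun n : ℕ => 2 * (1 / 2 : ℝ) ^ n) atTop (𝓝 0) := by
    simpa using (tendsto_pow_atTop_nhds_zero_of_lt_one (r := (1 / 2 : ℝ)) (by norm_num)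
      (by norm_num)).const_mul 2
  have t1 : Tendsto (fun n => (cf (h n) 1).re) atTop (𝓝 0) :=
    squeeze_zero (fun n => by
      have := o2 0 (h n) (h1 n).1
      rwa [(hb.b1 G).zero, Complex.zero_re] at this) (fun n => (h1 n).2.2.2) t0
  have t2 := hd G K ψ h (fun n => ⟨(h1 n).1, (h1 n).2.1⟩) h2 t1
  obtain ⟨n, hn'⟩ := (t2.eventually (gt_mem_nhds (show (0 : ℝ) < ε ^ 2 / 2 by positivity))).exists
  have a1 := (ho K).2.1 _ _ (o5 K ψ _ _ (h1 n).2.2.1)
  have a2 : ψ (star (x n)) = star (ψ (x n)) := ψ.map_star' (x n)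
  rw [map_add, (hb.b1 K).add, map_mul, a2, (hb.b2 K).sq, Complex.ofReal_re,
    Complex.add_re] at a1
  nlinarith [x3 n]

end Vale.Agent.P092
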