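import Vale.Agent.P092.Stm

open Filter Topology

namespace Vale.Agent.P092

open Vale.Agent.P086

namespace ConvAux

theorem ex_term {G : Type} [Group G] (h2 : B2 G) (x y : LG G) (g : G) (h : cf (x * y) g ≠ 0) :
    ∃ k, cf x (g * k⁻¹) ≠ 0 ∧ cf y k ≠ 0 := by
  by_contra hn
  apply h
  have hz : (fun k => cf x (g * k⁻¹) * cf y k) = fun _ => 0 := by
    funext k
    by_contra hk
    exact hn ⟨k, left_ne_zero_of_mul hk, right_ne_zero_of_mul hk⟩
  have hs := h2.conv x y g
  rw [hz] at hs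
  exact hs.unique hasSum_zero

theorem one_term {G : Type} [Group G] (h2 : B2 G) (x y : LG G) (g k₀ : G)
    (h : ∀ k, cf x (g * k⁻¹) ≠ 0 → cf y k ≠ 0 → k = k₀) :
    cf (x * y) g = cf x (g * k₀⁻¹) * cf y k₀ := by
  refine (h2.conv x y g).unique
    (hasSum_single (f := fun k => cf x (g * k⁻¹) * cf y k) k₀ fun k hk => ?_)
  by_contra hn
  exact hk (h k (left_ne_zero_of_mul hn) (right_ne_zero_of_mul hn))

end ConvAux

open ConvAux in
theorem s_conv (hb : Base) : S_conv := by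
  intro G _ A B x y hT hx hy a ha hne b hbB c hc
  have h1 := hb.b1 G
  have h2 := hb.b2 G
  have inner : cf (x * y) (b * a) = cf x b * cf y a := by
    rw [one_term h2 x y (b * a) a, mul_inv_cancel_right]
    intro m hm1 hm2
    have hmA : m ∈ A := hy m hm2
    have hB : b * a * m⁻¹ ∈ B := hx _ hm1
    have hB' : a * m⁻¹ ∈ B := by
      have := B.mul_mem (B.inv_mem hbB) hB
      rwa [mul_assoc b, inv_mul_cancel_left] at this
    exact (mul_inv_eq_one.1 (hT.dis _ (A.mul_mem ha (A.inv_mem hmA)) hB')).symm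
  rw [one_term h2 (x * y) (star x) (b * a * c⁻¹) c⁻¹, inv_inv, inv_mul_cancel_right, inner,
    h1.star, inv_inv]
  intro k hk1 hk2
  rw [h1.star] at hk2
  have hkB : k ∈ B := by
    refine B.inv_mem_iff.1 (hx _ fun h0 => hk2 ?_)
    rw [h0, map_zero]
  obtain ⟨m, hm1, hm2⟩ := ex_term h2 x y _ hk1
  refine (hT.uniq a ha hne m (hy m hm2) b hbB _ (hx _ hm1) c⁻¹ (B.inv_mem hc) k hkB ?_).symm
  group

end Vale.Agent.P092
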