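import Vale.Agent.P092.Stm

/-! Root subgroups along a cycle generate all root subgroups. -/

open Filter Topology

namespace Vale.Agent.P092

open Vale.Agent.P086

namespace CycAux

open Matrix.SpecialLinearGroup in
theorem comm {R : Type} [CommRing R] {n : ℕ} {i m j : Fin n} (h1 : i ≠ m) (h2 : m ≠ j)
    (h3 : i ≠ j) (a b : R) :
    transvection h1 a * transvection h2 b =
      transvection h3 (a * b) * (transvection h2 b * transvection h1 a) := by
  apply Subtype.ext
  simp only [Matrix.SpecialLinearGroup.coe_mul, transvection_coe, mul_add, add_mul, mul_one,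
    one_mul, Matrix.single_mul_single_same, Matrix.single_mul_single_of_ne _ _ _ _ h3.symm,
    Matrix.single_mul_single_of_ne _ _ _ _ h2.symm, add_zero, mul_zero]
  abel

theorem self_le {R : Type} [CommRing R] {n : ℕ} (i : Fin n) (H : Subgroup (SL n R)) :
    root R i i ≤ H := by
  unfold root
  rw [Subgroup.closure_le]
  rintro g ⟨h, -⟩
  exact absurd rfl h

theorem step (hr : S_root) {R : Type} [CommRing R] {n : ℕ} {H : Subgroup (SL n R)}
    {i m j : Fin n} (h1 : root R i m ≤ H) (h2 : root R m j ≤ H) : root R i j ≤ H := by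
  by_cases e3 : i = j
  · subst e3
    exact self_le i H
  by_cases e1 : i = m
  · subst e1
    exact h2
  by_cases e2 : m = j
  · subst e2
    exact h1
  intro g hg
  obtain ⟨r, rfl⟩ := (hr R n i j e3 g).1 hg
  have a1 := h1 ((hr R n i m e1 _).2 ⟨r, rfl⟩)
  have a2 := h2 ((hr R n m j e2 _).2 ⟨1, rfl⟩)
  have k := comm e1 e2 e3 r 1
  rw [mul_one] at k
  have a3 := H.mul_mem (H.mul_mem a1 a2) (H.inv_mem (H.mul_mem a2 a1))
  rwa [k, mul_inv_cancel_right] at a3

end CycAux

open Fin.NatCast in
theorem s_cyc (hr : S_root) : S_cyc := by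
  intro R _ n _ H h i j
  have k : ∀ d : ℕ, root R i (i + (d : Fin n)) ≤ H := by
    intro d
    induction d with
    | zero =>
      rw [Nat.cast_zero, add_zero]
      exact CycAux.self_le i H
    | succ d ih =>
      rw [Nat.cast_succ, ← add_assoc]
      exact CycAux.step hr ih (h _)
  have e := k (j - i).val
  rwa [Fin.cast_val_eq_self, add_sub_cancel] at e

end Vale.Agent.P092
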