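import Vale.Agent.P092.Stm

open Filter Topology

namespace Vale.Agent.P092

open Vale.Agent.P086

theorem s_dec (hb : Base) (hv : S_vig) (hl : S_lim) (ho : S_ord) : S_dec := by
  intro G K _ _ ψ h h01 hanti hlim
  have hG := (ho G).2.2.2.2 K ψ
  have hK := (ho K).2.2.2.2 G ψ.symm
  have h0 : ∀ n, 0 ≤ (ψ (h n)).1 := fun n => by
    have h1 := hG 0 (h n) (h01 n).1
    rw [map_zero] at h1
    exact h1
  have h1 : ∀ n, (ψ (h n)).1 ≤ 1 := fun n => by
    have h1 := hG (h n) 1 (h01 n).2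
    rw [map_one] at h1
    exact h1
  have ha : Antitone fun n => (ψ (h n)).1 := fun m n hmn => hG _ _ (hanti hmn)
  obtain ⟨k, hk⟩ := hv K (fun n => (ψ (h n)).1) (fun n => ⟨h0 n, h1 n⟩) (Or.inr ha)
  obtain ⟨x, hx, hx'⟩ := (hl K).2 (fun n => ψ (h n)) k hk
  have hk0 : (0 : LG K).1 ≤ x.1 := by
    rw [hx]
    exact (hl K).1 (fun _ => 0) (fun n => (ψ (h n)).1) 0 k (fun _ => tendsto_const_nhds) hk
      (Eventually.of_forall h0)
  have hkm : ∀ m, x.1 ≤ (ψ (h m)).1 := fun m => by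
    rw [hx]
    exact (hl K).1 (fun n => (ψ (h n)).1) (fun _ => (ψ (h m)).1) k _ hk
      (fun _ => tendsto_const_nhds) ((eventually_ge_atTop m).mono fun n hn => ha hn)
  have h2 : 0 ≤ (ψ.symm x).1 := by
    have h3 := hK 0 x hk0
    rw [map_zero] at h3
    exact h3
  have h3 : ∀ m, (cf (ψ.symm x) 1).re ≤ (cf (h m) 1).re := fun m => by
    have h4 := hK x _ (hkm m)
    rw [StarAlgEquiv.symm_apply_apply] at h4
    exact (ho G).2.1 _ _ h4
  have h4 : ψ.symm x = 0 := (ho G).2.2.1 _ h2 (ge_of_tendsto' hlim h3)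
  have h5 : x = 0 := by
    rw [← ψ.apply_symm_apply x, h4, map_zero]
  rw [h5, (hb.b1 K).zero, Complex.zero_re] at hx'
  exact hx'

end Vale.Agent.P092
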