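import Vale.Agent.P086.Basic

namespace Vale.Agent.P092

open Vale.Agent.P086

/-- The group von Neumann algebra `L(G)` as a star algebra. -/
abbrev LG (G : Type) [Group G] : Type := (groupVN G).toStarSubalgebra

/-- Every nontrivial conjugacy class is infinite. -/
def ICC (G : Type) [Group G] : Prop :=
  ∀ g : G, g ≠ 1 → (Set.range fun h : G => h * g * h⁻¹).Infinite

/-- The von Neumann algebra `L(A)` generated by the unitaries `u_g`, `g ∈ A`. -/
noncomputable def subVN {G : Type} [Group G] (A : Subgroup G) : StarSubalgebra ℂ (Bdd (L2 G)) :=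
  bicomm (leftReg '' (A : Set G))

/-- `θ (L(A)) = w L(S) w*` for a subgroup `S`. -/
def GroupLike {G K : Type} [Group G] [Group K] (θ : LG G ≃⋆ₐ[ℂ] LG K) (w : LG K)
    (A : Subgroup G) : Prop :=
  ∃ S : Subgroup K, ∀ x : LG G, x.1 ∈ subVN A ↔ (star w * θ x * w).1 ∈ subVN S

/-- `θ (u_g) = χ(g) w v_{δ(g)} w*` for a group isomorphism `δ` and a character `χ`. -/
def Canonical {G K : Type} [Group G] [Group K] (θ : LG G ≃⋆ₐ[ℂ] LG K) (w : LG K) : Prop :=
  ∃ (δ : G ≃* K) (χ : G →* Circle), ∀ (g : G) (x : LG G), x.1 = leftReg g →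
    (θ x).1 = (χ g : ℂ) • (w.1 * leftReg (δ g) * star w.1)

/-- `A` and `B` sit in `G` like the two generating axes of a Heisenberg group with centre `Z`. -/
def Heis {G : Type} [Group G] (A B : Subgroup G) : Prop :=
  (A : Set G).Infinite ∧ (∀ a ∈ A, ∀ a' ∈ A, a * a' = a' * a) ∧ ∃ Z : Subgroup G,
    (∀ z ∈ Z, ∀ g ∈ A ⊔ B, z * g = g * z) ∧ (∀ a ∈ A, ∀ b ∈ B, a * b * a⁻¹ * b⁻¹ ∈ Z) ∧
    (∀ a ∈ A, ∀ b ∈ B, a * b ∈ Z → a = 1 ∧ b = 1) ∧
    ∀ a ∈ A, ∀ b ∈ B, a * b = b * a → a = 1 ∨ b = 1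

/-- The root subgroup of the elementary matrices `1 + r E_{ij}` (trivial when `i = j`). -/
def root (R : Type) [CommRing R] {n : ℕ} (i j : Fin n) :
    Subgroup (Matrix.SpecialLinearGroup (Fin n) R) :=
  Subgroup.closure {g | ∃ (h : i ≠ j) (r : R), g = Matrix.SpecialLinearGroup.transvection h r}

end Vale.Agent.P092
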