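import Vale.Agent.P092.Stm

open Filter Topology

namespace Vale.Agent.P092

open Vale.Agent.P086

namespace DichAux

theorem nrm (hb : Base) {G K : Type} [Group G] [Group K] (φ : LG G ≃⋆ₐ[ℂ] LG K) (k : K) :
    ‖(φ.symm (u k)).1‖ ≤ 1 := by
  refine (hb.b2 G).uni _ ?_
  have h1 : φ.symm (star (u k)) = star (φ.symm (u k)) := φ.symm.map_star' (u k)
  have h2 : φ.symm (star (u k) * u k) = φ.symm (star (u k)) * φ.symm (u k) :=
    φ.symm.map_mul' _ _
  have h3 : φ.symm 1 = 1 := φ.symm.toRingEquiv.map_one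
  rw [← h1, ← h2, (hb.b1 K).inv, ← (hb.b1 K).mul, inv_mul_cancel, (hb.b1 K).one, h3]

end DichAux

theorem s_dich (hb : Base) (hk : S_ker) (hm : S_mix) : S_dich := by
  intro G K _ _ φ A S hT hS ρ γ hI hN
  let s : ℕ → K := fun n => (Set.Infinite.natEmbedding _ hI n : K)
  have hs : Function.Injective s :=
    Subtype.val_injective.comp (Set.Infinite.natEmbedding _ hI).injective
  have hs1 : ∀ n, s n ∈ S ∧ ρ⁻¹ * s n * ρ ∈ S := fun n => (Set.Infinite.natEmbedding _ hI n).2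
  have h1 : ∀ n, φ.symm (u (s n)) * φ.symm (u ρ) * φ.symm (u (ρ⁻¹ * s n * ρ)⁻¹) =
      φ.symm (u ρ) := by
    intro n
    rw [← map_mul, ← map_mul, ← (hb.b1 K).mul, ← (hb.b1 K).mul]
    congr 2
    group
  have h2 : ∀ g, Tendsto (fun n => cf (φ.symm (u (s n))) g) atTop (𝓝 0) := by
    intro g
    rw [Metric.tendsto_nhds]
    intro ε hε
    have hf : (s ⁻¹' {k | ε ≤ ‖cf (φ (u g)) k‖}).Finite :=
      ((hb.b3 K).fin (φ (u g)) ε hε).preimage hs.injOn
    rw [← Nat.cofinite_eq_atTop]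
    filter_upwards [hf.compl_mem_cofinite] with n hn
    rw [(hk G K φ hT).2.1, dist_zero_right, RCLike.norm_conj]
    exact not_le.1 hn
  have h3 := hm G A (fun n => φ.symm (u (s n))) (fun n => φ.symm (u (ρ⁻¹ * s n * ρ)⁻¹))
    (φ.symm (u ρ)) γ (fun n => ⟨DichAux.nrm hb φ _, DichAux.nrm hb φ _, hS _ (hs1 n).1,
      hS _ (S.inv_mem (hs1 n).2)⟩) h2 hN
  simp only [h1] at h3
  exact tendsto_nhds_unique tendsto_const_nhds h3

end Vale.Agent.P092
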