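import Vale.Agent.P092.Stm

open Filter Topology

namespace Vale.Agent.P092

open Vale.Agent.P086

namespace EnvAux

variable {G : Type} [Group G]

theorem coe_sum (y : ℕ → LG G) (A : Finset ℕ) : (∑ m ∈ A, y m).1 = ∑ m ∈ A, (y m).1 :=
  AddSubmonoidClass.coe_finsetSum _ _

theorem nn {y : ℕ → LG G} (hy : ∀ n, 0 ≤ (y n).1) (A : Finset ℕ) : 0 ≤ (∑ m ∈ A, y m).1 := by
  rw [coe_sum]
  exact Finset.sum_nonneg fun m _ => hy m

theorem mono {y : ℕ → LG G} (hy : ∀ n, 0 ≤ (y n).1) {A B : Finset ℕ} (h : A ⊆ B) :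
    (∑ m ∈ A, y m).1 ≤ (∑ m ∈ B, y m).1 := by
  rw [coe_sum, coe_sum]
  exact Finset.sum_le_sum_of_subset_of_nonneg h fun m _ _ => hy m

theorem geo (n N : ℕ) : ∑ m ∈ Finset.Ico n N, (1 / 2 : ℝ) ^ m ≤ 2 * (1 / 2) ^ n := by
  refine (geom_sum_Ico_le_of_lt_one (by norm_num) (by norm_num)).trans (le_of_eq ?_)
  ring

end EnvAux

open EnvAux in
theorem s_env (hb : Base) (hf : S_fun) (hv : S_vig) (hl : S_lim) (ho : S_ord) : S_env := by
  intro G _ y hy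
  obtain ⟨F, f1, f2⟩ := hf G
  have h0 : ∀ n, 0 ≤ (y n).1 := fun n => (hy n).1
  let T : ℕ → ℕ → LG G := fun n N => F (∑ m ∈ Finset.Ico n N, y m)
  have hT : ∀ n N, 0 ≤ (T n N).1 ∧ (T n N).1 ≤ 1 := fun n N =>
    ⟨(f1 _ (nn h0 _)).1, (f1 _ (nn h0 _)).2.1⟩
  have hex : ∀ n, ∃ x : LG G, (∀ ξ, Tendsto (fun N => (T n N).1 ξ) atTop (𝓝 (x.1 ξ))) ∧
      Tendsto (fun N => (cf (T n N) 1).re) atTop (𝓝 (cf x 1).re) := fun n => by
    obtain ⟨k, hk⟩ := hv G (fun N => (T n N).1) (hT n) (Or.inl fun N N' h =>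
      f2 _ _ (nn h0 _) (mono h0 (Finset.Ico_subset_Ico_right h)))
    obtain ⟨x, rfl, hx⟩ := (hl G).2 (T n) k hk
    exact ⟨x, hk, hx⟩
  choose h h1 h2 using hex
  have lo : ∀ (n : ℕ) (k : Bdd (L2 G)), (∀ᶠ N in atTop, k ≤ (T n N).1) → k ≤ (h n).1 :=
    fun n k hk => (hl G).1 (fun _ => k) _ k _ (fun _ => tendsto_const_nhds) (h1 n) hk
  refine ⟨h, fun n => ⟨lo n 0 (.of_forall fun N => (hT n N).1), ?_, ?_, ?_⟩,
    antitone_nat_of_succ_le fun n => ?_⟩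
  · exact (hl G).1 _ (fun _ => 1) _ 1 (h1 n) (fun _ => tendsto_const_nhds)
      (.of_forall fun N => (hT n N).2)
  · have a : (F (y n)).1 ≤ (h n).1 := by
      refine lo n _ ?_
      filter_upwards [eventually_gt_atTop n] with N hN
      refine f2 _ _ (h0 n) ?_
      rw [coe_sum]
      exact Finset.single_le_sum (f := fun m => (y m).1) (fun m _ => h0 m)
        (Finset.mem_Ico.2 ⟨le_rfl, hN⟩)
    exact ((f1 _ (h0 n)).2.2.2 (hy n).2.1).trans (add_le_add a a)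
  · refine le_of_tendsto' (h2 n) fun N => ?_
    refine ((ho G).2.1 _ _ (f1 _ (nn h0 _)).2.2.1).trans ?_
    rw [(hb.b1 G).sum, Complex.re_sum]
    exact (Finset.sum_le_sum fun m _ => (hy m).2.2).trans (geo n N)
  · exact (hl G).1 _ _ _ _ (h1 (n + 1)) (h1 n) (.of_forall fun N =>
      f2 _ _ (nn h0 _) (mono h0 (Finset.Ico_subset_Ico_left (Nat.le_succ n))))

end Vale.Agent.P092
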