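import Vale.Agent.P092.Stm

/-! P092: the algorithm of Euclid with elementary matrices. -/

open Filter Topology

namespace Vale.Agent.P092

open Vale.Agent.P086

namespace EucAux

theorem tv {R : Type} [CommRing R] {n : ℕ} {s : Finset (Fin n)} {i j : Fin n} (hi : i ∈ s)
    (hj : j ∈ s) (h : i ≠ j) (r : R) : ∃ e ∈ EE R s, ∀ v : Fin n → R,
      (e.1.mulVec v) i = v i + r * v j ∧ ∀ l, l ≠ i → (e.1.mulVec v) l = v l := by
  refine ⟨Matrix.SpecialLinearGroup.transvection h r, ?_, fun v => ?_⟩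
  · have h1 : root R i j ≤ EE R s :=
      le_iSup_of_le i (le_iSup_of_le hi (le_iSup_of_le j (le_iSup_of_le hj le_rfl)))
    exact h1 (Subgroup.subset_closure ⟨h, r, rfl⟩)
  · rw [Matrix.SpecialLinearGroup.transvection_coe, Matrix.add_mulVec, Matrix.one_mulVec,
      Matrix.single_mulVec]
    refine ⟨by simp, fun l hl => by simp [hl]⟩

theorem mv {R : Type} [CommRing R] {n : ℕ} (e f : SL n R) (v : Fin n → R) :
    (e * f).1.mulVec v = e.1.mulVec (f.1.mulVec v) := by
  rw [Matrix.mulVec_mulVec]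
  rfl

theorem aux {R : Type} [EuclideanDomain R] {n : ℕ} (s : Finset (Fin n)) (b : R) :
    ∀ (i j : Fin n), i ∈ s → j ∈ s → i ≠ j → ∀ v : Fin n → R, v j = b → ∃ e ∈ EE R s,
      ((e.1.mulVec v) i = 0 ∨ (e.1.mulVec v) j = 0) ∧
        ∀ l, l ≠ i → l ≠ j → (e.1.mulVec v) l = v l := by
  induction b using (EuclideanDomain.r_wellFounded (R := R)).induction with
  | _ b ih =>
    intro i j hi hj h v hv
    by_cases h0 : b = 0
    · refine ⟨1, one_mem _, Or.inr ?_, fun l _ _ => ?_⟩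
      · rw [Matrix.SpecialLinearGroup.coe_one, Matrix.one_mulVec, hv, h0]
      · rw [Matrix.SpecialLinearGroup.coe_one, Matrix.one_mulVec]
    · obtain ⟨e, he, h1⟩ := tv hi hj h (-(v i / b))
      have h2 : (e.1.mulVec v) i = v i % b := by
        rw [(h1 v).1, hv, EuclideanDomain.mod_eq_sub_mul_div]
        ring
      obtain ⟨f, hf, h3, h4⟩ := ih (v i % b) (EuclideanDomain.mod_lt _ h0) j i hj hi h.symm
        (e.1.mulVec v) h2
      refine ⟨f * e, mul_mem hf he, ?_, fun l hl hl' => ?_⟩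
      · rw [mv]
        exact h3.symm
      · rw [mv, h4 l hl' hl, (h1 v).2 l hl]

end EucAux

theorem s_euc : S_euc := by
  intro R _ n s i j hi hj h v
  obtain ⟨e, he, h1, h2⟩ := EucAux.aux s (v j) i j hi hj h v rfl
  rcases h1 with h1 | h1
  · obtain ⟨f, hf, f1⟩ := EucAux.tv hi hj h (1 : R)
    obtain ⟨g, hg, g1⟩ := EucAux.tv hj hi h.symm (-1 : R)
    refine ⟨g * (f * e), mul_mem hg (mul_mem hf he), ?_, fun l hl hl' => ?_⟩
    · rw [EucAux.mv, EucAux.mv, (g1 _).1, (f1 _).1, (f1 _).2 j h.symm, h1]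
      ring
    · rw [EucAux.mv, EucAux.mv, (g1 _).2 l hl', (f1 _).2 l hl, h2 l hl hl']
  · exact ⟨e, he, h1, h2⟩

end Vale.Agent.P092
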