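import Vale.Agent.P092.Stm

/-! P092: from a finite index subgroup to the whole group. -/

open Filter Topology

namespace Vale.Agent.P092

open Vale.Agent.P086

namespace FinAux

theorem mstar {A B : Type} [Add A] [Add B] [Mul A] [Mul B] [SMul ℂ A] [SMul ℂ B] [Star A] [Star B]
    (φ : A ≃⋆ₐ[ℂ] B) (x : A) : φ (star x) = star (φ x) := map_star φ x

theorem key {G K : Type} [Group G] [Group K] (b : B1 G) (b' : B1 K) (φ : LG G ≃⋆ₐ[ℂ] LG K)
    {g g' : G} {c c' : ℂ} {d d' : K} (h : φ (u g) = c • u d) (h' : φ (u g') = c' • u d')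
    (hc : ‖c‖ = 1) (hc' : ‖c'‖ = 1) (l : K) (n : G) :
    ‖cf (φ.symm (u l)) n‖ = ‖cf (φ.symm (u (d' * l * d⁻¹))) (g' * n * g⁻¹)‖ := by
  have e1 : φ (u g⁻¹) = star c • u d⁻¹ := by
    rw [← b.inv, mstar, h, star_smul, b'.inv]
  have e2 : φ (u g' * φ.symm (u l) * u g⁻¹) = (star c * c') • u (d' * l * d⁻¹) := by
    rw [map_mul, map_mul, e1, h', StarAlgEquiv.apply_symm_apply, b'.mul, b'.mul, smul_mul_assoc,
      mul_smul_comm, smul_mul_assoc, smul_smul]
  have e3 : u g' * φ.symm (u l) * u g⁻¹ = (star c * c') • φ.symm (u (d' * l * d⁻¹)) := by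
    rw [← map_smul, ← e2, StarAlgEquiv.symm_apply_apply]
  have e4 := congrArg (fun x => ‖cf x (g' * n * g⁻¹)‖) e3
  simp only [b.right, b.left, b.smul, norm_mul, norm_star, hc, hc', one_mul] at e4
  rw [← e4]
  congr 2
  group

end FinAux

theorem s_fin (hb : Base) (hk : S_ker) (hi : S_icc) : S_fin := by
  intro G K _ _ φ H hG hT hH hM γ
  obtain ⟨-, k2, k3, -, k5⟩ := hk G K φ hT
  have b := hb.b1 G
  obtain ⟨l, hl⟩ := k3 γ
  have n1 : ∀ μ, ‖cf (φ.symm (u μ)) γ‖ = ‖cf (φ (u γ)) μ‖ := fun μ => by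
    rw [k2, RCLike.norm_conj]
  have z : ∀ k, k ≠ 1 → cf (φ.symm (u l)) (γ * k) = 0 := by
    intro k hk1
    by_contra hne
    refine hi G H hG hH k hk1 γ ?_
    have f1 := (hb.b3 K).fin (φ (u γ)) _ (norm_pos_iff.2 hl)
    have f2 := f1.biUnion fun μ _ => ((hb.b3 G).fin (φ.symm (u μ)) _
      (norm_pos_iff.2 hne)).preimage (mul_right_injective γ).injOn
    refine f2.subset ?_
    rintro m ⟨g, hg, hg', rfl⟩
    obtain ⟨c, d, h⟩ := hM g hg
    obtain ⟨c', d', h'⟩ := hM _ hg'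
    have a := FinAux.key b (hb.b1 K) φ h h' (k5 _ _ _ h) (k5 _ _ _ h') l
    refine Set.mem_biUnion (x := d' * l * d⁻¹) ?_ ?_
    · have a1 := a γ
      rw [show γ * g * γ⁻¹ * γ * g⁻¹ = γ by group, n1, n1] at a1
      exact a1.le
    · have a2 := a (γ * k)
      rw [show γ * g * γ⁻¹ * (γ * k) * g⁻¹ = γ * (g * k * g⁻¹) by group] at a2
      exact a2.le
  have c0 : cf (φ.symm (u l)) γ ≠ 0 := fun h => hl (norm_eq_zero.1 (by rw [← n1, h, norm_zero]))
  have e : φ.symm (u l) = cf (φ.symm (u l)) γ • u γ := b.ext _ _ fun n => by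
    rw [b.smul]
    by_cases hn : n = γ
    · rw [hn, b.self, mul_one]
    · have := z (γ⁻¹ * n) fun h => hn (inv_mul_eq_one.1 h).symm
      rw [mul_inv_cancel_left] at this
      rw [this, b.ne γ n hn, mul_zero]
  have e' := congrArg φ e
  rw [StarAlgEquiv.apply_symm_apply, map_smul] at e'
  exact ⟨(cf (φ.symm (u l)) γ)⁻¹, l, (eq_inv_smul_iff₀ c0).2 e'.symm⟩

end Vale.Agent.P092
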