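import Vale.Agent.P092.Stm

open Filter Topology

namespace Vale.Agent.P092

open Vale.Agent.P086

namespace FunAux

section

variable {A : Type} [CStarAlgebra A] [PartialOrder A] [StarOrderedRing A]

theorem unit {s : A} (hs : 0 ≤ s) : IsUnit (1 + s) :=
  CStarAlgebra.isUnit_of_le 1 (le_add_of_nonneg_right hs) ⟨zero_le_one, isUnit_one⟩

theorem bounds {s : A} (hs : 0 ≤ s) : 0 ≤ 1 - Ring.inverse (1 + s) ∧
    1 - Ring.inverse (1 + s) ≤ 1 ∧ 1 - Ring.inverse (1 + s) ≤ s ∧
    (s ≤ 1 → s ≤ 1 - Ring.inverse (1 + s) + (1 - Ring.inverse (1 + s))) := by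
  obtain ⟨u, hu⟩ := unit hs
  have h1 : (1 : A) ≤ u := by rw [hu]; exact le_add_of_nonneg_right hs
  have h0 : (0 : A) ≤ u := zero_le_one.trans h1
  rw [← hu, Ring.inverse_unit]
  have r0 : (0 : A) ≤ (↑u⁻¹ : A) := CFC.inv_nonneg_of_nonneg u h0
  have r1 : (↑u⁻¹ : A) ≤ 1 := (CStarAlgebra.inv_le_one_iff_one_le h0).2 h1
  have e1 : (↑u⁻¹ : A) * s = 1 - ↑u⁻¹ := by
    have := u.inv_mul
    rw [hu, mul_add, mul_one] at this
    rw [← this]
    abel
  have e2 : s * (↑u⁻¹ : A) = 1 - ↑u⁻¹ := by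
    have := u.mul_inv
    rw [hu, add_mul, one_mul] at this
    rw [← this]
    abel
  refine ⟨sub_nonneg.2 r1, sub_le_self _ r0, ?_, fun h => ?_⟩
  · have k := star_left_conjugate_nonneg r0 s
    rw [hs.isSelfAdjoint.star_eq, e2, sub_mul, one_mul, e1] at k
    exact sub_nonneg.1 k
  · have c : Commute (1 - (↑u⁻¹ : A)) (1 - s) := by
      unfold Commute SemiconjBy
      simp only [sub_mul, mul_sub, one_mul, mul_one, e1, e2]
      abel
    have k := Commute.mul_nonneg (sub_nonneg.2 r1) (sub_nonneg.2 h) c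
    simp only [sub_mul, mul_sub, one_mul, mul_one, e1] at k
    rw [← sub_nonneg]
    refine k.trans_eq ?_
    abel

theorem mono {s t : A} (hs : 0 ≤ s) (h : s ≤ t) :
    1 - Ring.inverse (1 + s) ≤ 1 - Ring.inverse (1 + t) := by
  obtain ⟨u, hu⟩ := unit hs
  obtain ⟨v, hv⟩ := unit (hs.trans h)
  have h1 : (1 : A) ≤ u := by rw [hu]; exact le_add_of_nonneg_right hs
  have h2 : (u : A) ≤ v := by rw [hu, hv]; exact add_le_add le_rfl h
  rw [← hu, ← hv, Ring.inverse_unit, Ring.inverse_unit]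
  exact sub_le_sub_left (CStarAlgebra.inv_le_inv (zero_le_one.trans h1) h2) 1

end

theorem comm {A : Type} [Ring A] {a s : A} (h : a * s = s * a) :
    a * (1 - Ring.inverse (1 + s)) = (1 - Ring.inverse (1 + s)) * a := by
  by_cases k : IsUnit (1 + s)
  · obtain ⟨u, hu⟩ := k
    have c : Commute a (u : A) := by
      rw [hu]
      exact (Commute.one_right a).add_right h
    rw [← hu, Ring.inverse_unit]
    exact ((Commute.one_right a).sub_right c.units_inv_right).eq
  · rw [Ring.inverse_non_unit _ k]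
    simp

end FunAux

theorem s_fun : S_fun := by
  intro G _
  refine ⟨fun s => ⟨1 - Ring.inverse (1 + s.1), mem_groupVN.2 (mem_vN.2 fun g =>
    FunAux.comm (mem_vN.1 (mem s) g))⟩, fun s hs => FunAux.bounds hs,
    fun s t hs h => FunAux.mono hs h⟩

end Vale.Agent.P092
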