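import Vale.Agent.P092.Stm

/-! P092: elementary matrices generate the special linear group of a Euclidean domain. -/

open Filter Topology

namespace Vale.Agent.P092

open Vale.Agent.P086

namespace GenAux

theorem mono (R : Type) [CommRing R] {n : ℕ} {s t : Finset (Fin n)} (h : s ⊆ t) :
    EE R s ≤ EE R t := by
  unfold EE
  refine iSup₂_le fun i hi => iSup₂_le fun j hj => ?_
  exact le_iSup₂_of_le (f := fun i (_ : i ∈ t) => ⨆ j ∈ t, root R i j) i (h hi)
    (le_iSup₂_of_le (f := fun j (_ : j ∈ t) => root R i j) j (h hj) le_rfl)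

theorem small {R : Type} [CommRing R] {n : ℕ} (s : Finset (Fin n)) (g : SL n R)
    (hs : ∀ i ∈ s, ∀ j ∈ s, i = j) (hg : Idn s g) : g = 1 := by
  have hoff : ∀ a b, a ≠ b → g.1 a b = 0 := by
    intro a b hab
    have h1 : a ∉ s ∨ b ∉ s := by
      by_contra hcon
      rw [not_or, not_not, not_not] at hcon
      exact hab (hs a hcon.1 b hcon.2)
    rw [hg a b h1, Matrix.one_apply_ne hab]
  have hd : g.1 = Matrix.diagonal fun a => g.1 a a := by
    ext a b
    by_cases hab : a = b
    · subst hab; rw [Matrix.diagonal_apply_eq]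
    · rw [Matrix.diagonal_apply_ne _ hab, hoff a b hab]
  have hdet : ∏ a, g.1 a a = 1 := by
    have h1 := g.2
    rw [hd, Matrix.det_diagonal] at h1
    exact h1
  have hdiag : ∀ a, g.1 a a = 1 := by
    intro a
    by_cases ha : a ∈ s
    · rw [Finset.prod_eq_single a] at hdet
      · exact hdet
      · intro b _ hb
        have h1 : b ∉ s := fun h2 => hb (hs b h2 a ha)
        rw [hg b b (Or.inl h1), Matrix.one_apply_eq]
      · intro h2
        exact absurd (Finset.mem_univ a) h2
    · rw [hg a a (Or.inl ha), Matrix.one_apply_eq]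
  apply Subtype.ext
  ext a b
  by_cases hab : a = b
  · subst hab
    rw [hdiag a]
    exact (Matrix.one_apply_eq a).symm
  · rw [hoff a b hab]
    exact (Matrix.one_apply_ne hab).symm

end GenAux

theorem s_gen (hc : S_col) (hi : S_idn) (hu : S_unit) (hr : S_row) : S_gen := by
  intro R _ n
  have key : ∀ (s : Finset (Fin n)) (g : SL n R), Idn s g →
      g ∈ EE R (Finset.univ : Finset (Fin n)) := by
    intro s
    induction s using Finset.strongInduction with
    | H s ih =>
      intro g hg
      by_cases hs : ∀ i ∈ s, ∀ j ∈ s, i = j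
      · rw [GenAux.small s g hs hg]
        exact one_mem _
      · obtain ⟨i, his, j, hjs, hij⟩ : ∃ i ∈ s, ∃ j ∈ s, i ≠ j := by
          by_contra hcon
          apply hs
          intro i his j hjs
          by_contra hij
          exact hcon ⟨i, his, j, hjs, hij⟩
        obtain ⟨e1, he1, h1a, h1b⟩ := hc R n s i his fun l => g.1 l i
        have hcol : ∀ l, l ≠ i → (e1 * g).1 l i = 0 := by
          intro l hl
          have h2 : (e1 * g).1 l i = (e1.1.mulVec fun l => g.1 l i) l := rfl
          rw [h2]
          by_cases hls : l ∈ s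
          · exact h1a l hls hl
          · rw [h1b l hls, hg l i (Or.inl hls), Matrix.one_apply_ne hl]
        obtain ⟨e2, he2, h2⟩ := hu R n s i j his hjs hij (e1 * g) hcol
        have hI : Idn s (e2 * (e1 * g)) :=
          (hi R n s).1 _ _ ((hi R n s).2 e2 he2) ((hi R n s).1 _ _ ((hi R n s).2 e1 he1) hg)
        obtain ⟨e3, he3, h3⟩ := hr R n s i his _ hI h2
        have h4 := ih (s.erase i) (Finset.erase_ssubset his) _ h3
        have hm := GenAux.mono R (Finset.subset_univ s)
        rwa [Subgroup.mul_mem_cancel_right _ (hm he3), Subgroup.mul_mem_cancel_left _ (hm he2),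
          Subgroup.mul_mem_cancel_left _ (hm he1)] at h4
  intro g
  refine key Finset.univ g fun i j h => ?_
  rcases h with h | h <;> exact absurd (Finset.mem_univ _) h

end Vale.Agent.P092
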