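import Vale.Agent.P092.Stm

/-! P092: root subgroups form Heisenberg pairs. -/

open Filter Topology

namespace Vale.Agent.P092

open Vale.Agent.P086

theorem s_root : S_root := by
  intro R _ n i j h g
  constructor
  · intro hg
    induction hg using Subgroup.closure_induction with
    | mem x hx =>
      obtain ⟨_, r, hr⟩ := hx
      exact ⟨r, hr⟩
    | one => exact ⟨0, (Matrix.SpecialLinearGroup.transvection_coeff_zero h).symm⟩
    | mul x y _ _ hx hy =>
      obtain ⟨r, rfl⟩ := hx
      obtain ⟨s, rfl⟩ := hy
      exact ⟨r + s, (Matrix.SpecialLinearGroup.transvection_add h r s).symm⟩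
    | inv x _ hx =>
      obtain ⟨r, rfl⟩ := hx
      exact ⟨-r, Matrix.SpecialLinearGroup.transvection_inv h r⟩
  · rintro ⟨r, hr⟩
    exact Subgroup.subset_closure ⟨h, r, hr⟩

namespace HeisAux

open Matrix Matrix.SpecialLinearGroup

variable {R : Type} [CommRing R] {n : ℕ} {i j k : Fin n}

theorem c1 (hij : i ≠ j) (hik : i ≠ k) (a c : R) :
    transvection hik c * transvection hij a = transvection hij a * transvection hik c := by
  apply Subtype.ext
  show (1 + single i k c) * (1 + single i j a) = (1 + single i j a) * (1 + single i k c)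
  simp only [mul_add, add_mul, one_mul, mul_one,
    single_mul_single_of_ne _ _ _ _ hij.symm, single_mul_single_of_ne _ _ _ _ hik.symm]
  abel

theorem c2 (hjk : j ≠ k) (hik : i ≠ k) (b c : R) :
    transvection hik c * transvection hjk b = transvection hjk b * transvection hik c := by
  apply Subtype.ext
  show (1 + single i k c) * (1 + single j k b) = (1 + single j k b) * (1 + single i k c)
  simp only [mul_add, add_mul, one_mul, mul_one,
    single_mul_single_of_ne _ _ _ _ hjk.symm, single_mul_single_of_ne _ _ _ _ hik.symm]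
  abel

theorem c3 (hij : i ≠ j) (hjk : j ≠ k) (hik : i ≠ k) (a b : R) :
    transvection hij a * transvection hjk b =
      transvection hik (a * b) * transvection hjk b * transvection hij a := by
  apply Subtype.ext
  show (1 + single i j a) * (1 + single j k b) =
    (1 + single i k (a * b)) * (1 + single j k b) * (1 + single i j a)
  simp only [mul_add, add_mul, one_mul, mul_one,
    single_mul_single_of_ne _ _ _ _ hjk.symm, single_mul_single_of_ne _ _ _ _ hik.symm,
    single_mul_single_same, add_zero]
  abel

theorem cen (hij : i ≠ j) (hjk : j ≠ k) (hik : i ≠ k) (a b c : R)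
    (h : transvection hij a * transvection hjk b * transvection hik c ∈
      Subgroup.center (Matrix.SpecialLinearGroup (Fin n) R)) : a = 0 ∧ b = 0 := by
  obtain ⟨r, _, hr0⟩ := Matrix.SpecialLinearGroup.mem_center_iff.1 h
  have hr : Matrix.scalar (Fin n) r =
      (1 + single i j a) * (1 + single j k b) * (1 + single i k c) := hr0
  simp only [mul_add, add_mul, one_mul, mul_one,
    single_mul_single_of_ne _ _ _ _ hij.symm, single_mul_single_of_ne _ _ _ _ hik.symm,
    single_mul_single_same, add_zero] at hr
  constructor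
  · have h1 := congrFun (congrFun hr i) j
    simpa [hij, hij.symm, hjk, hjk.symm] using h1.symm
  · have h1 := congrFun (congrFun hr j) k
    simpa [hij, hij.symm, hjk, hjk.symm] using h1.symm

theorem mem_img {G : Type} [Group G] (π : SL n R →* G) (h : i ≠ j) (x : G) :
    x ∈ (root R i j).map π ↔ ∃ r : R, x = π (transvection h r) := by
  rw [Subgroup.mem_map]
  constructor
  · rintro ⟨g, hg, rfl⟩
    obtain ⟨r, rfl⟩ := (s_root R n i j h g).1 hg
    exact ⟨r, rfl⟩
  · rintro ⟨r, rfl⟩
    exact ⟨_, (s_root R n i j h _).2 ⟨r, rfl⟩, rfl⟩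

theorem triv {G : Type} [Group G] (π : SL n R →* G) (hπ : π.ker ≤ Subgroup.center (SL n R))
    (h : i ≠ j) (r : R) (hr : π (transvection h r) = 1) : r = 0 :=
  (transvection_mem_center_iff h r).1 (hπ (MonoidHom.mem_ker.2 hr))

end HeisAux

open Matrix.SpecialLinearGroup in
theorem s_heis : S_heis := by
  intro R _ _ _ n G _ π hπ i j k hij hjk hik
  refine ⟨?_, ?_, (root R i k).map π, ?_, ?_, ?_, ?_⟩
  · refine Set.infinite_of_injective_forall_mem (f := fun r : R => π (transvection hij r)) ?_
      fun r => (HeisAux.mem_img π hij _).2 ⟨r, rfl⟩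
    intro r s hrs
    have h1 : π (transvection hij r) = π (transvection hij s) := hrs
    have h2 : π (transvection hij (r + -s)) = 1 := by
      rw [transvection_add, map_mul, h1, ← map_mul, transvection_mul_neg, map_one]
    have h3 := HeisAux.triv π hπ hij _ h2
    exact add_neg_eq_zero.1 h3
  · intro a ha a' ha'
    obtain ⟨r, rfl⟩ := (HeisAux.mem_img π hij _).1 ha
    obtain ⟨s, rfl⟩ := (HeisAux.mem_img π hij _).1 ha'
    rw [← map_mul, ← map_mul, ← transvection_add, ← transvection_add, add_comm]
  · intro z hz g hg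
    obtain ⟨c, rfl⟩ := (HeisAux.mem_img π hik _).1 hz
    have h1 : (root R i j).map π ⊔ (root R j k).map π ≤
        Subgroup.centralizer {π (transvection hik c)} := by
      refine sup_le ?_ ?_
      · intro x hx
        obtain ⟨a, rfl⟩ := (HeisAux.mem_img π hij _).1 hx
        rw [Subgroup.mem_centralizer_singleton_iff, ← map_mul, ← map_mul, HeisAux.c1 hij hik]
      · intro x hx
        obtain ⟨b, rfl⟩ := (HeisAux.mem_img π hjk _).1 hx
        rw [Subgroup.mem_centralizer_singleton_iff, ← map_mul, ← map_mul, HeisAux.c2 hjk hik]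
    exact (Subgroup.mem_centralizer_singleton_iff.1 (h1 hg)).symm
  · intro x hx y hy
    obtain ⟨a, rfl⟩ := (HeisAux.mem_img π hij _).1 hx
    obtain ⟨b, rfl⟩ := (HeisAux.mem_img π hjk _).1 hy
    refine (HeisAux.mem_img π hik _).2 ⟨a * b, ?_⟩
    rw [← map_mul, HeisAux.c3 hij hjk hik, map_mul, map_mul, mul_inv_cancel_right,
      mul_inv_cancel_right]
  · intro x hx y hy hz
    obtain ⟨a, rfl⟩ := (HeisAux.mem_img π hij _).1 hx
    obtain ⟨b, rfl⟩ := (HeisAux.mem_img π hjk _).1 hy
    obtain ⟨c, hc⟩ := (HeisAux.mem_img π hik _).1 hz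
    have h1 : π (transvection hij a * transvection hjk b * transvection hik (-c)) = 1 := by
      rw [map_mul, map_mul, hc, ← map_mul, transvection_mul_neg, map_one]
    obtain ⟨rfl, rfl⟩ := HeisAux.cen hij hjk hik a b (-c) (hπ (MonoidHom.mem_ker.2 h1))
    rw [transvection_coeff_zero, transvection_coeff_zero, map_one]
    exact ⟨rfl, rfl⟩
  · intro x hx y hy hc
    obtain ⟨a, rfl⟩ := (HeisAux.mem_img π hij _).1 hx
    obtain ⟨b, rfl⟩ := (HeisAux.mem_img π hjk _).1 hy
    rw [← map_mul, HeisAux.c3 hij hjk hik, map_mul, map_mul, mul_assoc, mul_eq_right] at hc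
    rcases mul_eq_zero.1 (HeisAux.triv π hπ hik _ hc) with rfl | rfl
    · left
      rw [transvection_coeff_zero, map_one]
    · right
      rw [transvection_coeff_zero, map_one]

end Vale.Agent.P092
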