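import Vale.Agent.P092.Stm

open Filter Topology

namespace Vale.Agent.P092

open Vale.Agent.P086

theorem s_icc : S_icc := by
  intro G _ H hG hH k hk γ hfin
  apply hG k hk
  have hF : Finite (G ⧸ H.normalCore) := Subgroup.finite_quotient_of_finiteIndex
  have hU := Set.finite_iUnion fun q : G ⧸ H.normalCore =>
    hfin.image fun m => q.out * m * q.out⁻¹
  refine hU.subset ?_
  rintro _ ⟨h, rfl⟩
  obtain ⟨n, hn⟩ := QuotientGroup.mk_out_eq_mul H.normalCore h
  refine Set.mem_iUnion.mpr ⟨QuotientGroup.mk h, (n : G)⁻¹ * k * (n : G)⁻¹⁻¹, ⟨(n : G)⁻¹, ?_, ?_, rfl⟩, ?_⟩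
  · exact H.normalCore_le (inv_mem n.2)
  · exact H.normalCore_le (H.normalCore_normal.conj_mem _ (inv_mem n.2) γ)
  · simp only [hn]
    group

end Vale.Agent.P092
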