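import Vale.Agent.P092.Stm

/-! P092: the kernel of a trace preserving isomorphism. -/

open Filter Topology

namespace Vale.Agent.P092

open Vale.Agent.P086

namespace KerAux

theorem ne (hb : Base) {G K : Type} [Group G] [Group K] (φ : LG G ≃⋆ₐ[ℂ] LG K) (g : G) :
    ∃ k, cf (φ (u g)) k ≠ 0 := by
  by_contra h
  have h0 : φ (u g) = 0 := (hb.b1 K).ext _ _ fun k => by
    rw [(hb.b1 K).zero]
    exact not_not.1 fun h' => h ⟨k, h'⟩
  have h1 : u g = 0 := φ.injective (h0.trans (map_zero φ).symm)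
  have h2 := (hb.b1 G).self g
  rw [h1, (hb.b1 G).zero] at h2
  exact zero_ne_one h2

end KerAux

theorem s_ker (hb : Base) : S_ker := by
  intro G K _ _ φ hφ
  have bG := hb.b1 G
  have bK := hb.b1 K
  have ms : ∀ x, φ (star x) = star (φ x) := φ.map_star'
  have h2 : ∀ g k, cf (φ.symm (u k)) g = (starRingEnd ℂ) (cf (φ (u g)) k) := fun g k => by
    have e1 : cf (φ.symm (u k)) g = cf (star (u g) * φ.symm (u k)) 1 := by
      rw [bG.inv, bG.left, inv_inv, mul_one]
    rw [e1, ← hφ, map_mul, ms, StarAlgEquiv.apply_symm_apply, bK.right, bK.star, one_mul,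
      inv_inv]
  refine ⟨fun x => by rw [← hφ, StarAlgEquiv.apply_symm_apply], h2, KerAux.ne hb φ,
    fun k => ?_, fun g k c h => ?_⟩
  · obtain ⟨g, hg⟩ := KerAux.ne hb φ.symm k
    exact ⟨g, fun h => hg (by rw [h2, h, map_zero])⟩
  · have e1 : star (φ (u g)) * φ (u g) = u 1 := by
      rw [← ms, ← map_mul, bG.inv, ← bG.mul, inv_mul_cancel, bG.one, map_one, bK.one]
    rw [h, star_smul, smul_mul_smul_comm, bK.inv, ← bK.mul, inv_mul_cancel] at e1
    have e2 := congrArg (fun x => cf x 1) e1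
    simp only [bK.smul, bK.self, mul_one] at e2
    have e3 := congrArg norm e2
    rw [norm_mul, norm_star, norm_one] at e3
    exact (mul_self_eq_one_iff.1 e3).resolve_right fun h => by linarith [norm_nonneg c]

end Vale.Agent.P092
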