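import Vale.Agent.P092.Stm

open Filter Topology

namespace Vale.Agent.P092

open Vale.Agent.P086

namespace LimAux

theorem closed : IsClosed {z : ℂ | ((RCLike.re z : ℝ) : ℂ) = z ∧ 0 ≤ RCLike.re z} :=
  (isClosed_eq (Complex.continuous_ofReal.comp RCLike.continuous_re) continuous_id).inter
    (isClosed_le continuous_const RCLike.continuous_re)

end LimAux

theorem s_lim : S_lim := by
  intro G _
  refine ⟨fun T S k l hT hS h => ?_, fun T k hT => ?_⟩
  · rw [ContinuousLinearMap.le_def, ContinuousLinearMap.isPositive_iff_complex]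
    intro ξ
    have h1 : Tendsto (fun n => inner ℂ ((S n - T n) ξ) ξ) atTop (𝓝 (inner ℂ ((l - k) ξ) ξ)) :=
      ((hS ξ).sub (hT ξ)).inner tendsto_const_nhds
    refine LimAux.closed.mem_of_tendsto h1 (h.mono fun n hn => ?_)
    rw [ContinuousLinearMap.le_def, ContinuousLinearMap.isPositive_iff_complex] at hn
    exact hn ξ
  · have hk : k ∈ vN G := by
      refine mem_vN.2 fun g => ContinuousLinearMap.ext fun ξ => ?_
      have h1 : Tendsto (fun n => rho g ((T n).1 ξ)) atTop (𝓝 (rho g (k ξ))) :=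
        ((rho g).continuous.tendsto _).comp (hT ξ)
      have h2 : ∀ n, rho g ((T n).1 ξ) = (T n).1 (rho g ξ) := fun n =>
        congrArg (fun A : Bdd (L2 G) => A ξ) (mem_vN.1 (mem (T n)) g)
      simp only [h2] at h1
      exact tendsto_nhds_unique h1 (hT (rho g ξ))
    refine ⟨⟨k, mem_groupVN.2 hk⟩, rfl, (Complex.continuous_re.tendsto _).comp ?_⟩
    have h3 : Tendsto (fun n => inner ℂ (dl (1 : G)) ((T n).1 (dl 1))) atTop
        (𝓝 (inner ℂ (dl (1 : G)) (k (dl 1)))) := tendsto_const_nhds.inner (hT (dl 1))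
    simp only [inner_dl_left] at h3
    exact h3

end Vale.Agent.P092
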