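import Vale.Agent.P092.MStm

/-! P092: rows and columns are abelian. -/

namespace Vale.Agent.P092

open Vale.Agent.P086

namespace MAbAux

theorem comm {R : Type} [Ring R] (a b : R) (h1 : (a - 1) * (b - 1) = 0)
    (h2 : (b - 1) * (a - 1) = 0) : a * b = b * a := by
  have e1 : a * b = (a - 1) * (b - 1) + a + b - 1 := by noncomm_ring
  have e2 : b * a = (b - 1) * (a - 1) + a + b - 1 := by noncomm_ring
  rw [e1, e2, h1, h2]

theorem zr {R : Type} [CommRing R] {n : ℕ} {i : Fin n} {g h : SL n R} (hg : IsRow i g)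
    (hh : IsRow i h) : (g.1 - 1) * (h.1 - 1) = 0 := by
  ext k m
  rw [Matrix.mul_apply, Matrix.zero_apply]
  refine Finset.sum_eq_zero fun l _ => ?_
  rw [Matrix.sub_apply, Matrix.sub_apply]
  by_cases hl : l = i
  · subst hl
    by_cases hk : k = l
    · subst hk
      rw [hg.1, Matrix.one_apply_eq, sub_self, zero_mul]
    · rw [hg.2 k l hk, sub_self, zero_mul]
  · rw [hh.2 l m hl, sub_self, mul_zero]

theorem zc {R : Type} [CommRing R] {n : ℕ} {i : Fin n} {g h : SL n R} (hg : IsCol i g)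
    (hh : IsCol i h) : (g.1 - 1) * (h.1 - 1) = 0 := by
  ext k m
  rw [Matrix.mul_apply, Matrix.zero_apply]
  refine Finset.sum_eq_zero fun l _ => ?_
  rw [Matrix.sub_apply, Matrix.sub_apply]
  by_cases hl : l = i
  · subst hl
    by_cases hm : m = l
    · subst hm
      rw [hh.1, Matrix.one_apply_eq, sub_self, mul_zero]
    · rw [hh.2 l m hm, sub_self, mul_zero]
  · rw [hg.2 k l hl, sub_self, zero_mul]

end MAbAux

theorem m_ab (h1 : M_row) (h2 : M_col) : M_ab := by
  intro R _ n i
  refine ⟨fun g hg h hh => Subtype.ext ?_, fun g hg h hh => Subtype.ext ?_⟩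
  · have a := (h1 R n i).1 g hg
    have b := (h1 R n i).1 h hh
    exact MAbAux.comm g.1 h.1 (MAbAux.zr a b) (MAbAux.zr b a)
  · have a := (h2 R n i).1 g hg
    have b := (h2 R n i).1 h hh
    exact MAbAux.comm g.1 h.1 (MAbAux.zc a b) (MAbAux.zc b a)

end Vale.Agent.P092
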