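import Vale.Agent.P092.CStm

/-! P092: statements of the steps for rows and columns. -/

namespace Vale.Agent.P092

open Vale.Agent.P086

def row (R : Type) [CommRing R] {n : ℕ} (i : Fin n) : Subgroup (SL n R) := ⨆ j, root R i j

def col (R : Type) [CommRing R] {n : ℕ} (j : Fin n) : Subgroup (SL n R) := ⨆ i, root R i j

/-- every element outside `A` has infinitely many conjugates under `A` -/
def Masa {G : Type} [Group G] (A : Subgroup G) : Prop :=
  ∀ h, h ∉ A → {m | ∃ a ∈ A, m = a * h * a⁻¹}.Infinite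

def IsRow {R : Type} [CommRing R] {n : ℕ} (i : Fin n) (g : SL n R) : Prop :=
  g.1 i i = 1 ∧ ∀ k l, k ≠ i → g.1 k l = (1 : Matrix (Fin n) (Fin n) R) k l

def IsCol {R : Type} [CommRing R] {n : ℕ} (j : Fin n) (g : SL n R) : Prop :=
  g.1 j j = 1 ∧ ∀ k l, l ≠ j → g.1 k l = (1 : Matrix (Fin n) (Fin n) R) k l

def M_masa : Prop := ∀ (G : Type) [Group G] (A : Subgroup G) (y : LG G), Masa A →
  (∀ a ∈ A, u a * y = y * u a) → Sup y A

def M_glk : Prop := ∀ (G K : Type) [Group G] [Group K] (φ : LG G ≃⋆ₐ[ℂ] LG K),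
  (∀ (A : Subgroup G) (S : Subgroup K), Masa A → (∀ s ∈ S, ∀ t ∈ S, s * t = t * s) →
    (∀ a ∈ A, Sup (φ (u a)) S) → Glk φ A S) ∧
  ∀ (A B : Subgroup G) (S T : Subgroup K), Glk φ A S → Glk φ B T → Glk φ (A ⊓ B) (S ⊓ T)

def M_row : Prop := ∀ (R : Type) [CommRing R] (n : ℕ) (i : Fin n),
  (∀ g ∈ row R i, IsRow i g) ∧
  ∀ v : Fin n → R, ∃ g ∈ row R i, ∀ l, l ≠ i → g.1 i l = v l

def M_col : Prop := ∀ (R : Type) [CommRing R] (n : ℕ) (j : Fin n),
  (∀ g ∈ col R j, IsCol j g) ∧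
  ∀ v : Fin n → R, ∃ g ∈ col R j, ∀ k, k ≠ j → g.1 k j = v k

def M_ab : Prop := ∀ (R : Type) [CommRing R] (n : ℕ) (i : Fin n),
  (∀ g ∈ row R i, ∀ h ∈ row R i, g * h = h * g) ∧ ∀ g ∈ col R i, ∀ h ∈ col R i, g * h = h * g

def M_int : Prop := ∀ (R : Type) [CommRing R] (n : ℕ) (G : Type) [Group G] (π : SL n R →* G),
  π.ker ≤ Subgroup.center (SL n R) → ∀ i j : Fin n, i ≠ j →
  (row R i).map π ⊓ (col R j).map π = (root R i j).map π

/-- finitely many conjugates force commutation with a nonzero multiple of the matrix unit -/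
def M_pig : Prop := ∀ (R : Type) [CommRing R] [IsDomain R] [Infinite R] (n : ℕ) (G : Type)
  [Group G] (π : SL n R →* G), π.ker ≤ Subgroup.center (SL n R) → ∀ (i j : Fin n), i ≠ j →
  ∀ m : SL n R, {x | ∃ a ∈ (root R i j).map π, x = a * π m * a⁻¹}.Finite →
  (∀ l, l ≠ j → m.1 j l = 0) ∧ (∀ k, k ≠ i → m.1 k i = 0) ∧ m.1 j j = m.1 i i

def M_mrow : Prop := ∀ (R : Type) [CommRing R] [IsDomain R] [Infinite R] (n : ℕ), 2 ≤ n →
  ∀ (G : Type) [Group G] (π : SL n R →* G), Function.Surjective π →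
  π.ker = Subgroup.center (SL n R) → ∀ i : Fin n, Masa ((row R i).map π)

def M_mcol : Prop := ∀ (R : Type) [CommRing R] [IsDomain R] [Infinite R] (n : ℕ), 2 ≤ n →
  ∀ (G : Type) [Group G] (π : SL n R →* G), Function.Surjective π →
  π.ker = Subgroup.center (SL n R) → ∀ i : Fin n, Masa ((col R i).map π)

end Vale.Agent.P092
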