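import Vale.Agent.P092.Spec

namespace Vale.Agent.P092S

open Vale.Agent.P086

section

variable {A B : Type} [Semiring A] [StarRing A] [Algebra ℂ A] [StarModule ℂ A]
  [Semiring B] [StarRing B] [Algebra ℂ B] [StarModule ℂ B] {G K : Type} [Group G] [Group K]

/-- `θ (u(P)'') ⊆ w v(S)'' w*` for some abelian subgroup `S`. -/
def IntoAb {M : StarSubalgebra ℂ A} {N : StarSubalgebra ℂ B} (u : G → A) (v : K → B)
    (θ : M ≃⋆ₐ[ℂ] N) (w : N) (P : Subgroup G) : Prop :=
  ∃ S : Subgroup K, (∀ s ∈ S, ∀ t ∈ S, s * t = t * s) ∧ ∀ x : M,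
    x.1 ∈ bicomm (u '' (P : Set G)) → (star w * θ x * w).1 ∈ bicomm (v '' (S : Set K))

/-- For every star isomorphism `θ : M → N` and unitary `w`: all subgroups in `F` go into abelian
group subalgebras if and only if `θ` is in canonical form with the unitary `w`. -/
def DetectsAb (M : StarSubalgebra ℂ A) (N : StarSubalgebra ℂ B) (u : G → A) (v : K → B)
    (F : Set (Subgroup G)) : Prop :=
  ∀ (θ : M ≃⋆ₐ[ℂ] N) (w : N), w ∈ unitary N → ((∀ P ∈ F, IntoAb u v θ w P) ↔ Canon u v θ w)

end

/-- The case of the group von Neumann algebras and their canonical unitaries. -/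
def DetectsAbOn (G K : Type) [Group G] [Group K] (F : Set (Subgroup G)) : Prop :=
  DetectsAb (groupVN G).toStarSubalgebra (groupVN K).toStarSubalgebra leftReg leftReg F

/-- `A` is abelian and every element outside `A` has infinitely many conjugates under `A`. -/
def MaxAb {G : Type} [Group G] (A : Subgroup G) : Prop :=
  (∀ a ∈ A, ∀ b ∈ A, a * b = b * a) ∧ ∀ h, h ∉ A → {m | ∃ a ∈ A, m = a * h * a⁻¹}.Infinite

/-- The subgroup generated by the root groups of the row `i`. -/
def row (R : Type) [CommRing R] {n : ℕ} (i : Fin n) :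
    Subgroup (Matrix.SpecialLinearGroup (Fin n) R) := ⨆ j, root R i j

/-- The subgroup generated by the root groups of the column `j`. -/
def col (R : Type) [CommRing R] {n : ℕ} (j : Fin n) :
    Subgroup (Matrix.SpecialLinearGroup (Fin n) R) := ⨆ i, root R i j

end Vale.Agent.P092S
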