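import Vale.Agent.P092.Main
import Vale.Agent.P092.MStm
import Vale.Agent.P092.Spec3

namespace Vale.Agent.P092

open Vale.Agent.P086

/-- image in an abelian group subalgebra -/
def Into {G K : Type} [Group G] [Group K] (θ : LG G ≃⋆ₐ[ℂ] LG K) (w : LG K) (P : Subgroup G) :
    Prop :=
  ∃ S : Subgroup K, (∀ s ∈ S, ∀ t ∈ S, s * t = t * s) ∧ ∀ x : LG G,
    x.1 ∈ subVN P → (star w * θ x * w).1 ∈ subVN S

theorem detectsAbOn_iff (G K : Type) [Group G] [Group K] (F : Set (Subgroup G)) :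
    P092S.DetectsAbOn G K F ↔ ∀ (θ : LG G ≃⋆ₐ[ℂ] LG K) (w : LG K), w ∈ unitary (LG K) →
      ((∀ P ∈ F, Into θ w P) ↔ Canonical θ w) := Iff.rfl

theorem conj2 {G K : Type} [Group G] [Group K] (θ : LG G ≃⋆ₐ[ℂ] LG K) (w : LG K)
    (hw : w ∈ unitary (LG K)) : ∃ φ : LG G ≃⋆ₐ[ℂ] LG K, (∀ x, φ x = star w * θ x * w) ∧
    ((∃ (δ : G ≃* K) (χ : G →* Circle), ∀ g, φ (u g) = (χ g : ℂ) • u (δ g)) → Canonical θ w) := by
  obtain ⟨c, hc⟩ := ConjAux.exists_conj w hw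
  have hφ : ∀ x, (θ.trans c) x = star w * θ x * w := fun x => hc (θ x)
  refine ⟨θ.trans c, hφ, ?_⟩
  rintro ⟨δ, χ, h⟩
  refine ⟨δ, χ, fun g x hx => ?_⟩
  have hxu : x = u g := Subtype.ext hx
  have h1 := h g
  rw [hφ] at h1
  rw [hxu, ConjAux.back w _ _ _ hw h1]
  rfl

theorem detectsAb_of (hc : C_cnv) (hab : C_ab) (hg : M_glk) {G K : Type} [Group G] [Group K]
    {F : Set (Subgroup G)} (tp : ∀ φ : LG G ≃⋆ₐ[ℂ] LG K, TP φ)
    (hF : ∀ P ∈ F, (∀ a ∈ P, ∀ b ∈ P, a * b = b * a) ∧ Masa P)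
    (h : ∀ φ : LG G ≃⋆ₐ[ℂ] LG K, (∀ P ∈ F, ∃ S, Glk φ P S) → ∀ g, Mono φ g) :
    P092S.DetectsAbOn G K F := by
  refine (detectsAbOn_iff G K F).2 fun θ w hw => ?_
  obtain ⟨φ, hφ, hcan⟩ := conj2 θ w hw
  refine ⟨fun hI => hcan (can0 G K φ (tp φ) (h φ fun P hP => ?_)), fun hcan P hP => ?_⟩
  · obtain ⟨S, h1, h2⟩ := hI P hP
    refine ⟨S, (hg G K φ).1 P S (hF P hP).2 h1 fun a ha => (base.b3 K).sup S _ ?_⟩
    rw [hφ]
    exact h2 _ ((base.b3 G).mem P a ha)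
  · obtain ⟨S, hS⟩ := hc G K θ w hw tp hcan P
    refine ⟨S, hab G K φ P S ⟨fun σ hσ => ?_, fun a ha => ?_⟩ (hF P hP).1, fun x => (hS x).1⟩
    · refine (base.b3 G).sup P _ ((hS _).2 ?_)
      rw [← hφ, StarAlgEquiv.apply_symm_apply]
      exact (base.b3 K).mem S σ hσ
    · refine (base.b3 K).sup S _ ?_
      rw [hφ]
      exact (hS _).1 ((base.b3 G).mem P a ha)

theorem map_ab {G H : Type} [Group G] [Group H] (π : G →* H) {A : Subgroup G}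
    (h : ∀ a ∈ A, ∀ b ∈ A, a * b = b * a) : ∀ a ∈ A.map π, ∀ b ∈ A.map π, a * b = b * a := by
  rintro _ ⟨a, ha, rfl⟩ _ ⟨b, hb, rfl⟩
  rw [← map_mul, ← map_mul, h a ha b hb]

theorem abB (hc : C_cnv) (hab : C_ab) (hg : M_glk) (ha : M_ab) (hi : M_int) (hr : M_mrow)
    (hl : M_mcol) (R : Type) [EuclideanDomain R] [Infinite R] (n : ℕ)
    (hn : 3 ≤ n) (G K : Type) [Group G] [Group K]
    (π : Matrix.SpecialLinearGroup (Fin n) R →* G) (h1 : Function.Surjective π)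
    (h2 : π.ker = Subgroup.center _) (hK : ICC K) :
    P092S.DetectsAbOn G K
      ((Set.range fun i : Fin n => (row R i).map π) ∪ Set.range fun i : Fin n => (col R i).map π) := by
  haveI : NeZero n := ⟨by omega⟩
  have tp := fun φ : LG G ≃⋆ₐ[ℂ] LG K => tp_of ker0 tr0 hK φ
  refine detectsAb_of hc hab hg tp ?_ fun φ hF => ?_
  · rintro _ (⟨i, rfl⟩ | ⟨i, rfl⟩)
    · exact ⟨map_ab π (ha R n i).1, hr R n (by omega) G π h1 h2 i⟩
    · exact ⟨map_ab π (ha R n i).2, hl R n (by omega) G π h1 h2 i⟩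
  · have h : ∀ i : Fin n, ∃ S, Glk φ ((root R i (i + 1)).map π) S := fun i => by
      obtain ⟨S, hS⟩ := hF _ (Or.inl ⟨i, rfl⟩)
      obtain ⟨T, hT⟩ := hF _ (Or.inr ⟨i + 1, rfl⟩)
      have h3 := (hg G K φ).2 _ _ S T hS hT
      rw [hi R n G π h2.le i (i + 1) (fin_ne hn i).1] at h3
      exact ⟨_, h3⟩
    obtain ⟨H, hH⟩ := s_sub base G K φ
    have h1' : ∀ i : Fin n, root R (i + 1) (i + 1 + 1) ≤ H.comap π := fun i e he => by
      obtain ⟨S, hS⟩ := h i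
      obtain ⟨T, hT⟩ := h (i + 1)
      have hz := s_heis R n G π h2.le i (i + 1) (i + 1 + 1) (fin_ne hn i).1
        (fin_ne hn (i + 1)).1 (fin_ne hn i).2
      exact (hH _).2 (pair0 G K φ _ _ S T (tp φ) (s_tri G _ _ hz) hS hT _
        (Subgroup.mem_map_of_mem π he))
    have h2' : ∀ i : Fin n, root R i (i + 1) ≤ H.comap π := fun i => by
      have h3 := h1' (i - 1)
      rwa [sub_add_cancel] at h3
    have h4 : EE R (Finset.univ : Finset (Fin n)) ≤ H.comap π :=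
      iSup₂_le fun i _ => iSup₂_le fun j _ => s_cyc s_root R n _ h2' i j
    intro g
    obtain ⟨e, rfl⟩ := h1 g
    exact (hH _).1 (h4 (gen0 R n e))

theorem abC (hc : C_cnv) (hab : C_ab) (hg : M_glk) (G K : Type) [Group G] [Group K] (hG : ICC G)
    (ι : Type) (a b : ι → G) (A B C : ι → Subgroup G)
    (h1 : (Subgroup.closure (Set.range a ∪ Set.range b)).FiniteIndex)
    (h2 : ∀ i, a i ∈ A i ∧ b i ∈ B i ∧ a i * b i ∈ C i ∧
      A i ⊓ B i = ⊥ ∧ A i ⊓ C i = ⊥ ∧ B i ⊓ C i = ⊥ ∧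
      P092S.MaxAb (A i) ∧ P092S.MaxAb (B i) ∧ P092S.MaxAb (C i)) :
    P092S.DetectsAbOn G K (Set.range A ∪ Set.range B ∪ Set.range C) := by
  have tp := fun φ : LG G ≃⋆ₐ[ℂ] LG K => tr0 G K φ hG
  refine detectsAb_of hc hab hg tp ?_ fun φ hF => ?_
  · rintro _ ((⟨i, rfl⟩ | ⟨i, rfl⟩) | ⟨i, rfl⟩)
    · exact (h2 i).2.2.2.2.2.2.1
    · exact (h2 i).2.2.2.2.2.2.2.1
    · exact (h2 i).2.2.2.2.2.2.2.2
  · have hm : ∀ i, Mono φ (a i) ∧ Mono φ (b i) := fun i => by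
      obtain ⟨S, hS⟩ := hF _ (Or.inl (Or.inl ⟨i, rfl⟩))
      obtain ⟨T, hT⟩ := hF _ (Or.inl (Or.inr ⟨i, rfl⟩))
      obtain ⟨W, hW⟩ := hF _ (Or.inr ⟨i, rfl⟩)
      obtain ⟨k1, k2, k3, k4, k5, k6, -⟩ := h2 i
      exact web base ker0 (tp φ) hS hT hW k4 k5 k6 k1 k2 k3
    obtain ⟨H, hH⟩ := s_sub base G K φ
    have hle : Subgroup.closure (Set.range a ∪ Set.range b) ≤ H := by
      rw [Subgroup.closure_le]
      rintro g (⟨i, rfl⟩ | ⟨i, rfl⟩)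
      · exact (hH _).2 (hm i).1
      · exact (hH _).2 (hm i).2
    exact fin0 G K φ _ hG (tp φ) h1 fun g hg => (hH g).1 (hle hg)

end Vale.Agent.P092
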