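import Vale.Agent.P092.MStm

/-! P092: the column subgroup. -/

namespace Vale.Agent.P092

open Vale.Agent.P086

namespace MColAux

variable {R : Type} [CommRing R] {n : ℕ}

theorem one (j : Fin n) : IsCol j (1 : SL n R) :=
  ⟨Matrix.one_apply_eq j, fun _ _ _ => rfl⟩

theorem mul (j : Fin n) (g h : SL n R) (hg : IsCol j g) (hh : IsCol j h) : IsCol j (g * h) := by
  constructor
  · rw [Matrix.SpecialLinearGroup.coe_mul, Matrix.mul_apply, Finset.sum_eq_single j, hg.1, hh.1,
      mul_one]
    · intro l _ hl
      rw [hg.2 j l hl, Matrix.one_apply_ne hl.symm, zero_mul]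
    · intro k
      exact absurd (Finset.mem_univ j) k
  · intro k l hl
    have h1 : ∀ m, g.1 k m * h.1 m l = g.1 k m * (1 : Matrix (Fin n) (Fin n) R) m l :=
      fun m => by rw [hh.2 m l hl]
    rw [Matrix.SpecialLinearGroup.coe_mul, Matrix.mul_apply, Finset.sum_congr rfl fun m _ => h1 m,
      ← Matrix.mul_apply, Matrix.mul_one]
    exact hg.2 k l hl

theorem tv {i j : Fin n} (h : i ≠ j) (r : R) :
    IsCol j (Matrix.SpecialLinearGroup.transvection h r) := by
  have hc : (Matrix.SpecialLinearGroup.transvection h r).1 =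
      (1 : Matrix (Fin n) (Fin n) R) + Matrix.single i j r := rfl
  constructor
  · rw [hc, Matrix.add_apply, Matrix.single_apply_of_ne i j r j j fun k => h k.1, add_zero,
      Matrix.one_apply_eq]
  · intro k l hl
    rw [hc, Matrix.add_apply, Matrix.single_apply_of_ne i j r k l fun k => hl k.2.symm, add_zero]

end MColAux

theorem m_col (hr : S_root) : M_col := by
  intro R _ n j
  have p1 : ∀ g ∈ col R j, IsCol j g := by
    intro g hg
    refine Subgroup.iSup_induction (fun i => root R i j) (C := IsCol j) hg ?_ (MColAux.one j)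
      (MColAux.mul j)
    intro i x hx
    by_cases h : i = j
    · have e : root R i j = ⊥ := by
        refine (Subgroup.closure_eq_bot_iff).2 ?_
        rintro y ⟨k, -⟩
        exact absurd h k
      rw [e, Subgroup.mem_bot] at hx
      rw [hx]
      exact MColAux.one j
    · obtain ⟨r, rfl⟩ := (hr R n i j h x).1 hx
      exact MColAux.tv h r
  refine ⟨p1, fun v => ?_⟩
  have p2 : ∀ t : Finset (Fin n), ∃ g ∈ col R j, ∀ k, k ≠ j →
      g.1 k j = if k ∈ t then v k else 0 := by
    intro t
    induction t using Finset.induction_on with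
    | empty =>
      refine ⟨1, (col R j).one_mem, fun k hk => ?_⟩
      rw [if_neg (Finset.notMem_empty k)]
      exact Matrix.one_apply_ne hk
    | insert a t ha ih =>
      obtain ⟨g, g1, g2⟩ := ih
      by_cases h : a = j
      · refine ⟨g, g1, fun k hk => ?_⟩
        rw [g2 k hk]
        exact if_congr (by simp [h, hk]) rfl rfl
      · refine ⟨Matrix.SpecialLinearGroup.transvection h (v a) * g, (col R j).mul_mem
          (le_iSup (fun i => root R i j) a ((hr R n a j h _).2 ⟨_, rfl⟩)) g1, fun k hk => ?_⟩
        have hc : (Matrix.SpecialLinearGroup.transvection h (v a) * g).1 =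
            Matrix.transvection a j (v a) * g.1 := rfl
        rw [hc]
        by_cases c : k = a
        · rw [c, Matrix.transvection_mul_apply_same, g2 a h, (p1 g g1).1, if_neg ha,
            if_pos (Finset.mem_insert_self a t), zero_add, mul_one]
        · rw [Matrix.transvection_mul_apply_of_ne _ _ _ _ c, g2 k hk]
          exact if_congr (by simp [c]) rfl rfl
  obtain ⟨g, g1, g2⟩ := p2 Finset.univ
  exact ⟨g, g1, fun k hk => by rw [g2 k hk, if_pos (Finset.mem_univ k)]⟩

end Vale.Agent.P092
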