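import Vale.Agent.P092.MStm

/-! P092: a row group and a column group meet in a root group. -/

namespace Vale.Agent.P092

open Vale.Agent.P086

namespace MIntAux

theorem eq_tr {R : Type} [CommRing R] {n : ℕ} {i j : Fin n} (h : i ≠ j) {a : SL n R}
    (h1 : IsRow i a) (h2 : IsCol j a) :
    a = Matrix.SpecialLinearGroup.transvection h (a.1 i j) := by
  refine Subtype.ext (Matrix.ext fun k l => ?_)
  change a.1 k l = ((1 : Matrix (Fin n) (Fin n) R) + Matrix.single i j (a.1 i j)) k l
  rw [Matrix.add_apply]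
  by_cases hk : k = i
  · by_cases hl : l = j
    · rw [hk, hl, Matrix.one_apply_ne h, Matrix.single_apply_same, zero_add]
    · rw [h2.2 k l hl, Matrix.single_apply_of_col_ne _ _ (Ne.symm hl), add_zero]
  · rw [h1.2 k l hk, Matrix.single_apply_of_row_ne (Ne.symm hk), add_zero]

end MIntAux

theorem m_int (hr : S_root) (h1 : M_row) (h2 : M_col) : M_int := by
  intro R _ n G _ π hk i j h
  refine le_antisymm ?_ (le_inf (Subgroup.map_mono (le_iSup (fun j => root R i j) j))
    (Subgroup.map_mono (le_iSup (fun i => root R i j) i)))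
  rintro x ⟨⟨a, ha, rfl⟩, b, hb, e⟩
  have ra := (h1 R n i).1 a ha
  have cb := (h2 R n j).1 b hb
  have hc : a⁻¹ * b ∈ Subgroup.center (SL n R) :=
    hk (by rw [MonoidHom.mem_ker, map_mul, map_inv, e, inv_mul_cancel])
  obtain ⟨c, -, hs⟩ := Matrix.SpecialLinearGroup.mem_center_iff.1 hc
  have e1 : b.1 = a.1 * Matrix.scalar (Fin n) c := by
    rw [hs]
    exact congrArg Subtype.val (mul_inv_cancel_left a b).symm
  have e2 : c = 1 := by
    have h3 := congrFun (congrFun e1 j) j
    rw [Matrix.scalar_apply, Matrix.mul_diagonal, cb.1, ra.2 j j h.symm, Matrix.one_apply_eq,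
      one_mul] at h3
    exact h3.symm
  have e3 : b = a := Subtype.ext (by rw [e1, e2, map_one, mul_one])
  rw [e3] at cb
  exact ⟨a, (hr R n i j h a).2 ⟨_, MIntAux.eq_tr h ra cb⟩, rfl⟩

end Vale.Agent.P092
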