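import Vale.Agent.P092.MStm

namespace Vale.Agent.P092

open Vale.Agent.P086

theorem m_masa (hb : Base) : M_masa := by
  intro G _ A y hA hy h hh
  by_contra hn
  refine hA h hn (((hb.b3 G).fin y ‖cf y h‖ (norm_pos_iff.2 hh)).subset ?_)
  rintro _ ⟨a, ha, rfl⟩
  have e := congrArg (fun x => cf x (a * h)) (hy a ha)
  simp only [(hb.b1 G).left, (hb.b1 G).right, inv_mul_cancel_left] at e
  exact (congrArg norm e).le

theorem m_glk (hc : C_comm) (hb : Base) (hm : M_masa) : M_glk := by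
  intro G K _ _ φ
  refine ⟨fun A S hA hS h => ⟨fun σ hσ => hm G A _ hA fun a ha => ?_, h⟩,
    fun A B S T h1 h2 => ⟨fun σ hσ g hg => ⟨h1.1 σ hσ.1 g hg, h2.1 σ hσ.2 g hg⟩,
      fun a ha g hg => ⟨h1.2 a ha.1 g hg, h2.2 a ha.2 g hg⟩⟩⟩
  have hs : Sup (u σ) S := fun g hg => by
    by_contra hn
    exact hg ((hb.b1 K).ne σ g fun e => hn (e ▸ hσ))
  have e := congrArg φ.symm (hc K S hS _ _ (h a ha) hs)
  simpa only [map_mul, StarAlgEquiv.symm_apply_apply] using e

end Vale.Agent.P092
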