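import Vale.Agent.P092.MStm

/-! P092: the image of a column group has infinite conjugacy classes outside itself. -/

namespace Vale.Agent.P092

open Vale.Agent.P086

namespace MMcolAux

theorem central {R : Type} [CommRing R] {n : ℕ} (g : SL n R) (c : R)
    (hg : g.1 = c • (1 : Matrix (Fin n) (Fin n) R)) : g ∈ Subgroup.center (SL n R) := by
  rw [Subgroup.mem_center_iff]
  intro x
  apply Subtype.ext
  show x.1 * g.1 = g.1 * x.1
  rw [hg, smul_mul_assoc, mul_smul_comm, mul_one, one_mul]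

end MMcolAux

theorem m_mcol (h2 : M_col) (hp : M_pig) : M_mcol := by
  intro R _ _ _ n hn G _ π hsurj hker i h hh hfin
  obtain ⟨m, rfl⟩ := hsurj h
  have hk : ∀ k, k ≠ i →
      (∀ l, l ≠ i → m.1 i l = 0) ∧ (∀ l, l ≠ k → m.1 l k = 0) ∧ m.1 i i = m.1 k k := by
    intro k hki
    refine hp R n G π hker.le k i hki m (hfin.subset ?_)
    rintro x ⟨a, ha, rfl⟩
    have hle : root R k i ≤ col R i := le_iSup (fun k => root R k i) k
    exact ⟨a, Subgroup.map_mono hle ha, rfl⟩
  have : Nontrivial (Fin n) := Fin.nontrivial_iff_two_le.mpr hn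
  obtain ⟨k0, hk0⟩ := exists_ne i
  have hinv : (m⁻¹).1 * m.1 = 1 := by
    have : m⁻¹ * m = 1 := inv_mul_cancel m
    exact congrArg Subtype.val this
  have hd : (m⁻¹).1 k0 k0 * m.1 i i = 1 := by
    have h1 := congrFun (congrFun hinv k0) k0
    rw [Matrix.mul_apply, Finset.sum_eq_single k0, Matrix.one_apply_eq] at h1
    · rw [(hk k0 hk0).2.2]; exact h1
    · intro l _ hl
      rw [(hk k0 hk0).2.1 l hl, mul_zero]
    · intro hc
      exact absurd (Finset.mem_univ _) hc
  obtain ⟨a, ha, hav⟩ := (h2 R n i).2 (fun k => (m⁻¹).1 k0 k0 * m.1 k i)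
  have hca := (h2 R n i).1 a ha
  have hm : m.1 = m.1 i i • a.1 := by
    ext k l
    rw [Matrix.smul_apply, smul_eq_mul]
    by_cases hl : l = i
    · subst hl
      by_cases hkl : k = l
      · subst hkl
        rw [hca.1, mul_one]
      · rw [hav k hkl, ← mul_assoc, mul_comm (m.1 l l), hd, one_mul]
    · rw [hca.2 k l hl]
      by_cases hkl : k = l
      · subst hkl
        rw [Matrix.one_apply_eq, mul_one, (hk k hl).2.2]
      · rw [Matrix.one_apply_ne hkl, mul_zero]
        exact (hk l hl).2.1 k hkl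
  have hainv : a.1 * (a⁻¹).1 = 1 := by
    have : a * a⁻¹ = 1 := mul_inv_cancel a
    exact congrArg Subtype.val this
  have hcen : m * a⁻¹ ∈ Subgroup.center (SL n R) := by
    apply MMcolAux.central _ (m.1 i i)
    show m.1 * (a⁻¹).1 = _
    rw [← hainv, ← smul_mul_assoc, ← hm]
  rw [← hker, MonoidHom.mem_ker, map_mul, map_inv, mul_inv_eq_one] at hcen
  exact hh ⟨a, ha, hcen.symm⟩

end Vale.Agent.P092
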