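import Vale.Agent.P092.MStm

/-! P092: the image of a row subgroup has infinitely many conjugates outside itself. -/

namespace Vale.Agent.P092

open Vale.Agent.P086

namespace MMrowAux

theorem coe_mul {R : Type} [CommRing R] {n : ℕ} (g h : SL n R) : (g * h).1 = g.1 * h.1 := rfl

theorem coe_inv {R : Type} [CommRing R] {n : ℕ} (g : SL n R) : g.1 * (g⁻¹).1 = 1 := by
  rw [← coe_mul, mul_inv_cancel]
  rfl

theorem cen {R : Type} [CommRing R] {n : ℕ} {m a : SL n R} {c : R} (h : m.1 = c • a.1) :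
    m * a⁻¹ ∈ Subgroup.center (SL n R) := by
  have e : (m * a⁻¹).1 = c • (1 : Matrix (Fin n) (Fin n) R) := by
    rw [coe_mul, h, Matrix.smul_mul, coe_inv]
  refine Subgroup.mem_center_iff.2 fun g => Subtype.ext ?_
  rw [coe_mul g, coe_mul _ g, e, Matrix.smul_mul, Matrix.mul_smul, Matrix.one_mul, Matrix.mul_one]

end MMrowAux

open MMrowAux

theorem m_mrow (h1 : M_row) (hp : M_pig) : M_mrow := by
  intro R _ _ _ n hn G _ π hs hk i h hA hfin
  obtain ⟨m, rfl⟩ := hs h
  have key : ∀ j, j ≠ i → (∀ l, l ≠ j → m.1 j l = 0) ∧ m.1 j j = m.1 i i := by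
    intro j hj
    have := hp R n G π hk.le i j hj.symm m (hfin.subset fun x ⟨a, ha, hx⟩ =>
      ⟨a, Subgroup.map_mono (le_iSup (fun j => root R i j) j) ha, hx⟩)
    exact ⟨this.1, this.2.2⟩
  have : Nontrivial (Fin n) := Fin.nontrivial_iff_two_le.2 hn
  obtain ⟨j, hj⟩ := exists_ne i
  have hc : m.1 i i * (m⁻¹).1 j j = 1 := by
    have e := congrFun (congrFun (coe_inv m) j) j
    rw [Matrix.mul_apply, Finset.sum_eq_single j, (key j hj).2, Matrix.one_apply_eq] at e
    · exact e
    · intro l _ hl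
      rw [(key j hj).1 l hl, zero_mul]
    · intro h'
      exact absurd (Finset.mem_univ j) h'
  obtain ⟨a, ha, hv⟩ := (h1 R n i).2 fun l => (m⁻¹).1 j j * m.1 i l
  obtain ⟨r1, r2⟩ := (h1 R n i).1 a ha
  have e : m.1 = m.1 i i • a.1 := by
    ext k l
    rw [Matrix.smul_apply, smul_eq_mul]
    by_cases hki : k = i
    · rw [hki]
      by_cases hl : l = i
      · rw [hl, r1, mul_one]
      · rw [hv l hl, ← mul_assoc, hc, one_mul]
    · rw [r2 k l hki]
      by_cases hl : l = k
      · rw [hl, Matrix.one_apply_eq, mul_one, (key k hki).2]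
      · rw [Matrix.one_apply_ne (Ne.symm hl), mul_zero, (key k hki).1 l hl]
  have h2 : π (m * a⁻¹) = 1 := by
    rw [← MonoidHom.mem_ker, hk]
    exact cen e
  rw [map_mul, map_inv, mul_inv_eq_one] at h2
  exact hA ⟨a, ha, h2.symm⟩

end Vale.Agent.P092
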