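import Vale.Agent.P092.MStm

/-! P092: finitely many conjugates force commutation with a multiple of a matrix unit. -/

namespace Vale.Agent.P092

open Vale.Agent.P086

namespace MPigAux

theorem key {R : Type} [CommRing R] {n : ℕ} (S M N : Matrix (Fin n) (Fin n) R) (c : R)
    (hS : S * S = 0) (hN : M * N = 1) (h : (1 + S) * M = c • (M * (1 + S))) :
    ((1 - c) * (1 - c)) • S = 0 := by
  have h1 : S * M = c • (S * M) + c • (S * M * S) := by
    have := congrArg (fun X => S * X) h
    simp only [← Matrix.mul_assoc, Matrix.mul_add, Matrix.mul_one, hS, add_zero, Matrix.mul_smul,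
      smul_add] at this
    exact this
  have h2 : S * M * S = c • (S * M * S) := by
    have := congrArg (fun X => X * S) h1
    simp only [Matrix.add_mul, Matrix.smul_mul, Matrix.mul_assoc (S * M) S S, hS, Matrix.mul_zero,
      smul_zero, add_zero] at this
    exact this
  have h3 : (1 - c) • (S * M) = c • (S * M * S) := by
    rw [sub_smul, one_smul, sub_eq_iff_eq_add, add_comm]
    exact h1
  have h4 : (1 - c) • (S * M * S) = 0 := by
    rw [sub_smul, one_smul, sub_eq_zero]
    exact h2
  have h5 : ((1 - c) * (1 - c)) • (S * M) = 0 := by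
    rw [mul_smul, h3, smul_comm, h4, smul_zero]
  have h6 := congrArg (fun X => X * N) h5
  simpa only [Matrix.smul_mul, Matrix.mul_assoc, hN, Matrix.mul_one, Matrix.zero_mul] using h6

end MPigAux

theorem m_pig (hr : S_root) : M_pig := by
  intro R _ _ _ n G _ π hπ i j h m hfin
  obtain ⟨r, -, r', -, hne, heq⟩ := Set.Infinite.exists_ne_map_eq_of_mapsTo
    (f := fun r : R => π (Matrix.SpecialLinearGroup.transvection h r) * π m *
      (π (Matrix.SpecialLinearGroup.transvection h r))⁻¹)
    (t := {x | ∃ a ∈ (root R i j).map π, x = a * π m * a⁻¹}) Set.infinite_univ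
    (fun r _ => ⟨_, Subgroup.mem_map_of_mem π ((hr R n i j h _).2 ⟨r, rfl⟩), rfl⟩) hfin
  have hs : -r' + r ≠ 0 := fun h0 => hne (by linear_combination h0)
  have he : Matrix.SpecialLinearGroup.transvection h (-r' + r) =
      (Matrix.SpecialLinearGroup.transvection h r')⁻¹ * Matrix.SpecialLinearGroup.transvection h r := by
    rw [Matrix.SpecialLinearGroup.transvection_add, Matrix.SpecialLinearGroup.transvection_inv]
  generalize -r' + r = s at hs he
  have hk : Matrix.SpecialLinearGroup.transvection h s * m *
      (Matrix.SpecialLinearGroup.transvection h s)⁻¹ * m⁻¹ ∈ π.ker := by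
    rw [MonoidHom.mem_ker, he]
    simp only [map_mul, map_inv]
    generalize π (Matrix.SpecialLinearGroup.transvection h r) = a at heq
    generalize π (Matrix.SpecialLinearGroup.transvection h r') = b at heq
    calc b⁻¹ * a * π m * (b⁻¹ * a)⁻¹ * (π m)⁻¹ = b⁻¹ * (a * π m * a⁻¹) * b * (π m)⁻¹ := by group
      _ = 1 := by rw [heq]; group
  obtain ⟨c, -, hc⟩ := Matrix.SpecialLinearGroup.mem_center_iff.1 (hπ hk)
  have hg : Matrix.SpecialLinearGroup.transvection h s * m =
      (Matrix.SpecialLinearGroup.transvection h s * m *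
      (Matrix.SpecialLinearGroup.transvection h s)⁻¹ * m⁻¹) *
        (m * Matrix.SpecialLinearGroup.transvection h s) := by group
  have hm : (1 + Matrix.single i j s) * m.1 = c • (m.1 * (1 + Matrix.single i j s)) := by
    have h1 := congrArg Subtype.val hg
    rw [Matrix.SpecialLinearGroup.coe_mul, Matrix.SpecialLinearGroup.coe_mul, ← hc,
      Matrix.SpecialLinearGroup.coe_mul, Matrix.SpecialLinearGroup.transvection_coe,
      Matrix.scalar_apply, ← Matrix.smul_eq_diagonal_mul] at h1
    exact h1
  have hN : m.1 * (m⁻¹).1 = 1 := by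
    rw [← Matrix.SpecialLinearGroup.coe_mul, mul_inv_cancel, Matrix.SpecialLinearGroup.coe_one]
  have h0 := MPigAux.key _ _ _ c (Matrix.single_mul_single_of_ne s i j i (Ne.symm h) s) hN hm
  have h1 : (1 - c) * (1 - c) * s = 0 := by
    have := congrFun (congrFun h0 i) j
    simpa only [Matrix.smul_apply, Matrix.single_apply_same, smul_eq_mul, Matrix.zero_apply]
      using this
  have hc1 : c = 1 := by
    have h2 := (mul_eq_zero.1 h1).resolve_right hs
    have h3 := mul_self_eq_zero.1 h2
    linear_combination -h3
  have hcomm : Matrix.single i j s * m.1 = m.1 * Matrix.single i j s := by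
    rw [hc1, one_smul, Matrix.add_mul, Matrix.mul_add, Matrix.one_mul, Matrix.mul_one] at hm
    exact add_left_cancel hm
  refine ⟨fun l hl => ?_, fun k hk => ?_, ?_⟩
  · have := congrFun (congrFun hcomm i) l
    rw [Matrix.single_mul_apply_same, Matrix.mul_single_apply_of_ne _ _ _ _ _ hl] at this
    exact (mul_eq_zero.1 this).resolve_left hs
  · have := congrFun (congrFun hcomm k) j
    rw [Matrix.single_mul_apply_of_ne _ _ _ _ _ hk, Matrix.mul_single_apply_same] at this
    exact (mul_eq_zero.1 this.symm).resolve_right hs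
  · have := congrFun (congrFun hcomm i) j
    rw [Matrix.single_mul_apply_same, Matrix.mul_single_apply_same, mul_comm] at this
    exact mul_right_cancel₀ hs this

end Vale.Agent.P092
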