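import Vale.Agent.P092.MStm

namespace Vale.Agent.P092

open Vale.Agent.P086

namespace MRowAux

theorem one {R : Type} [CommRing R] {n : ℕ} (i : Fin n) : IsRow i (1 : SL n R) :=
  ⟨Matrix.one_apply_eq i, fun _ _ _ => rfl⟩

theorem mul {R : Type} [CommRing R] {n : ℕ} (i : Fin n) (g h : SL n R) (hg : IsRow i g)
    (hh : IsRow i h) : IsRow i (g * h) := by
  refine ⟨?_, fun k l hk => ?_⟩ <;> rw [Matrix.SpecialLinearGroup.coe_mul, Matrix.mul_apply]
  · rw [Finset.sum_eq_single i (fun l _ hl => by
      rw [hh.2 l i hl, Matrix.one_apply_ne hl, mul_zero]) (by simp), hg.1, hh.1, one_mul]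
  · rw [Finset.sum_congr rfl fun m _ => by rw [hg.2 k m hk], ← Matrix.mul_apply, Matrix.one_mul,
      hh.2 k l hk]

theorem tv {R : Type} [CommRing R] {n : ℕ} {i j : Fin n} (h : i ≠ j) (r : R) :
    IsRow i (Matrix.SpecialLinearGroup.transvection h r) := by
  refine ⟨?_, fun k l hk => ?_⟩ <;>
    rw [Matrix.SpecialLinearGroup.transvection_coe, Matrix.add_apply]
  · rw [Matrix.single_apply_of_ne i j r i i fun e => h e.2.symm, add_zero, Matrix.one_apply_eq]
  · rw [Matrix.single_apply_of_ne i j r k l fun e => hk e.1.symm, add_zero]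

end MRowAux

theorem m_row (hr : S_root) : M_row := by
  intro R _ n i
  have h1 : ∀ g ∈ row R i, IsRow i g := fun g hg => by
    refine Subgroup.iSup_induction (C := IsRow i) _ hg (fun j x hx => ?_) (MRowAux.one i)
      (MRowAux.mul i)
    by_cases h : i = j
    · have hb : root R i j ≤ ⊥ := (Subgroup.closure_le _).2 fun x ⟨h', _⟩ => absurd h h'
      rw [Subgroup.mem_bot.1 (hb hx)]
      exact MRowAux.one i
    · obtain ⟨r, rfl⟩ := (hr R n i j h x).1 hx
      exact MRowAux.tv h r
  refine ⟨h1, fun v => ?_⟩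
  have key : ∀ t : Finset (Fin n), ∃ g ∈ row R i,
      ∀ l, l ≠ i → g.1 i l = if l ∈ t then v l else 0 := fun t => by
    induction t using Finset.induction_on with
    | empty => exact ⟨1, one_mem _, fun l hl => by simp [Matrix.one_apply_ne hl.symm]⟩
    | insert a t ha ih =>
      obtain ⟨g, g1, g2⟩ := ih
      by_cases h : i = a
      · exact ⟨g, g1, fun l hl => by simp [g2 l hl, ← h, hl]⟩
      refine ⟨g * Matrix.SpecialLinearGroup.transvection h (v a), mul_mem g1
        (le_iSup (fun j => root R i j) a ((hr R n i a h _).2 ⟨_, rfl⟩)), fun l hl => ?_⟩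
      change (g.1 * Matrix.transvection i a (v a)) i l = _
      by_cases e : l = a
      · rw [e, Matrix.mul_transvection_apply_same, g2 a (Ne.symm h), (h1 g g1).1]
        simp [ha]
      · rw [Matrix.mul_transvection_apply_of_ne _ _ _ _ e, g2 l hl]
        simp [e]
  obtain ⟨g, g1, g2⟩ := key Finset.univ
  exact ⟨g, g1, fun l hl => by simpa using g2 l hl⟩

end Vale.Agent.P092
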