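import Vale.Agent.P092.CMain
import Vale.Agent.P092.MAsm
import Vale.Agent.P092.MAb
import Vale.Agent.P092.MCol
import Vale.Agent.P092.MInt
import Vale.Agent.P092.MMasa
import Vale.Agent.P092.MMcol
import Vale.Agent.P092.MMrow
import Vale.Agent.P092.MPig
import Vale.Agent.P092.MRow

namespace Vale.Agent.P092

theorem ab0 : C_ab := c_ab base (c_comm base)

theorem glk0 : M_glk := m_glk (c_comm base) base (m_masa base)

theorem mab0 : M_ab := m_ab (m_row s_root) (m_col s_root)

theorem int0 : M_int := m_int s_root (m_row s_root) (m_col s_root)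

theorem mrow0 : M_mrow := m_mrow (m_row s_root) (m_pig s_root)

theorem mcol0 : M_mcol := m_mcol (m_col s_root) (m_pig s_root)

end Vale.Agent.P092
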