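import Vale.Agent.P092.Stm

/-! P092: mixing for a general middle element. -/

open Filter Topology

namespace Vale.Agent.P092

open Vale.Agent.P086

namespace MixAux

theorem bnd {G : Type} [Group G] (b2 : B2 G) (a z b : LG G) (γ : G) (ha : ‖a.1‖ ≤ 1)
    (hb : ‖b.1‖ ≤ 1) : ‖cf (a * z * b) γ‖ ≤ n2 z := by
  have h0 : ∀ x : LG G, 0 ≤ n2 x := fun x => norm_nonneg _
  calc ‖cf (a * z * b) γ‖ ≤ n2 (a * z * b) := b2.le _ _
    _ ≤ n2 (a * z) * ‖b.1‖ := b2.right _ _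
    _ ≤ n2 (a * z) := mul_le_of_le_one_right (h0 _) hb
    _ ≤ ‖a.1‖ * n2 z := b2.left _ _
    _ ≤ n2 z := mul_le_of_le_one_left (h0 _) ha

theorem fin {G : Type} [Group G] (b1 : B1 G) (a b : LG G) (c : G → ℂ) (F : Finset G) (γ : G) :
    cf (a * (∑ g ∈ F, c g • u g) * b) γ = ∑ g ∈ F, c g * cf (a * u g * b) γ := by
  rw [Finset.mul_sum, Finset.sum_mul, b1.sum]
  refine Finset.sum_congr rfl fun g _ => ?_
  rw [mul_smul_comm, smul_mul_assoc, b1.smul]

end MixAux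

theorem s_mix (hb : Base) (h1 : S_mix1) : S_mix := by
  intro G _ A a b y γ hab ha hγ
  have b1 := hb.b1 G
  have b2 := hb.b2 G
  refine Metric.tendsto_atTop.2 fun ε hε => ?_
  obtain ⟨F, hF⟩ := (hb.b3 G).app y (ε / 2) (half_pos hε)
  have t : Tendsto (fun n => ∑ g ∈ F, cf y g * cf (a n * u g * b n) γ) atTop
      (𝓝 (∑ g ∈ F, cf y g * 0)) :=
    tendsto_finsetSum F fun g _ =>
      (h1 G A a b g γ (fun n => (hab n).2) ha hγ).const_mul (cf y g)
  simp only [mul_zero, Finset.sum_const_zero] at t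
  obtain ⟨N, hN⟩ := Metric.tendsto_atTop.1 t (ε / 2) (half_pos hε)
  refine ⟨N, fun n hn => ?_⟩
  have k1 := hN n hn
  rw [dist_zero_right] at k1 ⊢
  have e : cf (a n * y * b n) γ = cf (a n * (y - ∑ g ∈ F, cf y g • u g) * b n) γ +
      ∑ g ∈ F, cf y g * cf (a n * u g * b n) γ := by
    rw [← MixAux.fin b1, ← b1.add, ← add_mul, ← mul_add, sub_add_cancel]
  have k2 := (MixAux.bnd b2 (a n) (y - ∑ g ∈ F, cf y g • u g) (b n) γ (hab n).1
    (hab n).2.1).trans hF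
  rw [e]
  exact (norm_add_le _ _).trans_lt (by linarith)

end Vale.Agent.P092
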