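import Vale.Agent.P092.Stm

/-! P092: mixing for a canonical unitary. -/

open Filter Topology

namespace Vale.Agent.P092

open Vale.Agent.P086

namespace Mix1Aux

theorem fin {G : Type} [Group G] (A : Subgroup G) (k γ : G) (h : ¬Inf A γ) :
    {t | t ∈ A ∧ γ * t⁻¹ * k⁻¹ ∈ A}.Finite := by
  rcases Set.eq_empty_or_nonempty {t | t ∈ A ∧ γ * t⁻¹ * k⁻¹ ∈ A} with h0 | ⟨s, hs, hs'⟩
  · rw [h0]
    exact Set.finite_empty
  · have hi : Function.Injective fun t : G => γ * t⁻¹ * s * γ⁻¹ := fun t t' e => by simpa using e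
    refine ((Set.not_infinite.1 h).preimage hi.injOn).subset fun t ht => ⟨?_, ?_⟩
    · have := A.mul_mem ht.2 (A.inv_mem hs')
      have e : γ * t⁻¹ * k⁻¹ * (γ * s⁻¹ * k⁻¹)⁻¹ = γ * t⁻¹ * s * γ⁻¹ := by group
      rwa [e] at this
    · have := A.mul_mem (A.inv_mem ht.1) hs
      have e : γ⁻¹ * (γ * t⁻¹ * s * γ⁻¹) * γ = t⁻¹ * s := by group
      rwa [e]

end Mix1Aux

theorem s_mix1 (hb : Base) : S_mix1 := by
  intro G _ A a b k γ h ha hγ
  have hT := Mix1Aux.fin A k γ hγ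
  have e : ∀ n, cf (a n * u k * b n) γ =
      ∑ t ∈ hT.toFinset, cf (a n) (γ * t⁻¹ * k⁻¹) * cf (b n) t := by
    intro n
    have h1 := (hb.b2 G).conv (a n * u k) (b n) γ
    simp only [(hb.b1 G).right] at h1
    refine h1.unique (hasSum_sum_of_ne_finset_zero fun t ht => ?_)
    by_contra hc
    obtain ⟨c1, c2⟩ := mul_ne_zero_iff.1 hc
    exact ht (hT.mem_toFinset.2 ⟨(h n).2.2 t c2, (h n).2.1 _ c1⟩)
  simp only [e]
  have z : (0 : ℂ) = ∑ _t ∈ hT.toFinset, 0 := by simp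
  rw [z]
  refine tendsto_finset_sum _ fun t _ => ?_
  refine squeeze_zero_norm (fun n => ?_) (tendsto_zero_iff_norm_tendsto_zero.1 (ha (γ * t⁻¹ * k⁻¹)))
  rw [norm_mul]
  exact mul_le_of_le_one_right (norm_nonneg _)
    (((hb.b2 G).le _ _).trans (((hb.b2 G).op _).trans (h n).1))

end Vale.Agent.P092
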