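import Vale.Agent.P092.Stm

/-! P092: the order of the group von Neumann algebra. -/

open Filter Topology

namespace Vale.Agent.P092

open Vale.Agent.P086

namespace OrdAux

theorem root {E : Type} [NormedAddCommGroup E] [InnerProductSpace ℂ E] [CompleteSpace E]
    {d : E →L[ℂ] E} (hd : 0 ≤ d) :
    ∃ z : E →L[ℂ] E, d = star z * z ∧ ∀ b, b * d = d * b → b * z = z * b := by
  refine ⟨CFC.sqrt d, ?_, fun b hb => ?_⟩
  · rw [(IsSelfAdjoint.of_nonneg (CFC.sqrt_nonneg d)).star_eq, CFC.sqrt_mul_sqrt_self d hd]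
  · exact (Commute.cfcₙ_nnreal (show Commute d b from hb.symm) _).symm

theorem contr {E : Type} [NormedAddCommGroup E] [InnerProductSpace ℂ E] [CompleteSpace E]
    {x : E →L[ℂ] E} (hx : ‖x‖ ≤ 1) : star x * x ≤ 1 := by
  rw [← CStarAlgebra.norm_le_one_iff_of_nonneg _ (star_mul_self_nonneg x),
    CStarRing.norm_star_mul_self]
  exact mul_le_one₀ hx (norm_nonneg _) hx

theorem pos {E : Type} [NormedAddCommGroup E] [InnerProductSpace ℂ E] [CompleteSpace E]
    {x y z : E →L[ℂ] E} (h : y - x = star z * z) : x ≤ y := by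
  rw [← sub_nonneg, h]
  exact star_mul_self_nonneg z

theorem le_iff {G : Type} [Group G] (x y : LG G) :
    x.1 ≤ y.1 ↔ ∃ z : LG G, y - x = star z * z := by
  constructor
  · intro h
    obtain ⟨z, h1, h2⟩ := root (sub_nonneg.2 h)
    exact ⟨⟨z, mem_groupVN.2 (mem_vN.2 fun g => h2 _ (mem_vN.1 (mem (y - x)) g))⟩, Subtype.ext h1⟩
  · rintro ⟨z, hz⟩
    exact pos (congrArg Subtype.val hz)

end OrdAux

theorem s_ord (hb : Base) : S_ord := by
  intro G _
  have key : ∀ x y z : LG G, y - x = star z * z → (cf y 1).re - (cf x 1).re = n2 z ^ 2 := by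
    intro x y z h
    rw [← Complex.sub_re, ← (hb.b1 G).sub, h, (hb.b2 G).sq, Complex.ofReal_re]
  refine ⟨OrdAux.le_iff, fun x y h => ?_, fun x h0 h1 => ?_, fun x h => OrdAux.contr h,
    fun K _ ψ x y h => ?_⟩
  · obtain ⟨z, hz⟩ := (OrdAux.le_iff x y).1 h
    linarith [key x y z hz, sq_nonneg (n2 z)]
  · obtain ⟨z, hz⟩ := (OrdAux.le_iff 0 x).1 h0
    have h2 := key 0 x z hz
    rw [(hb.b1 G).zero, Complex.zero_re, sub_zero] at h2
    have h3 : n2 z = 0 := pow_eq_zero_iff two_ne_zero |>.1 (le_antisymm (h2 ▸ h1) (sq_nonneg _))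
    have h4 : z = 0 := (hb.b1 G).ext _ _ fun g => by
      rw [(hb.b1 G).zero]
      exact norm_le_zero_iff.1 (h3 ▸ (hb.b2 G).le z g)
    rwa [h4, mul_zero, sub_zero] at hz
  · obtain ⟨z, hz⟩ := (OrdAux.le_iff x y).1 h
    exact (OrdAux.le_iff _ _).2 ⟨ψ z, by
      rw [← map_sub, hz, map_mul]
      exact congrArg (· * ψ z) (ψ.map_star' z)⟩

end Vale.Agent.P092
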