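import Vale.Agent.P092.Stm

open Filter Topology

namespace Vale.Agent.P092

open Vale.Agent.P086

theorem s_pair (hb : Base) (hk : S_ker) (hd : S_dich) (hc : S_conv) : S_pair := by
  intro G K _ _ φ A B S T hφ htri hA hB b hbB
  obtain ⟨a, haA, ha1⟩ := htri.ne
  obtain ⟨hsymm, hconj, hex, -, -⟩ := hk G K φ hφ
  obtain ⟨σ, hσ⟩ := hex a
  obtain ⟨l, hl⟩ := hex b
  have hσS : σ ∈ S := hA.2 a haA σ hσ
  have hlT : l ∈ T := hB.2 b hbB l hl
  have hxB : Sup (φ.symm (u l)) B := hB.1 l hlT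
  have hyA : Sup (φ.symm (u σ)) A := hA.1 σ hσS
  have hxb : cf (φ.symm (u l)) b ≠ 0 := by
    rw [hconj]; exact (map_ne_zero _).mpr hl
  have hya : cf (φ.symm (u σ)) a ≠ 0 := by
    rw [hconj]; exact (map_ne_zero _).mpr hσ
  have hρ : φ.symm (u (l * σ * l⁻¹)) =
      φ.symm (u l) * φ.symm (u σ) * star (φ.symm (u l)) := by
    have hs : φ.symm (star (u l)) = star (φ.symm (u l)) := φ.symm.map_star' (u l)
    rw [(hb.b1 K).mul, (hb.b1 K).mul, ← (hb.b1 K).inv, map_mul, map_mul, hs]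
  have hcoef : ∀ c ∈ B, cf (φ.symm (u (l * σ * l⁻¹))) (b * a * c⁻¹) =
      cf (φ.symm (u l)) b * cf (φ.symm (u σ)) a * (starRingEnd ℂ) (cf (φ.symm (u l)) c) := by
    intro c hcB
    rw [hρ]
    exact hc G A B _ _ htri hxB hyA a haA ha1 b hbB c hcB
  have hinf : Inf S (l * σ * l⁻¹) := by
    by_contra hn
    have h0 := hd K G φ.symm S A hsymm
      (fun g hg => by rw [StarAlgEquiv.symm_symm]; exact hA.2 g hg)
      (b * a * b⁻¹) (l * σ * l⁻¹) (htri.inf a haA b hbB) hn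
    rw [StarAlgEquiv.symm_symm] at h0
    have h1 := hcoef b hbB
    rw [hconj, h0, map_zero] at h1
    exact mul_ne_zero (mul_ne_zero hxb hya) ((map_ne_zero _).mpr hxb) h1.symm
  have hoff : ∀ c, c ≠ b → cf (φ.symm (u l)) c = 0 := by
    intro c hcb
    by_contra hne
    have hcB : c ∈ B := hxB c hne
    have h0 := hd G K φ A S hφ hA.1 (l * σ * l⁻¹) (b * a * c⁻¹) hinf
      (htri.fin a haA b hbB c hcB (Ne.symm hcb))
    rw [hcoef c hcB] at h0
    exact mul_ne_zero (mul_ne_zero hxb hya) ((map_ne_zero _).mpr hne) h0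
  have hx : φ.symm (u l) = cf (φ.symm (u l)) b • u b := by
    apply (hb.b1 G).ext
    intro g
    rw [(hb.b1 G).smul]
    by_cases hg : g = b
    · rw [hg, (hb.b1 G).self, mul_one]
    · rw [(hb.b1 G).ne b g hg, mul_zero, hoff g hg]
  refine ⟨(cf (φ.symm (u l)) b)⁻¹, l, ?_⟩
  have h2 : u l = cf (φ.symm (u l)) b • φ (u b) := by
    rw [← map_smul, ← hx, StarAlgEquiv.apply_symm_apply]
  generalize cf (φ.symm (u l)) b = t at h2 hxb
  rw [h2, smul_smul, inv_mul_cancel₀ hxb, one_smul]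

end Vale.Agent.P092
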