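import Vale.Agent.P092.Stm

open Filter Topology

namespace Vale.Agent.P092

open Vale.Agent.P086

namespace SubCanAux

theorem uniq {K : Type} [Group K] (b : B1 K) {c c' : ℂ} {k k' : K} (hc : c ≠ 0)
    (h : c • u k = c' • u k') : k = k' ∧ c = c' := by
  have e := congrArg (fun x => cf x k) h
  simp only [b.smul, b.self, mul_one] at e
  by_cases q : k = k'
  · subst q
    rw [b.self, mul_one] at e
    exact ⟨rfl, e⟩
  · rw [b.ne k' k q, mul_zero] at e
    exact absurd e hc

end SubCanAux

theorem s_sub (hb : Base) : S_sub := by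
  intro G K _ _ φ
  have bG := hb.b1 G
  have bK := hb.b1 K
  refine ⟨{ carrier := {g | Mono φ g}, mul_mem' := ?_, one_mem' := ?_, inv_mem' := ?_ },
    fun g => Iff.rfl⟩
  · rintro g h ⟨c, k, e⟩ ⟨c', k', e'⟩
    refine ⟨c * c', k * k', ?_⟩
    rw [bG.mul, map_mul, e, e', bK.mul, smul_mul_smul_comm]
  · refine ⟨1, 1, ?_⟩
    rw [bG.one, map_one, bK.one, one_smul]
  · rintro g ⟨c, k, e⟩
    refine ⟨star c, k⁻¹, ?_⟩
    have st : φ (star (u g)) = star (φ (u g)) := φ.map_star' (u g)
    rw [← bG.inv, st, e, star_smul, bK.inv]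

theorem s_can (hb : Base) (hk : S_ker) : S_can := by
  intro G K _ _ φ hT hM
  have bG := hb.b1 G
  have bK := hb.b1 K
  obtain ⟨-, -, -, k4, k5⟩ := hk G K φ hT
  choose c d h using hM
  have n1 : ∀ g, ‖c g‖ = 1 := fun g => k5 g (d g) (c g) (h g)
  have n0 : ∀ g, c g ≠ 0 := fun g q => by
    have := n1 g
    rw [q, norm_zero] at this
    exact zero_ne_one this
  have hm : ∀ g g', d (g * g') = d g * d g' ∧ c (g * g') = c g * c g' := fun g g' => by
    refine SubCanAux.uniq bK (n0 _) ?_
    rw [← h, bG.mul, map_mul, h, h, bK.mul, smul_mul_smul_comm]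
  let D : G →* K := MonoidHom.mk' d fun g g' => (hm g g').1
  have hi : Function.Injective D := by
    refine (injective_iff_map_eq_one D).2 fun g q => ?_
    have q' : d g = 1 := q
    have e : φ (u g) = φ (c g • u 1) := by
      rw [h, q', map_smul, bG.one, bK.one, map_one]
    have e' : (1 : ℂ) • u g = c g • u 1 := by
      rw [one_smul]
      exact φ.injective e
    exact (SubCanAux.uniq bG one_ne_zero e').1
  have hs : Function.Surjective D := fun k => by
    obtain ⟨g, q⟩ := k4 k
    refine ⟨g, ?_⟩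
    by_contra z
    apply q
    rw [h, bK.smul, bK.ne (d g) k fun y => z y.symm, mul_zero]
  let χ : G →* Circle := MonoidHom.mk'
    (fun g => ⟨c g, mem_sphere_zero_iff_norm.2 (n1 g)⟩) fun g g' => Circle.ext (hm g g').2
  exact ⟨MulEquiv.ofBijective D ⟨hi, hs⟩, χ, fun g => h g⟩

end Vale.Agent.P092
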