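import Vale.Agent.P092.Stm

/-! P092: every isomorphism preserves the trace. -/

open Filter Topology

namespace Vale.Agent.P092

open Vale.Agent.P086

namespace TrAux

variable {G K : Type} [Group G] [Group K]

theorem cf_conj (hb : B1 K) (a b y : LG K) (h : b * a = 1) : cf (a * y * b) 1 = cf y 1 := by
  rw [hb.comm, ← mul_assoc, h, one_mul]

theorem cf_one (hb : B1 G) : cf (1 : LG G) 1 = 1 := by
  rw [← hb.one]
  exact hb.self 1

theorem step (hb : Base) (hc : S_cont) (ha : S_avg) (ψ : LG G ≃⋆ₐ[ℂ] LG K) (hG : ICC G)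
    (x : LG G) (h1 : ‖x.1‖ ≤ 1) (h0 : cf x 1 = 0) : cf (ψ x) 1 = 0 := by
  have bG := hb.b1 G
  have bK := hb.b1 K
  refine norm_le_zero_iff.1 (le_of_forall_pos_le_add fun ε hε => ?_)
  obtain ⟨δ, hδ, hd⟩ := hc G K ψ ε hε
  refine (ha G hG
    {ξ | ∃ y : LG G, ‖y.1‖ ≤ 1 ∧ cf (ψ y) 1 = cf (ψ x) 1 ∧ cf y 1 = 0 ∧ ξ = y.1 (dl 1)} ?_
    ⟨_, x, h1, rfl, h0, rfl⟩ ?_ ?_ δ hδ).elim ?_
  · rintro _ ⟨y, y1, y2, y3, rfl⟩ _ ⟨z, z1, z2, z3, rfl⟩ a b a0 b0 hab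
    refine ⟨(a : ℂ) • y + (b : ℂ) • z, ?_, ?_, ?_, ?_⟩
    · change ‖(a : ℂ) • y.1 + (b : ℂ) • z.1‖ ≤ 1
      refine (norm_add_le _ _).trans ?_
      rw [norm_smul, norm_smul, Complex.norm_real, Complex.norm_real, Real.norm_of_nonneg a0,
        Real.norm_of_nonneg b0]
      nlinarith [mul_le_mul_of_nonneg_left y1 a0, mul_le_mul_of_nonneg_left z1 b0]
    · rw [map_add, map_smul, map_smul, bK.add, bK.smul, bK.smul, y2, z2, ← add_mul,
        ← Complex.ofReal_add, hab, Complex.ofReal_one, one_mul]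
    · rw [bG.add, bG.smul, bG.smul, y3, z3, mul_zero, mul_zero, add_zero]
    · change _ = (a : ℂ) • y.1 (dl 1) + (b : ℂ) • z.1 (dl 1)
      rw [Complex.coe_smul, Complex.coe_smul]
      rfl
  · rintro g _ ⟨y, y1, y2, y3, rfl⟩
    have e : u g⁻¹ * u g = 1 := by rw [← bG.mul, inv_mul_cancel, bG.one]
    refine ⟨u g * y * u g⁻¹, ?_, ?_, ?_, ?_⟩
    · change ‖lam g * y.1 * lam g⁻¹‖ ≤ 1
      refine (norm_mul_le _ _).trans (mul_le_one₀ ((norm_mul_le _ _).trans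
        (mul_le_one₀ (norm_lam_le g) (norm_nonneg _) y1)) (norm_nonneg _) (norm_lam_le _))
    · rw [map_mul, map_mul, cf_conj bK _ _ _ (by rw [← map_mul, e, map_one]), y2]
    · rw [cf_conj bG _ _ _ e, y3]
    · change _ = lam g (y.1 (lam g⁻¹ (dl 1)))
      rw [lam_dl, mul_one, vN_apply_dl (mem y) g⁻¹, inv_inv]
  · rintro _ ⟨y, -, -, y3, rfl⟩
    exact y3
  · rintro _ ⟨⟨y, y1, y2, -, rfl⟩, hy⟩
    rw [zero_add, ← y2]
    exact ((hb.b2 K).le _ 1).trans (hd y y1 hy)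

end TrAux

open TrAux

theorem s_tr (hb : Base) (hc : S_cont) (ha : S_avg) : S_tr := by
  intro G K _ _ ψ hG x
  have bG := hb.b1 G
  have bK := hb.b1 K
  obtain ⟨y, hy⟩ : ∃ y : LG G, y = x - cf x 1 • (1 : LG G) := ⟨_, rfl⟩
  have p : 0 < ‖y.1‖ + 1 := by positivity
  have h := step hb hc ha ψ hG ((((‖y.1‖ + 1)⁻¹ : ℝ) : ℂ) • y) (by
    change ‖(((‖y.1‖ + 1)⁻¹ : ℝ) : ℂ) • y.1‖ ≤ 1
    rw [norm_smul, Complex.norm_real, Real.norm_of_nonneg (inv_pos.2 p).le, inv_mul_le_one₀ p]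
    linarith) (by rw [bG.smul, hy, bG.sub, bG.smul, cf_one bG, mul_one, sub_self, mul_zero])
  rw [map_smul, bK.smul, mul_eq_zero] at h
  rcases h with h | h
  · exact absurd (Complex.ofReal_eq_zero.1 h) (inv_pos.2 p).ne'
  · rwa [hy, map_sub, map_smul, map_one, bK.sub, bK.smul, cf_one bK, mul_one, sub_eq_zero] at h

end Vale.Agent.P092
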