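import Vale.Agent.P092.Stm

/-! P092: Heisenberg pairs. -/

open Filter Topology

namespace Vale.Agent.P092

open Vale.Agent.P086

namespace TriAux

theorem conj_eq {G : Type} [Group G] {x a : G} (h : x * a = a * x) : x⁻¹ * a * x = a := by
  rw [mul_assoc, ← h, inv_mul_cancel_left]

end TriAux

theorem s_tri : S_tri := by
  intro G _ A B ⟨hA, hab, Z, hc, hz, h1, h2⟩
  have key : ∀ a ∈ A, ∀ b ∈ B, ∃ z ∈ Z, b * a = z * (a * b) := fun a ha b hb =>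
    ⟨(a * b * a⁻¹ * b⁻¹)⁻¹, Z.inv_mem (hz a ha b hb), by group⟩
  have cm : ∀ z ∈ Z, ∀ a ∈ A, ∀ a' ∈ A, z * a * a' = a' * (z * a) := fun z hz' a ha a' ha' => by
    rw [mul_assoc, hab a ha a' ha', ← mul_assoc, hc z hz' a' (Subgroup.mem_sup_left ha'),
      mul_assoc]
  refine ⟨?_, fun g ha hb => ?_, fun a ha ha1 a' ha' b hb b' hb' c hc1 c' hc' he => ?_,
    fun a ha b hb => ?_, fun a ha b hb c hc1 hbc hI => ?_⟩
  · obtain ⟨a, ha, ha1⟩ := hA.exists_notMem_finite (Set.finite_singleton 1)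
    exact ⟨a, ha, ha1⟩
  · exact (h1 g ha g⁻¹ (B.inv_mem hb) (by rw [mul_inv_cancel]; exact Z.one_mem)).1
  · have m1 : b'⁻¹ * b ∈ B := B.mul_mem (B.inv_mem hb') hb
    have m2 : c * c'⁻¹ ∈ B := B.mul_mem hc1 (B.inv_mem hc')
    have e1 : b'⁻¹ * b * a * (c * c'⁻¹) = a' := by
      calc b'⁻¹ * b * a * (c * c'⁻¹) = b'⁻¹ * (b * a * c) * c'⁻¹ := by group
        _ = a' := by rw [he]; group
    generalize b'⁻¹ * b = b1 at m1 e1
    obtain ⟨z, hz1, hz2⟩ := key a ha b1 m1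
    have e2 : a'⁻¹ * a * (b1 * (c * c'⁻¹)) = z⁻¹ := by
      have e3 := hc z⁻¹ (Z.inv_mem hz1) a' (Subgroup.mem_sup_left ha')
      rw [hz2] at e1
      calc a'⁻¹ * a * (b1 * (c * c'⁻¹)) = a'⁻¹ * (z⁻¹ * (z * (a * b1) * (c * c'⁻¹))) := by group
        _ = z⁻¹ := by rw [e1, e3, inv_mul_cancel_left]
    obtain ⟨e4, e5⟩ := h1 _ (A.mul_mem (A.inv_mem ha') ha) _ (B.mul_mem m1 m2)
      (e2 ▸ Z.inv_mem hz1)
    have e6 : a' = a := inv_mul_eq_one.mp e4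
    have e7 : a * b1 = b1 * a := by
      calc a * b1 = b1 * a * (c * c'⁻¹) * b1 := by rw [e1, e6]
        _ = b1 * a := by rw [mul_assoc (b1 * a), mul_eq_one_comm.mp e5, mul_one]
    rcases h2 a ha b1 m1 e7 with h | h
    · exact absurd h ha1
    · rw [h, one_mul] at e5
      exact mul_inv_eq_one.mp e5
  · obtain ⟨z, hz1, hz2⟩ := key a ha b hb
    have e1 : b * a * b⁻¹ = z * a := by rw [hz2]; group
    refine hA.mono fun a' ha' => ⟨ha', ?_⟩
    rw [e1, TriAux.conj_eq (cm z hz1 a ha a' ha')]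
    exact ha'
  · refine hI ((Set.finite_singleton 1).subset fun a' ⟨ha', hm⟩ => ?_)
    obtain ⟨z, hz1, hz2⟩ := key a ha b hb
    have m1 : (b * c⁻¹)⁻¹ ∈ B := B.inv_mem (B.mul_mem hb (B.inv_mem hc1))
    obtain ⟨z', hz3, hz4⟩ := key a' ha' _ m1
    have e1 : (b * a * c⁻¹)⁻¹ * a' * (b * a * c⁻¹) = z' * a' := by
      calc (b * a * c⁻¹)⁻¹ * a' * (b * a * c⁻¹)
          = (b * c⁻¹)⁻¹ * ((z * a)⁻¹ * a' * (z * a)) * (b * c⁻¹) := by rw [hz2]; group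
        _ = z' * a' := by rw [TriAux.conj_eq (cm z hz1 a ha a' ha'), hz4]; group
    rw [e1] at hm
    have e2 : z' = 1 := (h1 z' ((A.mul_mem_cancel_right ha').mp hm) 1 B.one_mem
      (by rw [mul_one]; exact hz3)).1
    rw [e2, one_mul] at hz4
    rcases h2 a' ha' _ m1 hz4.symm with h | h
    · exact h
    · exact absurd (mul_inv_eq_one.mp (inv_eq_one.mp h)) hbc

end Vale.Agent.P092
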