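import Vale.Agent.P092.Stm

open Filter Topology

namespace Vale.Agent.P092

open Vale.Agent.P086

namespace UnitAux

open Matrix.SpecialLinearGroup

variable {R : Type} [CommRing R] {n : ℕ}

theorem tv_mem {s : Finset (Fin n)} {i j : Fin n} (hi : i ∈ s) (hj : j ∈ s) (h : i ≠ j) (r : R) :
    transvection h r ∈ EE R s := by
  have h1 : root R i j ≤ EE R s :=
    le_iSup_of_le i (le_iSup_of_le hi (le_iSup_of_le j (le_iSup_of_le hj le_rfl)))
  exact h1 (Subgroup.subset_closure ⟨h, r, rfl⟩)

theorem l_same {i j : Fin n} (h : i ≠ j) (r : R) (g : SL n R) (b : Fin n) :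
    (transvection h r * g).1 i b = g.1 i b + r * g.1 j b :=
  Matrix.transvection_mul_apply_same i j b r g.1

theorem l_ne {i j : Fin n} (h : i ≠ j) (r : R) (g : SL n R) (a b : Fin n) (ha : a ≠ i) :
    (transvection h r * g).1 a b = g.1 a b :=
  Matrix.transvection_mul_apply_of_ne i j a b ha r g.1

theorem r_same {i j : Fin n} (h : i ≠ j) (r : R) (g : SL n R) (a : Fin n) :
    (g * transvection h r).1 a j = g.1 a j + r * g.1 a i :=
  Matrix.mul_transvection_apply_same i j a r g.1

theorem r_ne {i j : Fin n} (h : i ≠ j) (r : R) (g : SL n R) (a b : Fin n) (hb : b ≠ j) :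
    (g * transvection h r).1 a b = g.1 a b :=
  Matrix.mul_transvection_apply_of_ne i j a b hb r g.1

theorem row_aux (s : Finset (Fin n)) (i : Fin n) (hi : i ∈ s) (g : SL n R)
    (hc : ∀ l, g.1 l i = (1 : Matrix (Fin n) (Fin n) R) l i) (t : Finset (Fin n)) :
    t ⊆ s.erase i → ∃ e ∈ EE R s, ∀ a b,
      (g * e).1 a b = if a = i ∧ b ∈ t then 0 else g.1 a b := by
  induction t using Finset.induction_on with
  | empty => exact fun _ => ⟨1, one_mem _, fun a b => by simp⟩
  | insert l t hl ih =>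
    intro h
    obtain ⟨e, he, h1⟩ := ih ((Finset.subset_insert _ _).trans h)
    have hl2 := Finset.mem_erase.1 (h (Finset.mem_insert_self _ _))
    have hit : i ∉ t := fun k =>
      (Finset.mem_erase.1 (h (Finset.mem_insert_of_mem k))).1 rfl
    refine ⟨e * transvection hl2.1.symm (-(g.1 i l)), mul_mem he (tv_mem hi hl2.2 _ _),
      fun a b => ?_⟩
    rw [← mul_assoc]
    by_cases hb : b = l
    · subst hb
      rw [r_same, h1, h1, hc]
      by_cases ha : a = i
      · subst ha
        simp [hl, hit]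
      · simp [ha, Matrix.one_apply_ne ha]
    · rw [r_ne _ _ _ _ _ hb, h1]
      simp [hb]

end UnitAux

open UnitAux Matrix.SpecialLinearGroup

theorem s_unit : S_unit := by
  intro R _ n s i j hi hj h g hg
  have h1 : (g⁻¹).1 i i * g.1 i i = 1 := by
    have h2 : (g⁻¹ * g).1 i i = 1 := by rw [inv_mul_cancel]; simp
    rw [Matrix.SpecialLinearGroup.coe_mul, Matrix.mul_apply,
      Finset.sum_eq_single i (fun l _ hl => by rw [hg l hl, mul_zero]) (by simp)] at h2
    exact h2
  generalize (g⁻¹).1 i i = b at h1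
  refine ⟨transvection h.symm (-1) * (transvection h (1 - g.1 i i) * transvection h.symm b),
    mul_mem (tv_mem hj hi _ _) (mul_mem (tv_mem hi hj _ _) (tv_mem hj hi _ _)), fun l => ?_⟩
  rw [mul_assoc, mul_assoc]
  have hj0 := hg j h.symm
  by_cases hlj : l = j
  · subst hlj
    rw [l_same, l_same, l_ne _ _ _ _ _ h.symm, l_ne _ _ _ _ _ h, l_same, hj0,
      Matrix.one_apply_ne h.symm, h1]
    ring
  · rw [l_ne _ _ _ _ _ hlj]
    by_cases hli : l = i
    · subst hli
      rw [l_same, l_ne _ _ _ _ _ h, l_same, hj0, h1, Matrix.one_apply_eq]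
      ring
    · rw [l_ne _ _ _ _ _ hli, l_ne _ _ _ _ _ hlj, hg l hli, Matrix.one_apply_ne hli]

theorem s_row : S_row := by
  intro R _ n s i hi g hg hc
  obtain ⟨e, he, h⟩ := row_aux s i hi g hc (s.erase i) subset_rfl
  refine ⟨e, he, fun a b hab => ?_⟩
  rw [h]
  split_ifs with k
  · rw [k.1, Matrix.one_apply_ne (Finset.mem_erase.1 k.2).1.symm]
  · by_cases hb : b = i
    · rw [hb, hc]
    · by_cases ha : a = i
      · exact hg a b (Or.inr fun q => k ⟨ha, Finset.mem_erase.2 ⟨hb, q⟩⟩)
      · refine hg a b (hab.imp (fun q r => q ?_) fun q r => q ?_)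
        · exact Finset.mem_erase.2 ⟨ha, r⟩
        · exact Finset.mem_erase.2 ⟨hb, r⟩

end Vale.Agent.P092
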