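import Vale.Agent.P092.Stm

open Filter Topology

namespace Vale.Agent.P092

open Vale.Agent.P086

namespace VigAux

variable {H : Type} [NormedAddCommGroup H] [InnerProductSpace ℂ H] [CompleteSpace H]

theorem pos {D : H →L[ℂ] H} (h : 0 ≤ D) (ξ : H) : 0 ≤ (inner ℂ ξ (D ξ)).re :=
  ((ContinuousLinearMap.nonneg_iff_isPositive D).1 h).re_inner_nonneg_right ξ

theorem sq_le {D : H →L[ℂ] H} (h0 : 0 ≤ D) (h1 : D ≤ 1) (ξ : H) :
    ‖D ξ‖ ^ 2 ≤ (inner ℂ ξ (D ξ)).re := by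
  have c : Commute D (1 - D) := (Commute.one_right D).sub_right (Commute.refl D)
  have a := pos (c.mul_nonneg h0 (sub_nonneg.2 h1)) ξ
  have s := ((ContinuousLinearMap.nonneg_iff_isPositive D).1 h0).isSymmetric ξ (D ξ)
  have e : (D * (1 - D)) ξ = D ξ - D (D ξ) := by simp
  have e2 : (inner ℂ ξ (D (D ξ))).re = ‖D ξ‖ ^ 2 :=
    (congrArg Complex.re s).symm.trans (inner_self_eq_norm_sq (𝕜 := ℂ) (D ξ))
  rw [e, inner_sub_right, Complex.sub_re, e2] at a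
  linarith

theorem mono (T : ℕ → H →L[ℂ] H) (h : ∀ n, 0 ≤ T n ∧ T n ≤ 1) (hm : Monotone T) :
    ∃ k : H →L[ℂ] H, ∀ ξ, Tendsto (fun n => T n ξ) atTop (𝓝 (k ξ)) := by
  have c : ∀ ξ, CauchySeq fun n => T n ξ := fun ξ => by
    have d : ∀ {A B : H →L[ℂ] H}, (inner ℂ ξ ((A - B) ξ)).re =
        (inner ℂ ξ (A ξ)).re - (inner ℂ ξ (B ξ)).re := by
      intro A B
      rw [ContinuousLinearMap.sub_apply, inner_sub_right, Complex.sub_re]
    have m : Monotone fun n => (inner ℂ ξ (T n ξ)).re := fun a b e =>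
      sub_nonneg.1 (d ▸ pos (sub_nonneg.2 (hm e)) ξ)
    have b : BddAbove (Set.range fun n => (inner ℂ ξ (T n ξ)).re) :=
      ⟨(inner ℂ ξ ((1 : H →L[ℂ] H) ξ)).re, by
        rintro _ ⟨n, rfl⟩
        exact sub_nonneg.1 (d ▸ pos (sub_nonneg.2 (h n).2) ξ)⟩
    refine Metric.cauchySeq_iff'.2 fun ε hε => ?_
    obtain ⟨N, hN⟩ := Metric.cauchySeq_iff'.1 (tendsto_atTop_ciSup m b).cauchySeq (ε ^ 2)
      (by positivity)
    refine ⟨N, fun n hn => lt_of_pow_lt_pow_left₀ 2 hε.le ?_⟩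
    have k := sq_le (sub_nonneg.2 (hm hn)) ((sub_le_self _ (h N).1).trans (h n).2) ξ
    rw [d] at k
    rw [dist_eq_norm]
    exact k.trans_lt ((le_abs_self _).trans_lt (hN n hn))
  choose f hf using fun ξ => cauchySeq_tendsto_of_complete (c ξ)
  exact ⟨continuousLinearMapOfTendsto T (tendsto_pi_nhds.2 hf), hf⟩

end VigAux

theorem s_vig : S_vig := by
  intro G _ T h hm
  rcases hm with hm | hm
  · exact VigAux.mono T h hm
  obtain ⟨k, hk⟩ := VigAux.mono (fun n => 1 - T n)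
    (fun n => ⟨sub_nonneg.2 (h n).2, sub_le_self _ (h n).1⟩) fun a b e => sub_le_sub_left (hm e) 1
  refine ⟨1 - k, fun ξ => ?_⟩
  simpa using (hk ξ).const_sub ξ

end Vale.Agent.P092
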