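import Vale.Agent.P092.Asm
import Vale.Agent.P092.Web
import Vale.Agent.P092.Avg
import Vale.Agent.P092.B1
import Vale.Agent.P092.B2
import Vale.Agent.P092.B3
import Vale.Agent.P092.Col
import Vale.Agent.P092.Conj
import Vale.Agent.P092.Cont
import Vale.Agent.P092.Conv
import Vale.Agent.P092.Cyc
import Vale.Agent.P092.Dec
import Vale.Agent.P092.Dich
import Vale.Agent.P092.Env
import Vale.Agent.P092.Euc
import Vale.Agent.P092.Fin
import Vale.Agent.P092.Fun
import Vale.Agent.P092.Gen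
import Vale.Agent.P092.Heis
import Vale.Agent.P092.Icc
import Vale.Agent.P092.Ker
import Vale.Agent.P092.Lim
import Vale.Agent.P092.Mix
import Vale.Agent.P092.Mix1
import Vale.Agent.P092.Ord
import Vale.Agent.P092.Pair
import Vale.Agent.P092.SubCan
import Vale.Agent.P092.Tr
import Vale.Agent.P092.Tri
import Vale.Agent.P092.Unit
import Vale.Agent.P092.Vig

namespace Vale.Agent.P092

open Vale.Agent.P086

theorem base : Base := ⟨s_b1, s_b2 s_b1, s_b3⟩

theorem ker0 : S_ker := s_ker base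

theorem tr0 : S_tr :=
  s_tr base (s_cont base (s_ord base) (s_dec base s_vig s_lim (s_ord base))
    (s_env base s_fun s_vig s_lim (s_ord base))) s_avg

theorem pair0 : S_pair :=
  s_pair base ker0 (s_dich base ker0 (s_mix base (s_mix1 base))) (s_conv base)

theorem fin0 : S_fin := s_fin base ker0 s_icc

theorem can0 : S_can := s_can base ker0

theorem gen0 : S_gen := s_gen (s_col s_euc) (s_idn s_root) s_unit s_row

theorem goalA : GoalA := goalA_of ker0 tr0 s_tri pair0 (s_sub base) fin0 can0 (s_conj base)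

theorem goalB : GoalB :=
  goalB_of ker0 tr0 s_tri pair0 (s_sub base) can0 (s_conj base) s_heis (s_cyc s_root) gen0

theorem goalC (G K : Type) [Group G] [Group K] (hG : ICC G) (hK : ICC K)
    (θ : LG G ≃⋆ₐ[ℂ] LG K) (w : LG K) (hw : w ∈ unitary (LG K))
    (ι : Type) (a b : ι → G) (A B C : ι → Subgroup G)
    (hfi : (Subgroup.closure (Set.range a ∪ Set.range b)).FiniteIndex)
    (h : ∀ i, a i ∈ A i ∧ b i ∈ B i ∧ a i * b i ∈ C i ∧
      A i ⊓ B i = ⊥ ∧ A i ⊓ C i = ⊥ ∧ B i ⊓ C i = ⊥ ∧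
      GroupLike θ w (A i) ∧ GroupLike θ w (B i) ∧ GroupLike θ w (C i)) : Canonical θ w := by
  obtain ⟨φ, hgl, hcan⟩ := s_conj base G K θ w hw
  have tp := tp_of ker0 tr0 hK φ
  obtain ⟨H, hH⟩ := s_sub base G K φ
  have hm : ∀ i, Mono φ (a i) ∧ Mono φ (b i) := fun i => by
    obtain ⟨h1, h2, h3, h4, h5, h6, h7, h8, h9⟩ := h i
    obtain ⟨S, hS⟩ := hgl _ h7
    obtain ⟨T, hT⟩ := hgl _ h8
    obtain ⟨W, hW⟩ := hgl _ h9
    exact web base ker0 tp hS hT hW h4 h5 h6 h1 h2 h3
  have hle : Subgroup.closure (Set.range a ∪ Set.range b) ≤ H := by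
    rw [Subgroup.closure_le]
    rintro g (⟨i, rfl⟩ | ⟨i, rfl⟩)
    · exact (hH _).2 (hm i).1
    · exact (hH _).2 (hm i).2
  exact hcan (can0 G K φ tp (fin0 G K φ _ hG tp hfi fun g hg => (hH g).1 (hle hg)))

end Vale.Agent.P092
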