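import Mathlib

/-! P092: steps of the lemma of Selberg. -/

namespace Vale.Agent.P092

def L_fld : Prop := ∀ (B : Type) [CommRing B] [Nontrivial B], Algebra.FiniteType ℤ B →
  ∃ (F : Type) (_ : Field F), Finite F ∧ Nonempty (B →+* F)

def L_two : Prop := ∀ (A : Type) [CommRing A] [IsDomain A] [CharZero A], Algebra.FiniteType ℤ A →
  ∃ (F : Type) (_ : Field F) (F' : Type) (_ : Field F'), Finite F ∧ Finite F' ∧
    Nonempty (A →+* F) ∧ Nonempty (A →+* F') ∧ ∀ l : ℕ, l.Prime → (l : F) ≠ 0 ∨ (l : F') ≠ 0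

def L_mat : Prop := ∀ (A : Type) [CommRing A] [IsDomain A] (F : Type) [Field F] (f : A →+* F)
  (n : ℕ) (M : Matrix (Fin n) (Fin n) A) (l : ℕ), M ^ l = 1 → M.map f = 1 → (l : F) ≠ 0 → M = 1

def L_ring : Prop := ∀ (k : Type) [Field k] (n : ℕ) (G : Type) [Group G], Group.FG G →
  ∀ ρ : G →* Matrix.GeneralLinearGroup (Fin n) k, Function.Injective ρ →
  ∃ A : Subalgebra ℤ k, Algebra.FiniteType ℤ A ∧
    ∃ σ : G →* Matrix (Fin n) (Fin n) A, Function.Injective σ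

def L_sel : Prop := ∀ (k : Type) [Field k] [CharZero k] (n : ℕ) (G : Type) [Group G], Group.FG G →
  ∀ ρ : G →* Matrix.GeneralLinearGroup (Fin n) k, Function.Injective ρ →
  ∃ H : Subgroup G, H.FiniteIndex ∧ ∀ g ∈ H, IsOfFinOrder g → g = 1

end Vale.Agent.P092
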