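import Vale.Agent.P092.CMain
import Vale.Agent.P092.SStm

namespace Vale.Agent.P092

theorem cyc3 (G K : Type) [Group G] [Group K] (hG : ICC G)
    (h : (Subgroup.closure {g : G | ¬IsOfFinOrder g}).FiniteIndex) :
    P092S.DetectsOn G K {P | ∃ g : G, ¬IsOfFinOrder g ∧ P = Subgroup.zpowers g} :=
  detects_icc cnv0 hG _ h fun φ tp hF g hg => cyc0 G K φ tp g hg
    (fun i => hF _ ⟨_, fun hf => hg (hf.of_pow (pow_ne_zero i two_ne_zero)), rfl⟩)
    fun i => hF _ ⟨_, fun hf => hg (hf.of_pow (pow_ne_zero i three_ne_zero)), rfl⟩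

theorem lin (hs : L_sel) (k : Type) [Field k] [CharZero k] (n : ℕ) (G K : Type) [Group G]
    [Group K] (hf : Group.FG G) (ρ : G →* Matrix.GeneralLinearGroup (Fin n) k)
    (hρ : Function.Injective ρ) (hG : ICC G) :
    P092S.DetectsOn G K {P | ∃ g : G, ¬IsOfFinOrder g ∧ P = Subgroup.zpowers g} := by
  obtain ⟨H, h1, h2⟩ := hs k n G hf ρ hρ
  refine cyc3 G K hG (Subgroup.finiteIndex_of_le (H := H) fun g hg => ?_)
  by_cases h : g = 1
  · rw [h]
    exact Subgroup.one_mem _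
  · exact Subgroup.subset_closure fun hf => h (h2 g hg hf)

end Vale.Agent.P092
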