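import Vale.Agent.P092.SStm

/-! P092: a finitely generated ring maps to a finite field. -/

namespace Vale.Agent.P092

namespace SFldAux

theorem jac : IsJacobsonRing ℤ := by
  refine isJacobsonRing_iff_prime_eq.2 fun P hP => ?_
  by_cases h : P = ⊥
  · subst h
    refine le_antisymm (fun x hx => ?_) bot_le
    have k := Int.isUnit_iff.1 (Ideal.mem_jacobson_bot.1 hx x)
    have k0 := mul_self_nonneg x
    have k1 : x * x = 0 := by omega
    exact (Ideal.mem_bot).2 (mul_self_eq_zero.1 k1)
  · have := hP.isMaximal h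
    exact Ideal.jacobson_eq_self_of_isMaximal

theorem fin (F : Type) [Field F] (h : Algebra.FiniteType ℤ F) : Finite F := by
  have := jac
  have hf : Module.Finite ℤ F := finite_of_finite_type_of_isJacobsonRing ℤ F
  have hi : ¬Function.Injective (algebraMap ℤ F) := fun hi =>
    Int.not_isField ((Algebra.IsIntegral.isField_iff_isField hi).2 (Field.toIsField F))
  rw [injective_iff_map_eq_zero] at hi
  push Not at hi
  obtain ⟨n, h0, hn⟩ := hi
  refine Module.finite_of_fg_torsion F fun x => ⟨⟨n, mem_nonZeroDivisors_of_ne_zero hn⟩, ?_⟩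
  show n • x = 0
  rw [Algebra.smul_def, h0, zero_mul]

end SFldAux

theorem l_fld : L_fld := by
  intro B _ _ hB
  obtain ⟨m, hm⟩ := Ideal.exists_maximal B
  refine ⟨B ⧸ m, Ideal.Quotient.field m, ?_, ⟨Ideal.Quotient.mk m⟩⟩
  exact @SFldAux.fin (B ⧸ m) (Ideal.Quotient.field m)
    (Algebra.FiniteType.of_surjective (Ideal.Quotient.mk m).toIntAlgHom Ideal.Quotient.mk_surjective)

end Vale.Agent.P092
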