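import Vale.Agent.P092.SStm

/-! P092: a matrix of finite order prime to the residue characteristic that reduces to the
identity is the identity. -/

namespace Vale.Agent.P092

theorem l_mat : L_mat := by
  intro A _ _ F _ f n M l hl hf h0
  have h1 : (∑ i ∈ Finset.range l, M ^ i) * (M - 1) = 0 := by
    rw [geom_sum_mul, hl, sub_self]
  have hM : f.mapMatrix M = 1 := hf
  have h2 : f.mapMatrix (∑ i ∈ Finset.range l, M ^ i) =
      (l : F) • (1 : Matrix (Fin n) (Fin n) F) := by
    rw [map_sum]
    simp only [map_pow, hM, one_pow, Finset.sum_const, Finset.card_range]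
    rw [Nat.cast_smul_eq_nsmul]
  have h3 : (∑ i ∈ Finset.range l, M ^ i).det ≠ 0 := by
    intro h
    have h4 := f.map_det (∑ i ∈ Finset.range l, M ^ i)
    rw [h, map_zero, h2, Matrix.det_smul, Matrix.det_one, mul_one] at h4
    exact pow_ne_zero _ h0 h4.symm
  have h5 : (∑ i ∈ Finset.range l, M ^ i).det • (M - 1) = 0 := by
    have h6 := congrArg (fun X => (∑ i ∈ Finset.range l, M ^ i).adjugate * X) h1
    simp only [← Matrix.mul_assoc, Matrix.adjugate_mul, Matrix.mul_zero, Matrix.smul_mul,
      Matrix.one_mul] at h6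
    exact h6
  exact sub_eq_zero.1 ((smul_eq_zero.1 h5).resolve_left h3)

end Vale.Agent.P092
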