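import Vale.Agent.P092.SStm

/-! P092: a finitely generated linear group is defined over a finitely generated ring. -/

namespace Vale.Agent.P092

namespace SRingAux

theorem entries_mem {k : Type} [Field k] {n : ℕ} {G : Type} [Group G]
    (ρ : G →* Matrix.GeneralLinearGroup (Fin n) k) (S : Set G) (hS : Submonoid.closure S = ⊤)
    (A : Subalgebra ℤ k) (hA : ∀ s ∈ S, ∀ i j, (ρ s).1 i j ∈ A) (g : G) :
    ∀ i j, (ρ g).1 i j ∈ A := by
  have hg : g ∈ Submonoid.closure S := by rw [hS]; exact Submonoid.mem_top g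
  induction hg using Submonoid.closure_induction with
  | mem x hx => exact hA x hx
  | one =>
    intro i j
    rw [map_one, Units.val_one, Matrix.one_apply]
    split_ifs
    · exact A.one_mem
    · exact A.zero_mem
  | mul x y _ _ hx hy =>
    intro i j
    rw [map_mul, Units.val_mul, Matrix.mul_apply]
    exact A.sum_mem fun l _ => A.mul_mem (hx i l) (hy l j)

end SRingAux

theorem l_ring : L_ring := by
  intro k _ n G _ hG ρ hρ
  obtain ⟨S, hS, hSf⟩ := Monoid.fg_iff.1 (Group.fg_iff_monoid_fg.1 hG)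
  obtain ⟨E, hE⟩ : ∃ E : Set k, E = (fun p : G × Fin n × Fin n => (ρ p.1).1 p.2.1 p.2.2) ''
      (S ×ˢ (Set.univ : Set (Fin n × Fin n))) := ⟨_, rfl⟩
  have hEf : E.Finite := by
    rw [hE]
    exact (hSf.prod Set.finite_univ).image _
  have hA : ∀ s ∈ S, ∀ i j, (ρ s).1 i j ∈ Algebra.adjoin ℤ E := by
    intro s hs i j
    apply Algebra.subset_adjoin
    rw [hE]
    exact ⟨(s, i, j), ⟨hs, Set.mem_univ _⟩, rfl⟩
  have hall := SRingAux.entries_mem ρ S hS (Algebra.adjoin ℤ E) hA
  refine ⟨Algebra.adjoin ℤ E, Algebra.FiniteType.adjoin_of_finite hEf, ?_⟩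
  refine ⟨{ toFun := fun g => Matrix.of fun i j => ⟨(ρ g).1 i j, hall g i j⟩
            map_one' := ?_
            map_mul' := ?_ }, ?_⟩
  · ext i j
    simp only [Matrix.of_apply, map_one, Units.val_one, Matrix.one_apply]
    split_ifs <;> rfl
  · intro x y
    ext i j
    simp only [Matrix.of_apply, map_mul, Units.val_mul, Matrix.mul_apply]
    rw [AddSubmonoidClass.coe_finsetSum]
    rfl
  · intro x y hxy
    apply hρ
    apply Units.ext
    ext i j
    have h := congrFun (congrFun hxy i) j
    exact congrArg Subtype.val h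

end Vale.Agent.P092
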