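import Vale.Agent.P092.SStm

/-! P092: the lemma of Selberg. -/

namespace Vale.Agent.P092

namespace SSelAux

theorem ker {A F G : Type} [CommRing A] [Field F] [Finite F] [Group G] {n : ℕ} (f : A →+* F)
    (σ : G →* Matrix (Fin n) (Fin n) A) :
    ∃ H : Subgroup G, H.FiniteIndex ∧ ∀ g ∈ H, (σ g).map f = 1 := by
  refine ⟨((f.mapMatrix (m := Fin n)).toMonoidHom.comp σ).toHomUnits.ker,
    Subgroup.finiteIndex_ker _, fun g hg => ?_⟩
  exact congrArg Units.val (MonoidHom.mem_ker.1 hg)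

end SSelAux

theorem l_sel (h2 : L_two) (hm : L_mat) (hr : L_ring) : L_sel := by
  intro k _ _ n G _ hG ρ hρ
  obtain ⟨A, hA, σ, hσ⟩ := hr k n G hG ρ hρ
  have : CharZero A := RingHom.charZero A.val.toRingHom
  obtain ⟨F, _, F', _, _, _, ⟨f⟩, ⟨f'⟩, hl⟩ := h2 A hA
  obtain ⟨H, i1, k1⟩ := SSelAux.ker f σ
  obtain ⟨H', i2, k2⟩ := SSelAux.ker f' σ
  refine ⟨H ⊓ H', inferInstance, fun g hg ho => ?_⟩
  by_contra hne
  obtain ⟨l, lp, c, hc⟩ := Nat.exists_prime_and_dvd (mt orderOf_eq_one_iff.1 hne)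
  have o0 := ho.orderOf_pos
  have c0 : c ≠ 0 := fun h => by
    rw [h, mul_zero] at hc
    omega
  have c1 : c < orderOf g := by
    rw [hc]
    exact lt_mul_of_one_lt_left (Nat.pos_of_ne_zero c0) lp.one_lt
  have m := (H ⊓ H').pow_mem hg c
  have e : σ (g ^ c) ^ l = 1 := by
    rw [← map_pow, ← pow_mul, mul_comm, ← hc, pow_orderOf_eq_one, map_one]
  refine pow_ne_one_of_lt_orderOf c0 c1 (hσ ?_)
  rw [map_one]
  rcases hl l lp with h | h
  · exact hm A F f n _ l e (k1 _ m.1) h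
  · exact hm A F' f' n _ l e (k2 _ m.2) h

end Vale.Agent.P092
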