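import Vale.Agent.P092.SStm

/-! P092: two finite residue fields of different characteristic. -/

namespace Vale.Agent.P092

namespace STwoAux

theorem ft_trans (A B : Type) [CommRing A] [CommRing B] [Algebra A B]
    (hA : Algebra.FiniteType ℤ A) (hB : Algebra.FiniteType A B) : Algebra.FiniteType ℤ B :=
  Algebra.FiniteType.trans hA hB

end STwoAux

theorem l_two (h : L_fld) : L_two := by
  intro A _ _ _ hA
  obtain ⟨F, hF, hfin, ⟨f⟩⟩ := h A hA
  have hp0 : ringChar F ≠ 0 := CharP.char_ne_zero_of_finite F (ringChar F)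
  have hp : (ringChar F).Prime :=
    (CharP.char_is_prime_or_zero F (ringChar F)).resolve_right hp0
  have hpA : ((ringChar F : ℕ) : A) ≠ 0 := Nat.cast_ne_zero.mpr hp0
  have hdom : IsDomain (Localization.Away ((ringChar F : ℕ) : A)) :=
    IsLocalization.isDomain_localization (powers_le_nonZeroDivisors_of_noZeroDivisors hpA)
  have hft : Algebra.FiniteType A (Localization.Away ((ringChar F : ℕ) : A)) :=
    IsLocalization.finiteType_of_monoid_fg (Submonoid.powers ((ringChar F : ℕ) : A)) _
  obtain ⟨F', hF', hfin', ⟨g⟩⟩ := h (Localization.Away ((ringChar F : ℕ) : A))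
    (STwoAux.ft_trans A (Localization.Away ((ringChar F : ℕ) : A)) hA hft)
  have hu : IsUnit (((ringChar F : ℕ) : F')) := by
    have h1 : IsUnit (algebraMap A (Localization.Away ((ringChar F : ℕ) : A))
        ((ringChar F : ℕ) : A)) := IsLocalization.Away.algebraMap_isUnit _
    have h2 := h1.map g
    rwa [map_natCast, map_natCast] at h2
  refine ⟨F, hF, F', hF', hfin, hfin', ⟨f⟩,
    ⟨g.comp (algebraMap A (Localization.Away ((ringChar F : ℕ) : A)))⟩, ?_⟩
  intro l hl
  by_cases hlF : (l : F) = 0
  · right
    have hd : ringChar F ∣ l := (ringChar.spec F l).mp hlF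
    have he : ringChar F = l := (Nat.prime_dvd_prime_iff_eq hp hl).mp hd
    rw [← he]
    exact hu.ne_zero
  · exact Or.inl hlF

end Vale.Agent.P092
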