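import Vale.Agent.P092.SAsm
import Vale.Agent.P092.SFld
import Vale.Agent.P092.STwo
import Vale.Agent.P092.SMat
import Vale.Agent.P092.SRing
import Vale.Agent.P092.SSel

namespace Vale.Agent.P092

theorem sel0 : L_sel := l_sel (l_two l_fld) l_mat l_ring

end Vale.Agent.P092
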