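import Vale.Agent.P086.Regular
import Vale.Agent.P092.Defs

/-! P092: statements of the steps. -/

open Filter Topology

namespace Vale.Agent.P092

open Vale.Agent.P086

noncomputable section

variable {G K : Type} [Group G] [Group K]

theorem mem (x : LG G) : x.1 ∈ vN G := mem_groupVN.1 x.2

/-- canonical unitary -/
def u (g : G) : LG G := ⟨lam g, mem_groupVN.2 (lam_mem_vN g)⟩

/-- Fourier coefficient -/
def cf (x : LG G) (g : G) : ℂ := x.1 (dl 1) g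

/-- two-norm -/
def n2 (x : LG G) : ℝ := ‖x.1 (dl 1)‖

def Sup (x : LG G) (A : Subgroup G) : Prop := ∀ g, cf x g ≠ 0 → g ∈ A

def TP (φ : LG G ≃⋆ₐ[ℂ] LG K) : Prop := ∀ x, cf (φ x) 1 = cf x 1

def Inf (A : Subgroup G) (γ : G) : Prop := {a | a ∈ A ∧ γ⁻¹ * a * γ ∈ A}.Infinite

def Glk (φ : LG G ≃⋆ₐ[ℂ] LG K) (A : Subgroup G) (S : Subgroup K) : Prop :=
  (∀ σ ∈ S, Sup (φ.symm (u σ)) A) ∧ ∀ a ∈ A, Sup (φ (u a)) S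

def Mono (φ : LG G ≃⋆ₐ[ℂ] LG K) (g : G) : Prop := ∃ (c : ℂ) (k : K), φ (u g) = c • u k

structure Tri (A B : Subgroup G) : Prop where
  ne : ∃ a ∈ A, a ≠ 1
  dis : ∀ g ∈ A, g ∈ B → g = 1
  uniq : ∀ a ∈ A, a ≠ 1 → ∀ a' ∈ A, ∀ b ∈ B, ∀ b' ∈ B, ∀ c ∈ B, ∀ c' ∈ B,
    b * a * c = b' * a' * c' → c = c'
  inf : ∀ a ∈ A, ∀ b ∈ B, Inf A (b * a * b⁻¹)
  fin : ∀ a ∈ A, ∀ b ∈ B, ∀ c ∈ B, b ≠ c → ¬Inf A (b * a * c⁻¹)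

end

/-- algebra of coefficients -/
structure B1 (G : Type) [Group G] : Prop where
  self : ∀ g : G, cf (u g) g = 1
  ne : ∀ g h : G, h ≠ g → cf (u g) h = 0
  ext : ∀ x y : LG G, (∀ g, cf x g = cf y g) → x = y
  star : ∀ (x : LG G) g, cf (star x) g = (starRingEnd ℂ) (cf x g⁻¹)
  mul : ∀ g h : G, u (g * h) = u g * u h
  one : u (1 : G) = 1
  inv : ∀ g : G, Star.star (u g) = u g⁻¹
  left : ∀ (g : G) (x : LG G) k, cf (u g * x) k = cf x (g⁻¹ * k)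
  right : ∀ (g : G) (x : LG G) k, cf (x * u g) k = cf x (k * g⁻¹)
  comm : ∀ x y : LG G, cf (x * y) 1 = cf (y * x) 1
  add : ∀ (x y : LG G) g, cf (x + y) g = cf x g + cf y g
  sub : ∀ (x y : LG G) g, cf (x - y) g = cf x g - cf y g
  smul : ∀ (c : ℂ) (x : LG G) g, cf (c • x) g = c * cf x g
  zero : ∀ g : G, cf (0 : LG G) g = 0
  sum : ∀ (ι : Type) (F : Finset ι) (x : ι → LG G) g, cf (∑ i ∈ F, x i) g = ∑ i ∈ F, cf (x i) g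

/-- convolution and the two-norm -/
structure B2 (G : Type) [Group G] : Prop where
  conv : ∀ (x y : LG G) g, HasSum (fun k => cf x (g * k⁻¹) * cf y k) (cf (x * y) g)
  left : ∀ x y : LG G, n2 (x * y) ≤ ‖x.1‖ * n2 y
  right : ∀ x y : LG G, n2 (x * y) ≤ n2 x * ‖y.1‖
  star : ∀ x : LG G, n2 (star x) = n2 x
  le : ∀ (x : LG G) g, ‖cf x g‖ ≤ n2 x
  op : ∀ x : LG G, n2 x ≤ ‖x.1‖
  sq : ∀ x : LG G, cf (Star.star x * x) 1 = ((n2 x ^ 2 : ℝ) : ℂ)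
  uni : ∀ x : LG G, Star.star x * x = 1 → ‖x.1‖ ≤ 1

/-- approximation and supports -/
structure B3 (G : Type) [Group G] : Prop where
  app : ∀ (x : LG G) (ε : ℝ), 0 < ε → ∃ F : Finset G, n2 (x - ∑ g ∈ F, cf x g • u g) ≤ ε
  fin : ∀ (x : LG G) (ε : ℝ), 0 < ε → {g | ε ≤ ‖cf x g‖}.Finite
  sup : ∀ (A : Subgroup G) (x : LG G), x.1 ∈ subVN A → Sup x A
  mem : ∀ (A : Subgroup G), ∀ g ∈ A, (u g).1 ∈ subVN A

def S_b1 : Prop := ∀ (G : Type) [Group G], B1 G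

def S_b2 : Prop := ∀ (G : Type) [Group G], B2 G

def S_b3 : Prop := ∀ (G : Type) [Group G], B3 G

structure Base : Prop where
  b1 : S_b1
  b2 : S_b2
  b3 : S_b3

/-! ### Mixing -/

def S_mix1 : Prop := ∀ (G : Type) [Group G] (A : Subgroup G) (a b : ℕ → LG G) (k γ : G),
  (∀ n, ‖(b n).1‖ ≤ 1 ∧ Sup (a n) A ∧ Sup (b n) A) →
  (∀ g, Tendsto (fun n => cf (a n) g) atTop (𝓝 0)) → ¬Inf A γ →
  Tendsto (fun n => cf (a n * u k * b n) γ) atTop (𝓝 0)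

def S_mix : Prop := ∀ (G : Type) [Group G] (A : Subgroup G) (a b : ℕ → LG G) (y : LG G) (γ : G),
  (∀ n, ‖(a n).1‖ ≤ 1 ∧ ‖(b n).1‖ ≤ 1 ∧ Sup (a n) A ∧ Sup (b n) A) →
  (∀ g, Tendsto (fun n => cf (a n) g) atTop (𝓝 0)) → ¬Inf A γ →
  Tendsto (fun n => cf (a n * y * b n) γ) atTop (𝓝 0)

def S_ker : Prop := ∀ (G K : Type) [Group G] [Group K] (φ : LG G ≃⋆ₐ[ℂ] LG K), TP φ →
  TP φ.symm ∧ (∀ g k, cf (φ.symm (u k)) g = (starRingEnd ℂ) (cf (φ (u g)) k)) ∧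
  (∀ g, ∃ k, cf (φ (u g)) k ≠ 0) ∧ (∀ k, ∃ g, cf (φ (u g)) k ≠ 0) ∧
  ∀ g k (c : ℂ), φ (u g) = c • u k → ‖c‖ = 1

def S_dich : Prop := ∀ (G K : Type) [Group G] [Group K] (φ : LG G ≃⋆ₐ[ℂ] LG K) (A : Subgroup G)
  (S : Subgroup K), TP φ → (∀ σ ∈ S, Sup (φ.symm (u σ)) A) → ∀ ρ γ, Inf S ρ → ¬Inf A γ →
  cf (φ.symm (u ρ)) γ = 0

def S_tri : Prop := ∀ (G : Type) [Group G] (A B : Subgroup G), Heis A B → Tri A B

def S_conv : Prop := ∀ (G : Type) [Group G] (A B : Subgroup G) (x y : LG G), Tri A B →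
  Sup x B → Sup y A → ∀ a ∈ A, a ≠ 1 → ∀ b ∈ B, ∀ c ∈ B,
  cf (x * y * star x) (b * a * c⁻¹) = cf x b * cf y a * (starRingEnd ℂ) (cf x c)

def S_pair : Prop := ∀ (G K : Type) [Group G] [Group K] (φ : LG G ≃⋆ₐ[ℂ] LG K)
  (A B : Subgroup G) (S T : Subgroup K), TP φ → Tri A B → Glk φ A S → Glk φ B T →
  ∀ b ∈ B, Mono φ b

def S_sub : Prop := ∀ (G K : Type) [Group G] [Group K] (φ : LG G ≃⋆ₐ[ℂ] LG K),
  ∃ H : Subgroup G, ∀ g, g ∈ H ↔ Mono φ g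

def S_icc : Prop := ∀ (G : Type) [Group G] (H : Subgroup G), ICC G → H.FiniteIndex →
  ∀ k : G, k ≠ 1 → ∀ γ : G, {m | ∃ g, g ∈ H ∧ γ * g * γ⁻¹ ∈ H ∧ m = g * k * g⁻¹}.Infinite

def S_fin : Prop := ∀ (G K : Type) [Group G] [Group K] (φ : LG G ≃⋆ₐ[ℂ] LG K) (H : Subgroup G),
  ICC G → TP φ → H.FiniteIndex → (∀ g ∈ H, Mono φ g) → ∀ g, Mono φ g

def S_can : Prop := ∀ (G K : Type) [Group G] [Group K] (φ : LG G ≃⋆ₐ[ℂ] LG K), TP φ →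
  (∀ g, Mono φ g) → ∃ (δ : G ≃* K) (χ : G →* Circle), ∀ g, φ (u g) = (χ g : ℂ) • u (δ g)

def S_conj : Prop := ∀ (G K : Type) [Group G] [Group K] (θ : LG G ≃⋆ₐ[ℂ] LG K) (w : LG K),
  w ∈ unitary (LG K) → ∃ φ : LG G ≃⋆ₐ[ℂ] LG K,
    (∀ A, GroupLike θ w A → ∃ S, Glk φ A S) ∧
    ((∃ (δ : G ≃* K) (χ : G →* Circle), ∀ g, φ (u g) = (χ g : ℂ) • u (δ g)) → Canonical θ w)

/-! ### Every isomorphism preserves the trace -/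

def S_fun : Prop := ∀ (G : Type) [Group G], ∃ F : LG G → LG G,
  (∀ s, 0 ≤ s.1 → 0 ≤ (F s).1 ∧ (F s).1 ≤ 1 ∧ (F s).1 ≤ s.1 ∧
    (s.1 ≤ 1 → s.1 ≤ (F s).1 + (F s).1)) ∧
  ∀ s t, 0 ≤ s.1 → s.1 ≤ t.1 → (F s).1 ≤ (F t).1

def S_vig : Prop := ∀ (G : Type) [Group G] (T : ℕ → Bdd (L2 G)), (∀ n, 0 ≤ T n ∧ T n ≤ 1) →
  (Monotone T ∨ Antitone T) → ∃ k : Bdd (L2 G), ∀ ξ, Tendsto (fun n => T n ξ) atTop (𝓝 (k ξ))

def S_lim : Prop := ∀ (G : Type) [Group G],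
  (∀ (T S : ℕ → Bdd (L2 G)) (k l : Bdd (L2 G)), (∀ ξ, Tendsto (fun n => T n ξ) atTop (𝓝 (k ξ))) →
    (∀ ξ, Tendsto (fun n => S n ξ) atTop (𝓝 (l ξ))) → (∀ᶠ n in atTop, T n ≤ S n) → k ≤ l) ∧
  ∀ (T : ℕ → LG G) (k : Bdd (L2 G)), (∀ ξ, Tendsto (fun n => (T n).1 ξ) atTop (𝓝 (k ξ))) →
    ∃ x : LG G, x.1 = k ∧ Tendsto (fun n => (cf (T n) 1).re) atTop (𝓝 (cf x 1).re)

def S_ord : Prop := ∀ (G : Type) [Group G],
  (∀ x y : LG G, x.1 ≤ y.1 ↔ ∃ z : LG G, y - x = star z * z) ∧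
  (∀ x y : LG G, x.1 ≤ y.1 → (cf x 1).re ≤ (cf y 1).re) ∧
  (∀ x : LG G, 0 ≤ x.1 → (cf x 1).re ≤ 0 → x = 0) ∧
  (∀ x : LG G, ‖x.1‖ ≤ 1 → (star x * x).1 ≤ 1) ∧
  ∀ (K : Type) [Group K] (ψ : LG G ≃⋆ₐ[ℂ] LG K) (x y : LG G), x.1 ≤ y.1 → (ψ x).1 ≤ (ψ y).1

def S_dec : Prop := ∀ (G K : Type) [Group G] [Group K] (ψ : LG G ≃⋆ₐ[ℂ] LG K) (h : ℕ → LG G),
  (∀ n, 0 ≤ (h n).1 ∧ (h n).1 ≤ 1) → (Antitone fun n => (h n).1) →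
  Tendsto (fun n => (cf (h n) 1).re) atTop (𝓝 0) →
  Tendsto (fun n => (cf (ψ (h n)) 1).re) atTop (𝓝 0)

def S_env : Prop := ∀ (G : Type) [Group G] (y : ℕ → LG G),
  (∀ n, 0 ≤ (y n).1 ∧ (y n).1 ≤ 1 ∧ (cf (y n) 1).re ≤ (1 / 2) ^ n) →
  ∃ h : ℕ → LG G, (∀ n, 0 ≤ (h n).1 ∧ (h n).1 ≤ 1 ∧ (y n).1 ≤ (h n + h n).1 ∧
    (cf (h n) 1).re ≤ 2 * (1 / 2) ^ n) ∧ Antitone fun n => (h n).1

def S_cont : Prop := ∀ (G K : Type) [Group G] [Group K] (ψ : LG G ≃⋆ₐ[ℂ] LG K) (ε : ℝ), 0 < ε →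
  ∃ δ > 0, ∀ x : LG G, ‖x.1‖ ≤ 1 → n2 x ≤ δ → n2 (ψ x) ≤ ε

def S_avg : Prop := ∀ (G : Type) [Group G], ICC G → ∀ V : Set (L2 G), Convex ℝ V → V.Nonempty →
  (∀ g, ∀ ξ ∈ V, lam g (rho g ξ) ∈ V) → (∀ ξ ∈ V, ξ 1 = 0) → ∀ δ > 0, ∃ ξ ∈ V, ‖ξ‖ ≤ δ

def S_tr : Prop := ∀ (G K : Type) [Group G] [Group K] (ψ : LG G ≃⋆ₐ[ℂ] LG K), ICC G → TP ψ

/-! ### Elementary matrices -/

abbrev SL (n : ℕ) (R : Type) [CommRing R] : Type := Matrix.SpecialLinearGroup (Fin n) R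

/-- the subgroup generated by the root groups with both indices in `s` -/
def EE (R : Type) [CommRing R] {n : ℕ} (s : Finset (Fin n)) : Subgroup (SL n R) :=
  ⨆ i ∈ s, ⨆ j ∈ s, root R i j

def S_root : Prop := ∀ (R : Type) [CommRing R] (n : ℕ) (i j : Fin n) (h : i ≠ j) (g : SL n R),
  g ∈ root R i j ↔ ∃ r : R, g = Matrix.SpecialLinearGroup.transvection h r

def S_heis : Prop := ∀ (R : Type) [CommRing R] [IsDomain R] [Infinite R] (n : ℕ) (G : Type)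
  [Group G] (π : SL n R →* G), π.ker ≤ Subgroup.center (SL n R) → ∀ i j k : Fin n, i ≠ j →
  j ≠ k → i ≠ k → Heis ((root R i j).map π) ((root R j k).map π)

def S_cyc : Prop := ∀ (R : Type) [CommRing R] (n : ℕ) [NeZero n] (H : Subgroup (SL n R)),
  (∀ i : Fin n, root R i (i + 1) ≤ H) → ∀ i j : Fin n, root R i j ≤ H

def S_euc : Prop := ∀ (R : Type) [EuclideanDomain R] (n : ℕ) (s : Finset (Fin n)) (i j : Fin n),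
  i ∈ s → j ∈ s → i ≠ j → ∀ v : Fin n → R, ∃ e ∈ EE R s,
    (e.1.mulVec v) j = 0 ∧ ∀ l, l ≠ i → l ≠ j → (e.1.mulVec v) l = v l

def S_col : Prop := ∀ (R : Type) [EuclideanDomain R] (n : ℕ) (s : Finset (Fin n)) (i : Fin n),
  i ∈ s → ∀ v : Fin n → R, ∃ e ∈ EE R s,
    (∀ l ∈ s, l ≠ i → (e.1.mulVec v) l = 0) ∧ ∀ l, l ∉ s → (e.1.mulVec v) l = v l

/-- outside `s` the matrix looks like the identity -/
def Idn {R : Type} [CommRing R] {n : ℕ} (s : Finset (Fin n)) (g : SL n R) : Prop :=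
  ∀ i j, (i ∉ s ∨ j ∉ s) → g.1 i j = (1 : Matrix (Fin n) (Fin n) R) i j

def S_idn : Prop := ∀ (R : Type) [CommRing R] (n : ℕ) (s : Finset (Fin n)),
  (∀ g h : SL n R, Idn s g → Idn s h → Idn s (g * h)) ∧ ∀ e ∈ EE R s, Idn s e

def S_unit : Prop := ∀ (R : Type) [CommRing R] (n : ℕ) (s : Finset (Fin n)) (i j : Fin n),
  i ∈ s → j ∈ s → i ≠ j → ∀ g : SL n R, (∀ l, l ≠ i → g.1 l i = 0) →
  ∃ e ∈ EE R s, ∀ l, (e * g).1 l i = (1 : Matrix (Fin n) (Fin n) R) l i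

def S_row : Prop := ∀ (R : Type) [CommRing R] (n : ℕ) (s : Finset (Fin n)) (i : Fin n), i ∈ s →
  ∀ g : SL n R, Idn s g → (∀ l, g.1 l i = (1 : Matrix (Fin n) (Fin n) R) l i) →
  ∃ e ∈ EE R s, Idn (s.erase i) (g * e)

def S_gen : Prop := ∀ (R : Type) [EuclideanDomain R] (n : ℕ) (g : SL n R),
  g ∈ EE R (Finset.univ : Finset (Fin n))

/-! ### Goals -/

def GoalA : Prop := ∀ (G K : Type) [Group G] [Group K], ICC G → ICC K →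
  ∀ (θ : LG G ≃⋆ₐ[ℂ] LG K) (w : LG K), w ∈ unitary (LG K) →
  ∀ (ι : Type) (A B : ι → Subgroup G), (⨆ i, B i).FiniteIndex →
    (∀ i, Heis (A i) (B i) ∧ GroupLike θ w (A i) ∧ GroupLike θ w (B i)) → Canonical θ w

def GoalB : Prop := ∀ (R : Type) [EuclideanDomain R] [Infinite R] (n : ℕ) [NeZero n], 3 ≤ n →
  ∀ (G K : Type) [Group G] [Group K] (π : Matrix.SpecialLinearGroup (Fin n) R →* G),
  Function.Surjective π → π.ker ≤ Subgroup.center _ → ICC K →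
  ∀ (θ : LG G ≃⋆ₐ[ℂ] LG K) (w : LG K), w ∈ unitary (LG K) →
    (∀ i : Fin n, GroupLike θ w ((root R i (i + 1)).map π)) → Canonical θ w

end Vale.Agent.P092
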